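import Vale.Agent.P207.H395.Spec4

/-!
# P207, block SPEC: finiteness of the spectrum below a bound
-/

open Filter Topology
open scoped InnerProductSpace

noncomputable section

set_option linter.unusedSectionVars false

namespace Vale.Agent.P207.H395

namespace HSys

variable {ι : Type} [Fintype ι] {H : Type} [NormedAddCommGroup H] [InnerProductSpace ℝ H]
  [CompleteSpace H]

variable (S : HSys ι H) {B : H →L[ℝ] H}

/-- the vectors whose components above `R` vanish -/
def low (hB : Pos B) (R : ℝ) : Submodule ℝ H :=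
  ⨅ l : {l : ℝ // R < l}, LinearMap.ker (S.proj hB l).toLinearMap

theorem mem_low {hB : Pos B} {R : ℝ} {u : H} :
    u ∈ S.low hB R ↔ ∀ l, R < l → S.proj hB l u = 0 := by
  simp only [low, Submodule.mem_iInf, LinearMap.mem_ker, Subtype.forall]
  exact Iff.rfl

theorem isClosed_low (hB : Pos B) (R : ℝ) : IsClosed (S.low hB R : Set H) := by
  have h1 : (S.low hB R : Set H) = ⋂ l : {l : ℝ // R < l}, {u | S.proj hB l u = 0} := by
    ext u
    simp only [SetLike.mem_coe, S.mem_low, Set.mem_iInter, Set.mem_ofPred_eq, Subtype.forall]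
  rw [h1]
  exact isClosed_iInter fun l => isClosed_eq (S.proj hB l).continuous continuous_const

theorem norm_le_of_low (hR : S.Rel) {hB : Pos B} {R : ℝ} (hR0 : 0 ≤ R) {u : H}
    (hu : u ∈ S.low hB R) : ‖u‖ ≤ R * ‖S.res hB u‖ := by
  refine le_of_forall_pos_le_add fun ε hε => ?_
  obtain ⟨F, hF⟩ := S.exists_sum_proj hR hB u hε
  have h1 := hF F (Finset.Subset.refl F)
  have h2 : ‖∑ l ∈ F, S.proj hB l u‖ ≤ R * ‖∑ l ∈ F, S.proj hB l (S.res hB u)‖ := by
    refine (pow_le_pow_iff_left₀ (norm_nonneg _) (by positivity) two_ne_zero).1 ?_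
    have e1 := S.norm_sq_sum_proj hB F (fun _ => 1) u
    have e2 := S.norm_sq_sum_proj hB F (fun _ => 1) (S.res hB u)
    simp only [one_smul, one_pow, one_mul] at e1 e2
    rw [mul_pow, e1, e2, Finset.mul_sum]
    refine Finset.sum_le_sum fun l _ => ?_
    rw [S.proj_res, norm_smul, mul_pow, ← mul_assoc]
    rcases eq_or_ne (S.proj hB l u) 0 with h0 | h0
    · simp [h0]
    · have hl1 : 1 ≤ l := S.one_le_of_eig (S.proj_mem hB l u) h0
      have hl2 : l ≤ R := by
        by_contra h
        exact h0 (S.mem_low.1 hu l (not_le.1 h))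
      have h3 : 1 ≤ R ^ 2 * ‖l⁻¹‖ ^ 2 := by
        rw [← mul_pow, Real.norm_eq_abs, abs_of_nonneg (inv_nonneg.2 (by linarith)),
          ← div_eq_mul_inv]
        exact one_le_pow₀ ((one_le_div (by linarith)).2 hl2)
      nlinarith [sq_nonneg ‖S.proj hB l u‖]
  calc ‖u‖ = ‖(u - ∑ l ∈ F, S.proj hB l u) + ∑ l ∈ F, S.proj hB l u‖ := by rw [sub_add_cancel]
    _ ≤ ‖u - ∑ l ∈ F, S.proj hB l u‖ + ‖∑ l ∈ F, S.proj hB l u‖ := norm_add_le _ _
    _ ≤ ε + R * ‖S.res hB u‖ := add_le_add h1.le
        (h2.trans (mul_le_mul_of_nonneg_left (S.norm_sum_proj_le hB F _) hR0))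
    _ = _ := by ring

/-- **finiteness**: the vectors with components below `R` form a finite dimensional space -/
theorem finiteDimensional_low (hR : S.Rel) (hB : Pos B) (R : ℝ) :
    FiniteDimensional ℝ (S.low hB R) := by
  have hmono : S.low hB R ≤ S.low hB (max R 0) := fun u hu =>
    S.mem_low.2 fun l hl => S.mem_low.1 hu l (lt_of_le_of_lt (le_max_left _ _) hl)
  have hR0 : 0 ≤ max R 0 := le_max_right _ _
  generalize max R 0 = R' at hmono hR0
  have hfd : FiniteDimensional ℝ (S.low hB R') := by
    have : CompleteSpace (S.low hB R') := (S.isClosed_low hB R').completeSpace_coe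
    let f : S.low hB R' →L[ℝ] H := (S.res hB).comp (S.low hB R').subtypeL
    have hf : AntilipschitzWith ⟨R', hR0⟩ f :=
      f.antilipschitz_of_bound (K := ⟨R', hR0⟩) fun u => S.norm_le_of_low hR hR0 u.2
    have hce := hf.isClosedEmbedding f.uniformContinuous
    obtain ⟨K, hK, hKs⟩ := IsCompactOperator.image_closedBall_subset_compact
      (f := (S.res hB).toLinearMap) (S.isCompactOperator_res hR hB) 1
    have h1 : IsCompact (f ⁻¹' K) := hce.isCompact_preimage hK
    have h2 : Metric.closedBall (0 : S.low hB R') 1 ⊆ f ⁻¹' K := by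
      intro u hu
      refine hKs ⟨(u : H), ?_, rfl⟩
      rw [mem_closedBall_zero_iff] at hu ⊢
      exact hu
    exact FiniteDimensional.of_isCompact_closedBall₀ ℝ one_pos
      (h1.of_isClosed_subset Metric.isClosed_closedBall h2)
  exact Submodule.finiteDimensional_of_le hmono

/-- finiteness for smooth vectors -/
theorem exists_fin (hG : S.Reg) (hR : S.Rel) (hB : Pos B) (hT : B ∈ S.T) (R : ℝ) :
    ∃ W : Submodule ℝ S.A, FiniteDimensional ℝ W ∧
      ∀ x : S.A, (∀ l, R < l → S.projA hG hB hT l x = 0) → x ∈ W := by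
  have := S.finiteDimensional_low hR hB R
  refine ⟨(S.low hB R).comap S.A.subtype, ?_, fun x hx => ?_⟩
  · have hinj : Function.Injective
        ((S.A.subtype.domRestrict ((S.low hB R).comap S.A.subtype)).codRestrict (S.low hB R)
          fun x => x.2) := by
      intro x y hxy
      have h1 := congrArg Subtype.val hxy
      exact Subtype.ext (Subtype.ext h1)
    exact FiniteDimensional.of_injective _ hinj
  · rw [Submodule.mem_comap, S.mem_low]
    intro l hl
    exact congrArg Subtype.val (hx l hl)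

end HSys

end Vale.Agent.P207.H395
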