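import Mathlib

/-!
# P207, block SPEC: Hilbert space systems of skew derivations (abstract elliptic theory)

`HSys ι H`: a Hilbert space `H` with a dense space `A` of smooth vectors, finitely many skew
operators `X i : A → A`, which generate one-parameter groups `U i`, and an algebra `T` of smooth
multipliers.
-/

open Filter Topology
open scoped InnerProductSpace

noncomputable section

namespace Vale.Agent.P207.H395

variable {ι : Type} [Fintype ι] {H : Type} [NormedAddCommGroup H] [InnerProductSpace ℝ H]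
  [CompleteSpace H]

/-- Smooth vectors, skew derivations, their one-parameter groups, smooth multipliers. -/
structure HSys (ι : Type) [Fintype ι] (H : Type) [NormedAddCommGroup H] [InnerProductSpace ℝ H]
    [CompleteSpace H] where
  A : Submodule ℝ H
  dense : Dense (A : Set H)
  X : ι → A →ₗ[ℝ] A
  skew : ∀ i (u v : A), ⟪(X i u : H), (v : H)⟫_ℝ = - ⟪(u : H), (X i v : H)⟫_ℝ
  U : ι → ℝ → H →L[ℝ] H
  U_zero : ∀ i, U i 0 = 1
  U_add : ∀ i s t, U i (s + t) = U i s * U i t
  U_norm : ∀ i t u, ‖U i t u‖ = ‖u‖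
  U_mem : ∀ i t, ∀ u ∈ A, U i t u ∈ A
  U_deriv : ∀ i (u : A), HasDerivAt (fun t => U i t (u : H)) (X i u : H) 0
  XU_deriv : ∀ i j (u : A), HasDerivAt (fun t => (X i ⟨U j t u, U_mem j t u u.2⟩ : H))
    (X i (X j u) : H) 0
  T : Subalgebra ℝ (H →L[ℝ] H)
  T_mem : ∀ P ∈ T, ∀ u ∈ A, P u ∈ A
  T_adj : ∀ P ∈ T, ContinuousLinearMap.adjoint P ∈ T
  T_comm : ∀ i, ∀ P (hP : P ∈ T), ∃ Q ∈ T, ∀ u : A,
    (X i ⟨P u, T_mem P hP u u.2⟩ : H) = P (X i u) + Q u
  comm : ∀ i j, ∃ c : ι → H →L[ℝ] H, (∀ k, c k ∈ T) ∧ ∀ u : A,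
    (X i (X j u) : H) - X j (X i u) = ∑ k, c k (X k u)

namespace HSys

variable (S : HSys ι H)

/-- the group on smooth vectors -/
def UA (i : ι) (t : ℝ) (u : S.A) : S.A := ⟨S.U i t u, S.U_mem i t u u.2⟩

@[simp] theorem coe_UA (i : ι) (t : ℝ) (u : S.A) : (S.UA i t u : H) = S.U i t u := rfl

theorem UA_zero (i : ι) (u : S.A) : S.UA i 0 u = u := by
  apply Subtype.ext; simp [S.U_zero]

theorem U_U (i : ι) (s t : ℝ) (u : H) : S.U i s (S.U i t u) = S.U i (s + t) u := by
  rw [S.U_add]; rfl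

theorem UA_UA (i : ι) (s t : ℝ) (u : S.A) : S.UA i s (S.UA i t u) = S.UA i (s + t) u := by
  apply Subtype.ext; exact S.U_U i s t u

theorem U_neg_U (i : ι) (t : ℝ) (u : H) : S.U i (-t) (S.U i t u) = u := by
  rw [S.U_U]; simp [S.U_zero]

theorem U_U_neg (i : ι) (t : ℝ) (u : H) : S.U i t (S.U i (-t) u) = u := by
  rw [S.U_U]; simp [S.U_zero]

theorem UA_neg_UA (i : ι) (t : ℝ) (u : S.A) : S.UA i (-t) (S.UA i t u) = u := by
  apply Subtype.ext; exact S.U_neg_U i t u

theorem UA_UA_neg (i : ι) (t : ℝ) (u : S.A) : S.UA i t (S.UA i (-t) u) = u := by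
  apply Subtype.ext; exact S.U_U_neg i t u

theorem inner_U_U (i : ι) (t : ℝ) (u v : H) : ⟪S.U i t u, S.U i t v⟫_ℝ = ⟪u, v⟫_ℝ := by
  have h := fun w => S.U_norm i t w
  have e1 : ⟪S.U i t u, S.U i t v⟫_ℝ = (‖S.U i t u + S.U i t v‖ * ‖S.U i t u + S.U i t v‖ -
      ‖S.U i t u‖ * ‖S.U i t u‖ - ‖S.U i t v‖ * ‖S.U i t v‖) / 2 := by
    rw [real_inner_eq_norm_add_mul_self_sub_norm_mul_self_sub_norm_mul_self_div_two]
  have e2 : ⟪u, v⟫_ℝ = (‖u + v‖ * ‖u + v‖ - ‖u‖ * ‖u‖ - ‖v‖ * ‖v‖) / 2 := by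
    rw [real_inner_eq_norm_add_mul_self_sub_norm_mul_self_sub_norm_mul_self_div_two]
  rw [e1, e2, ← map_add, h, h, h]

theorem inner_U_left (i : ι) (t : ℝ) (u v : H) : ⟪S.U i t u, v⟫_ℝ = ⟪u, S.U i (-t) v⟫_ℝ := by
  conv_lhs => rw [← S.U_U_neg i t v]
  exact S.inner_U_U i t u _

/-- the derivative of the group at all times -/
theorem hasDerivAt_U (i : ι) (u : S.A) (s : ℝ) :
    HasDerivAt (fun t => S.U i t (u : H)) (S.U i s (S.X i u)) s := by
  have h1 := S.U_deriv i u
  have h2 : HasDerivAt (fun t => S.U i s (S.U i t (u : H))) (S.U i s (S.X i u)) 0 :=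
    (S.U i s).hasFDerivAt.comp_hasDerivAt 0 h1
  have h3 : HasDerivAt (fun t => S.U i s (S.U i (t - s) (u : H))) (S.U i s (S.X i u)) s := by
    have h4 : HasDerivAt (fun t => S.U i s (S.U i t (u : H))) (S.U i s (S.X i u)) (s - s) := by
      simpa using h2
    exact h4.comp_sub_const s s
  refine h3.congr_of_eventuallyEq (Eventually.of_forall fun t => ?_)
  simp only
  rw [S.U_U]; congr 2; ring

theorem X_UA (i : ι) (s : ℝ) (u : S.A) : (S.X i (S.UA i s u) : H) = S.U i s (S.X i u) := by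
  have h1 := S.hasDerivAt_U i (S.UA i s u) 0
  have h2 := S.hasDerivAt_U i u (0 + s)
  have h3 : HasDerivAt (fun t => S.U i (t + s) (u : H)) (S.U i (0 + s) (S.X i u)) 0 :=
    h2.comp_add_const 0 s
  have h4 : (fun t => S.U i t (S.UA i s u : H)) = fun t => S.U i (t + s) (u : H) := by
    funext t; simp [S.U_U]
  rw [h4] at h1
  have h5 := h1.unique h3
  simpa [S.U_zero] using h5

theorem X_UA' (i : ι) (s : ℝ) (u : S.A) : S.X i (S.UA i s u) = S.UA i s (S.X i u) :=
  Subtype.ext (S.X_UA i s u)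

theorem hasDerivAt_XU (i j : ι) (u : S.A) (s : ℝ) :
    HasDerivAt (fun t => (S.X i (S.UA j t u) : H)) (S.X i (S.X j (S.UA j s u)) : H) s := by
  have h1 := S.XU_deriv i j (S.UA j s u)
  have h4 : HasDerivAt (fun t => (S.X i (S.UA j t (S.UA j s u)) : H))
      (S.X i (S.X j (S.UA j s u)) : H) (s - s) := by
    rw [sub_self]; exact h1
  have h5 := h4.comp_sub_const s s
  refine h5.congr_of_eventuallyEq (Eventually.of_forall fun t => ?_)
  simp only
  rw [S.UA_UA]; congr 3; ring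

/-- strong continuity -/
theorem continuous_U (i : ι) (u : H) : Continuous (fun t => S.U i t u) := by
  -- density of the smooth vectors
  rw [Metric.continuous_iff]
  intro s ε hε
  obtain ⟨v, hv, hd⟩ := Metric.mem_closure_iff.1 (S.dense u) (ε / 3) (by positivity)
  have h1 : ContinuousAt (fun t => S.U i t v) s := (S.hasDerivAt_U i ⟨v, hv⟩ s).continuousAt
  obtain ⟨δ, hδ, h2⟩ := Metric.continuousAt_iff.1 h1 (ε / 3) (by positivity)
  refine ⟨δ, hδ, fun t ht => ?_⟩
  have h3 := h2 ht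
  have h4 : ∀ r, dist (S.U i r u) (S.U i r v) = dist u v := by
    intro r; rw [dist_eq_norm, ← map_sub, S.U_norm, dist_eq_norm]
  calc dist (S.U i t u) (S.U i s u) ≤ dist (S.U i t u) (S.U i t v) + dist (S.U i t v) (S.U i s v)
        + dist (S.U i s v) (S.U i s u) := dist_triangle4 _ _ _ _
    _ < ε / 3 + ε / 3 + ε / 3 := by
        rw [h4 t, dist_comm (S.U i s v), h4 s]
        exact add_lt_add (add_lt_add hd h3) hd
    _ = ε := by ring

/-- product rule for the group applied to a curve of smooth vectors -/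
theorem hasDerivAt_U_comp (j : ι) {v : ℝ → S.A} {v' : H} {s : ℝ}
    (hv : HasDerivAt (fun t => (v t : H)) v' s) :
    HasDerivAt (fun t => S.U j (-t) (v t : H)) (S.U j (-s) v' - S.U j (-s) (S.X j (v s))) s := by
  rw [hasDerivAt_iff_tendsto_slope] at hv ⊢
  have h1 : Tendsto (fun t => S.U j (-t) (slope (fun t => (v t : H)) s t)) (𝓝[≠] s)
      (𝓝 (S.U j (-s) v')) := by
    rw [Metric.tendsto_nhds]
    intro ε hε
    have h2 := (Metric.tendsto_nhds.1 hv) (ε / 2) (by positivity)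
    have h3 : Tendsto (fun t => S.U j (-t) v') (𝓝 s) (𝓝 (S.U j (-s) v')) :=
      ((S.continuous_U j v').comp continuous_neg).continuousAt
    have h4 := (Metric.tendsto_nhds.1 h3) (ε / 2) (by positivity)
    filter_upwards [h2, mem_nhdsWithin_of_mem_nhds h4] with t ht1 ht2
    calc dist (S.U j (-t) (slope (fun t => (v t : H)) s t)) (S.U j (-s) v')
        ≤ dist (S.U j (-t) (slope (fun t => (v t : H)) s t)) (S.U j (-t) v') +
          dist (S.U j (-t) v') (S.U j (-s) v') := dist_triangle _ _ _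
      _ = dist (slope (fun t => (v t : H)) s t) v' + dist (S.U j (-t) v') (S.U j (-s) v') := by
          congr 1
          rw [dist_eq_norm, ← map_sub, S.U_norm, dist_eq_norm]
      _ < ε / 2 + ε / 2 := add_lt_add ht1 ht2
      _ = ε := by ring
  have h5 : HasDerivAt (fun t => S.U j (-t) (v s : H)) (-(S.U j (-s) (S.X j (v s)))) s := by
    have h6 := S.hasDerivAt_U j (v s) (-s)
    have h7 := HasDerivAt.scomp s h6 (hasDerivAt_neg s)
    simpa [Function.comp_def] using h7
  rw [hasDerivAt_iff_tendsto_slope] at h5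
  have h8 := h1.add h5
  rw [← sub_eq_add_neg] at h8
  refine h8.congr' (Eventually.of_forall fun t => ?_)
  simp only [slope, vsub_eq_sub, map_smul, map_sub]
  rw [← smul_add]
  congr 1
  abel

/-- the gauge of the first derivatives -/
def n1 (u : S.A) : ℝ := ∑ i, ‖(S.X i u : H)‖

theorem n1_nonneg (u : S.A) : 0 ≤ S.n1 u := Finset.sum_nonneg fun _ _ => norm_nonneg _

theorem norm_X_le_n1 (i : ι) (u : S.A) : ‖(S.X i u : H)‖ ≤ S.n1 u :=
  Finset.single_le_sum (f := fun i => ‖(S.X i u : H)‖) (fun _ _ => norm_nonneg _)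
    (Finset.mem_univ i)

/-- The commutator of a derivation with the groups. -/
theorem exists_comm_bound : ∃ C : ℝ, 0 ≤ C ∧ ∀ (i j : ι) (s : ℝ), |s| ≤ 1 → ∀ u : S.A,
    ‖(S.X i (S.UA j s u) : H) - S.U j s (S.X i u)‖ ≤ C * |s| * S.n1 u := by
  classical
  choose c hcT hc using S.comm
  -- a common bound of the multipliers
  set K : ℝ := ∑ i, ∑ j, ∑ k, ‖c i j k‖ with hK
  have hK0 : 0 ≤ K := by positivity
  set m : ℝ := (Fintype.card ι : ℝ)
  have hm0 : 0 ≤ m := Nat.cast_nonneg _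
  have hcK : ∀ i j (u : S.A), ‖∑ k, c i j k (S.X k u : H)‖ ≤ K * S.n1 u := by
    intro i j u
    calc ‖∑ k, c i j k (S.X k u : H)‖ ≤ ∑ k, ‖c i j k‖ * S.n1 u := by
          refine (norm_sum_le _ _).trans (Finset.sum_le_sum fun k _ => ?_)
          exact ((c i j k).le_opNorm _).trans
            (mul_le_mul_of_nonneg_left (S.norm_X_le_n1 k u) (norm_nonneg _))
      _ = (∑ k, ‖c i j k‖) * S.n1 u := by rw [Finset.sum_mul]
      _ ≤ K * S.n1 u := by
          refine mul_le_mul_of_nonneg_right ?_ (S.n1_nonneg u)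
          calc (∑ k, ‖c i j k‖) ≤ ∑ j, ∑ k, ‖c i j k‖ :=
                Finset.single_le_sum (f := fun j => ∑ k, ‖c i j k‖)
                  (fun _ _ => by positivity) (Finset.mem_univ j)
            _ ≤ K := Finset.single_le_sum (f := fun i => ∑ j, ∑ k, ‖c i j k‖)
                  (fun _ _ => by positivity) (Finset.mem_univ i)
  -- the curve
  have key : ∀ (j : ι) (u : S.A) (s : ℝ), 0 ≤ s → s ≤ 1 → ∀ σ : ℝ, (σ = 1 ∨ σ = -1) → ∀ i,
      ‖(S.X i (S.UA j (σ * s) u) : H) - S.U j (σ * s) (S.X i u)‖ ≤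
        (m * K * Real.exp (m * K)) * s * S.n1 u := by
    intro j u s hs0 hs1 σ hσ i
    have hσ1 : |σ| = 1 := by rcases hσ with h | h <;> simp [h]
    -- G r i = U(-σ r) X_i U(σ r) u, in the l1 gauge
    let G : ℝ → ι → H := fun r i => S.U j (-(σ * r)) (S.X i (S.UA j (σ * r) u))
    let G' : ℝ → ι → H := fun r i =>
      σ • S.U j (-(σ * r)) (∑ k, c i j k (S.X k (S.UA j (σ * r) u)))
    have hG1 : ∀ r i, HasDerivAt (fun r => G r i) (G' r i) r := by
      intro r i
      have h1 := S.hasDerivAt_U_comp j (v := fun t => S.X i (S.UA j t u)) (S.hasDerivAt_XU i j u (σ * r))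
      have h2 : HasDerivAt (fun r : ℝ => σ * r) σ r := by
        simpa using (hasDerivAt_id r).const_mul σ
      have h3 := HasDerivAt.scomp r h1 h2
      have h4 : S.U j (-(σ * r)) (S.X i (S.X j (S.UA j (σ * r) u)) : H) -
          S.U j (-(σ * r)) (S.X j (S.X i (S.UA j (σ * r) u))) =
          S.U j (-(σ * r)) (∑ k, c i j k (S.X k (S.UA j (σ * r) u))) := by
        rw [← map_sub, hc]
      rw [h4] at h3
      exact h3
    have hG : ∀ r, HasDerivAt G (G' r) r := fun r => hasDerivAt_pi.2 (hG1 r)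
    have hn1 : ∀ r, S.n1 (S.UA j (σ * r) u) ≤ m * ‖G r‖ := by
      intro r
      calc S.n1 (S.UA j (σ * r) u) = ∑ i, ‖G r i‖ := by
            refine Finset.sum_congr rfl fun i _ => ?_
            simp only [G]; rw [S.U_norm]
        _ ≤ ∑ _i : ι, ‖G r‖ := Finset.sum_le_sum fun i _ => norm_le_pi_norm _ _
        _ = m * ‖G r‖ := by simp [m]
    have hG'n : ∀ r, ‖G' r‖ ≤ (m * K) * ‖G r‖ + 0 := by
      intro r
      rw [add_zero, pi_norm_le_iff_of_nonneg (by positivity)]
      intro i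
      simp only [G']
      rw [norm_smul, Real.norm_eq_abs, hσ1, one_mul, S.U_norm]
      calc _ ≤ K * S.n1 (S.UA j (σ * r) u) := hcK i j _
        _ ≤ K * (m * ‖G r‖) := mul_le_mul_of_nonneg_left (hn1 r) hK0
        _ = m * K * ‖G r‖ := by ring
    have hG0 : ‖G 0‖ ≤ S.n1 u := by
      rw [pi_norm_le_iff_of_nonneg (S.n1_nonneg u)]
      intro i
      simp only [G, mul_zero, neg_zero]
      rw [S.U_norm, S.UA_zero]
      exact S.norm_X_le_n1 i u
    have hgr : ∀ r ∈ Set.Icc (0 : ℝ) 1, ‖G r‖ ≤ Real.exp (m * K) * S.n1 u := by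
      intro r hr
      have h1 := norm_le_gronwallBound_of_norm_deriv_right_le (f := G) (f' := G')
        (δ := S.n1 u) (K := m * K) (ε := 0) (a := 0) (b := 1)
        (fun x _ => (hG x).continuousAt.continuousWithinAt)
        (fun x _ => (hG x).hasDerivWithinAt) hG0 (fun x _ => hG'n x) r hr
      rw [gronwallBound_ε0] at h1
      refine h1.trans ?_
      rw [mul_comm]
      refine mul_le_mul_of_nonneg_right ?_ (S.n1_nonneg u)
      apply Real.exp_le_exp.2
      have : m * K * (r - 0) ≤ m * K * 1 :=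
        mul_le_mul_of_nonneg_left (by linarith [hr.2]) (by positivity)
      linarith
    have hdiff : ‖G s - G 0‖ ≤ (m * K * Real.exp (m * K) * S.n1 u) * (s - 0) := by
      refine norm_image_sub_le_of_norm_deriv_le_segment' (f := G) (f' := G')
        (C := m * K * Real.exp (m * K) * S.n1 u) (a := 0) (b := s)
        (fun x _ => (hG x).hasDerivWithinAt) (fun x hx => ?_) s ⟨hs0, le_rfl⟩
      have h1 := hG'n x
      rw [add_zero] at h1
      refine h1.trans ?_
      have h2 := hgr x ⟨hx.1, hx.2.le.trans hs1⟩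
      calc m * K * ‖G x‖ ≤ m * K * (Real.exp (m * K) * S.n1 u) :=
            mul_le_mul_of_nonneg_left h2 (by positivity)
        _ = _ := by ring
    have h5 : (S.X i (S.UA j (σ * s) u) : H) - S.U j (σ * s) (S.X i u) =
        S.U j (σ * s) (G s i - G 0 i) := by
      simp only [G, mul_zero, neg_zero, S.U_zero]
      rw [map_sub, S.U_U_neg]
      simp [S.UA_zero]
    rw [h5, S.U_norm]
    calc ‖G s i - G 0 i‖ = ‖(G s - G 0) i‖ := rfl
      _ ≤ ‖G s - G 0‖ := norm_le_pi_norm _ _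
      _ ≤ _ := hdiff
      _ = _ := by ring
  refine ⟨m * K * Real.exp (m * K), by positivity, fun i j s hs u => ?_⟩
  rcases le_total 0 s with h | h
  · have := key j u s h (by rwa [abs_of_nonneg h] at hs) 1 (Or.inl rfl) i
    rw [one_mul] at this
    rwa [abs_of_nonneg h]
  · have := key j u (-s) (by linarith) (by rwa [abs_of_nonpos h] at hs) (-1) (Or.inr rfl) i
    rw [neg_one_mul, neg_neg] at this
    rwa [abs_of_nonpos h]

end HSys

end Vale.Agent.P207.H395
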