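import Mathlib

/-!
# P207, block SPEC: abstract resolvents (Lax-Milgram for `⟪z, w⟫ + ⟪B J z, J w⟫`)
-/

open Filter Topology
open scoped InnerProductSpace

noncomputable section

set_option linter.unusedSectionVars false

namespace Vale.Agent.P207.H395

/-- positive symmetric operators -/
structure Pos {H : Type} [NormedAddCommGroup H] [InnerProductSpace ℝ H] (B : H →L[ℝ] H) : Prop where
  symm : ∀ u v, ⟪B u, v⟫_ℝ = ⟪u, B v⟫_ℝ
  nonneg : ∀ u, 0 ≤ ⟪B u, u⟫_ℝ

namespace LM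

variable {V H : Type} [NormedAddCommGroup H] [InnerProductSpace ℝ H] [CompleteSpace H]
  [NormedAddCommGroup V] [InnerProductSpace ℝ V] [CompleteSpace V]

variable (J : V →L[ℝ] H) (B : H →L[ℝ] H)

/-- the energy form -/
def form : V →L[ℝ] V →L[ℝ] ℝ :=
  LinearMap.mkContinuous₂
    (LinearMap.mk₂ ℝ (fun z w : V => ⟪z, w⟫_ℝ + ⟪B (J z), J w⟫_ℝ)
      (fun a b c => by simp only [map_add, inner_add_left]; ring)
      (fun r a b => by simp only [map_smul, real_inner_smul_left, smul_eq_mul]; ring)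
      (fun a b c => by simp only [map_add, inner_add_right]; ring)
      (fun r a b => by simp only [map_smul, real_inner_smul_right, smul_eq_mul]; ring))
    (1 + ‖B‖ * ‖J‖ * ‖J‖) (fun z w => by
      simp only [LinearMap.mk₂_apply]
      calc ‖⟪z, w⟫_ℝ + ⟪B (J z), J w⟫_ℝ‖ ≤ ‖⟪z, w⟫_ℝ‖ + ‖⟪B (J z), J w⟫_ℝ‖ :=
            norm_add_le _ _
        _ ≤ ‖z‖ * ‖w‖ + (‖B‖ * (‖J‖ * ‖z‖)) * (‖J‖ * ‖w‖) := by
            refine add_le_add (norm_inner_le_norm _ _) ((norm_inner_le_norm _ _).trans ?_)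
            refine mul_le_mul ((B.le_opNorm _).trans ?_) (J.le_opNorm w) (norm_nonneg _)
              (by positivity)
            exact mul_le_mul_of_nonneg_left (J.le_opNorm z) (norm_nonneg _)
        _ = (1 + ‖B‖ * ‖J‖ * ‖J‖) * ‖z‖ * ‖w‖ := by ring)

@[simp] theorem form_apply (z w : V) :
    form J B z w = ⟪z, w⟫_ℝ + ⟪B (J z), J w⟫_ℝ := rfl

variable {B}

theorem isCoercive (hB : Pos B) : IsCoercive (form J B) := by
  refine ⟨1, one_pos, fun z => ?_⟩
  rw [form_apply, real_inner_self_eq_norm_sq]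
  have := hB.nonneg (J z)
  nlinarith

/-- the solution operator into the energy space -/
def sol (hB : Pos B) : H →L[ℝ] V :=
  ((isCoercive J hB).continuousLinearEquivOfBilin.symm : V →L[ℝ] V).comp
    (ContinuousLinearMap.adjoint J)

theorem form_sol (hB : Pos B) (f : H) (w : V) :
    ⟪sol J hB f, w⟫_ℝ + ⟪B (J (sol J hB f)), J w⟫_ℝ = ⟪f, J w⟫_ℝ := by
  rw [← form_apply, ← (isCoercive J hB).continuousLinearEquivOfBilin_apply]
  simp only [sol, ContinuousLinearMap.comp_apply, ContinuousLinearEquiv.coe_coe,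
    ContinuousLinearEquiv.apply_symm_apply]
  rw [ContinuousLinearMap.adjoint_inner_left]

theorem eq_sol (hB : Pos B) {z : V} {f : H}
    (h : ∀ w : V, ⟪z, w⟫_ℝ + ⟪B (J z), J w⟫_ℝ = ⟪f, J w⟫_ℝ) : z = sol J hB f := by
  have h4 : (isCoercive J hB).continuousLinearEquivOfBilin z = ContinuousLinearMap.adjoint J f := by
    refine ext_inner_right ℝ fun w => ?_
    rw [(isCoercive J hB).continuousLinearEquivOfBilin_apply, form_apply, h,
      ContinuousLinearMap.adjoint_inner_left]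
  simp only [sol, ContinuousLinearMap.comp_apply, ContinuousLinearEquiv.coe_coe]
  rw [← h4, ContinuousLinearEquiv.symm_apply_apply]

theorem norm_sol_le (hJ : ∀ z, ‖J z‖ ≤ ‖z‖) (hB : Pos B) (f : H) : ‖sol J hB f‖ ≤ ‖f‖ := by
  have h1 := form_sol J hB f (sol J hB f)
  rw [real_inner_self_eq_norm_sq] at h1
  have h2 := hB.nonneg (J (sol J hB f))
  have h3 : ‖sol J hB f‖ ^ 2 ≤ ‖f‖ * ‖sol J hB f‖ := by
    calc _ ≤ ⟪f, J (sol J hB f)⟫_ℝ := by linarith
      _ ≤ ‖f‖ * ‖J (sol J hB f)‖ := real_inner_le_norm _ _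
      _ ≤ _ := mul_le_mul_of_nonneg_left (hJ _) (norm_nonneg _)
  rcases eq_or_lt_of_le (norm_nonneg (sol J hB f)) with h | h
  · rw [← h]; exact norm_nonneg _
  · rw [pow_two] at h3
    exact le_of_mul_le_mul_right h3 h

theorem res_symm (hB : Pos B) (f g : H) : ⟪J (sol J hB f), g⟫_ℝ = ⟪f, J (sol J hB g)⟫_ℝ := by
  have h1 := form_sol J hB g (sol J hB f)
  have h2 := form_sol J hB f (sol J hB g)
  rw [real_inner_comm, ← h1, ← h2, real_inner_comm (sol J hB f) (sol J hB g), hB.symm,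
    real_inner_comm (B _) _]

theorem sol_inner (hB : Pos B) (u : H) :
    ⟪u, J (sol J hB u)⟫_ℝ = ‖sol J hB u‖ ^ 2 + ⟪B (J (sol J hB u)), J (sol J hB u)⟫_ℝ := by
  have h1 := form_sol J hB u (sol J hB u)
  rw [real_inner_self_eq_norm_sq] at h1
  exact h1.symm

end LM

end Vale.Agent.P207.H395
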