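import Vale.Agent.P207.H395.Sob2
import Vale.Agent.P207.H955.Sob

/-!
# P207, block SPEC: the concrete setting (compact space, measure preserving flows, smooth functions)
-/

open Filter Topology MeasureTheory
open scoped InnerProductSpace

noncomputable section

namespace Vale.Agent.P207.H395

/-- A compact space with finitely many measure preserving flows, a dense algebra `A` of smooth
functions, the derivations `X a` along the flows and their brackets. -/
structure NSys (ι : Type) [Fintype ι] (N : Type) [TopologicalSpace N] [CompactSpace N]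
    [MeasurableSpace N] (μ : Measure N) where
  Φ : ι → ℝ → N → N
  cont : ∀ a, Continuous fun q : ℝ × N => Φ a q.1 q.2
  zero : ∀ a p, Φ a 0 p = p
  add : ∀ a s t p, Φ a (s + t) p = Φ a s (Φ a t p)
  mp : ∀ a t, MeasurePreserving (Φ a t) μ μ
  A : Subalgebra ℝ C(N, ℝ)
  dense : A.topologicalClosure = ⊤
  comp : ∀ a t, ∀ f ∈ A, ∃ g ∈ A, ∀ p, g p = f (Φ a t p)
  X : ι → Derivation ℝ A A
  der : ∀ a (f : A) p, HasDerivAt (fun t => (f : C(N, ℝ)) (Φ a t p)) ((X a f : C(N, ℝ)) p) 0
  joint : ∀ a b (f : A), Continuous fun q : ℝ × N =>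
    deriv (fun s => (f : C(N, ℝ)) (Φ b q.1 (Φ a s q.2))) 0
  c : ι → ι → ι → A
  brk : ∀ a b (f : A), X a (X b f) - X b (X a f) = ∑ k, c a b k * X k f

namespace NSys

variable {ι : Type} [Fintype ι] {N : Type} [TopologicalSpace N] [CompactSpace N]
  [MeasurableSpace N] {μ : Measure N}

/-- the iterated average over small pieces of the flows is bounded by the integral -/
def Loc (S : NSys ι N μ) : Prop :=
  ∃ (l : List ι) (r C : ℝ), 0 < r ∧ ∀ F : N → ℝ, Continuous F → (∀ p, 0 ≤ F p) →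
    ∀ p, H955.avg S.Φ r l F p ≤ C * ∫ q, F q ∂μ

/-- continuous functions with continuous iterated derivatives of all orders are smooth -/
def CL (S : NSys ι N μ) : Prop :=
  ∀ 𝒮 : Set C(N, ℝ), (∀ f ∈ 𝒮, ∀ a, ∃ f' ∈ 𝒮, ∀ p,
    HasDerivAt (fun t => f (S.Φ a t p)) (f' p) 0) → ∀ f ∈ 𝒮, f ∈ S.A

/-- the `C^s` norm: sum of the sup norms of all words of length `≤ s` -/
def cN (S : NSys ι N μ) : ℕ → S.A → ℝ
  | 0, u => ‖(u : C(N, ℝ))‖
  | s + 1, u => cN S s u + ∑ a, cN S s (S.X a u)

/-- the `L²` norm of a smooth function -/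
def l2 (S : NSys ι N μ) (u : S.A) : ℝ := Real.sqrt (∫ p, (u : C(N, ℝ)) p ^ 2 ∂μ)

/-- the `H^s` norm: sum of the `L²` norms of all words of length `≤ s` -/
def hN (S : NSys ι N μ) : ℕ → S.A → ℝ
  | 0, u => S.l2 u
  | s + 1, u => hN S s u + ∑ a, hN S s (S.X a u)

end NSys

namespace HSys

variable {ι : Type} [Fintype ι] {H : Type} [NormedAddCommGroup H] [InnerProductSpace ℝ H]
  [CompleteSpace H]

/-- Rellich's property -/
def Rel (S : HSys ι H) : Prop :=
  TotallyBounded {u : H | ‖u‖ ≤ 1 ∧ ∀ i t, ‖S.U i t u - u‖ ≤ |t|}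

/-- the Sobolev spaces -/
def Sob (S : HSys ι H) : ℕ → H → Prop
  | 0, _ => True
  | s + 1, u => ∃ v : ι → H, S.IsH1 u v ∧ ∀ i, Sob S s (v i)

/-- elements of all Sobolev spaces are smooth -/
def Reg (S : HSys ι H) : Prop := ∀ u : H, (∀ s, S.Sob s u) → u ∈ S.A

/-- the `H^s` gauge of a smooth vector: sum of the norms of all words of length `≤ s` -/
def nS (S : HSys ι H) : ℕ → S.A → ℝ
  | 0, u => ‖(u : H)‖
  | s + 1, u => nS S s u + ∑ i, nS S s (S.X i u)

end HSys

end Vale.Agent.P207.H395
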