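import Vale.Agent.P207.H546.TensA
import Mathlib.LinearAlgebra.Matrix.Kronecker

/-!
# P207, block TENS: the matrices of the tensor representations
-/

noncomputable section

set_option linter.unusedSectionVars false

namespace Vale.Agent.P207.H395

open Finset H442 H442.FrCalc H546
open scoped Kronecker

variable {n : ℕ}

/-- the trivial representation -/
def rho0 : Fin n → Fin n → Matrix Unit Unit ℝ := fun _ _ => 0

theorem isRep0 : IsRep (rho0 (n := n)) where
  skew a b := by simp [rho0]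
  brk a b k l := by simp [rho0, ac]

/-- the vector representation -/
def rho1 : Fin n → Fin n → Matrix (Fin n) (Fin n) ℝ := fun a b =>
  Matrix.single b a 1 - Matrix.single a b 1

/-- Kronecker symbol -/
def dl (i j : Fin n) : ℝ := if i = j then 1 else 0

theorem dl_comm (i j : Fin n) : dl i j = dl j i := by
  unfold dl
  by_cases h : i = j
  · rw [if_pos h, if_pos h.symm]
  · rw [if_neg h, if_neg (Ne.symm h)]

theorem single_mul_dl (i j k l : Fin n) :
    (Matrix.single i j (1 : ℝ)) * Matrix.single k l 1 = dl j k • Matrix.single i l 1 := by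
  unfold dl
  by_cases h : j = k
  · subst h; simp
  · rw [if_neg h, zero_smul]
    exact Matrix.single_mul_single_of_ne (1 : ℝ) i j k h 1

theorem ac_dl {A : Type*} [AddCommGroup A] [Module ℝ A] (a b : Fin n) (F : Fin n → A)
    (i : Fin n) : ac a b F i = dl b i • F a - dl a i • F b := by
  unfold ac dl
  congr 1
  · split_ifs <;> simp
  · split_ifs <;> simp

theorem isRep1 : IsRep (rho1 (n := n)) where
  skew a b := by
    unfold rho1
    rw [Matrix.transpose_sub, Matrix.transpose_single, Matrix.transpose_single, neg_sub]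
  brk a b k l := by
    simp only [ac_dl, rho1, mul_sub, sub_mul, single_mul_dl]
    rw [dl_comm k b, dl_comm k a, dl_comm l b, dl_comm l a]
    module

theorem rho1_apply (a b i j : Fin n) : rho1 a b i j = dl b i * dl a j - dl a i * dl b j := by
  have h : ∀ c d : Fin n, Matrix.single c d (1 : ℝ) i j = dl c i * dl d j := by
    intro c d
    unfold dl
    rw [Matrix.single_apply]
    by_cases h1 : c = i
    · by_cases h2 : d = j
      · rw [if_pos ⟨h1, h2⟩, if_pos h1, if_pos h2, one_mul]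
      · rw [if_neg fun h => h2 h.2, if_neg h2, mul_zero]
    · rw [if_neg fun h => h1 h.1, if_neg h1, zero_mul]
  unfold rho1
  rw [Matrix.sub_apply, h, h]

/-- the left factor of a tensor product -/
def kl (κ κ' : Type) [Fintype κ] [Fintype κ'] [DecidableEq κ'] :
    Matrix κ κ ℝ →ₗ[ℝ] Matrix (κ × κ') (κ × κ') ℝ where
  toFun M := M ⊗ₖ (1 : Matrix κ' κ' ℝ)
  map_add' M N := Matrix.add_kronecker M N 1
  map_smul' c M := Matrix.smul_kronecker c M 1

/-- the right factor of a tensor product -/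
def kr (κ κ' : Type) [Fintype κ] [Fintype κ'] [DecidableEq κ] :
    Matrix κ' κ' ℝ →ₗ[ℝ] Matrix (κ × κ') (κ × κ') ℝ where
  toFun M := (1 : Matrix κ κ ℝ) ⊗ₖ M
  map_add' M N := Matrix.kronecker_add 1 M N
  map_smul' c M := Matrix.kronecker_smul c 1 M

section Prod

variable {κ κ' : Type} [Fintype κ] [Fintype κ'] [DecidableEq κ] [DecidableEq κ']

theorem kl_mul (M N : Matrix κ κ ℝ) : kl κ κ' M * kl κ κ' N = kl κ κ' (M * N) := by
  change (M ⊗ₖ 1) * (N ⊗ₖ 1) = (M * N) ⊗ₖ 1
  rw [← Matrix.mul_kronecker_mul, one_mul]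

theorem kr_mul (M N : Matrix κ' κ' ℝ) : kr κ κ' M * kr κ κ' N = kr κ κ' (M * N) := by
  change (1 ⊗ₖ M) * (1 ⊗ₖ N) = 1 ⊗ₖ (M * N)
  rw [← Matrix.mul_kronecker_mul, one_mul]

theorem kl_kr_comm (M : Matrix κ κ ℝ) (N : Matrix κ' κ' ℝ) :
    kl κ κ' M * kr κ κ' N = kr κ κ' N * kl κ κ' M := by
  change (M ⊗ₖ 1) * (1 ⊗ₖ N) = (1 ⊗ₖ N) * (M ⊗ₖ 1)
  rw [← Matrix.mul_kronecker_mul, ← Matrix.mul_kronecker_mul, one_mul, one_mul, mul_one, mul_one]

/-- the tensor product of two representations -/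
def tensor (ρ : Fin n → Fin n → Matrix κ κ ℝ) (ρ' : Fin n → Fin n → Matrix κ' κ' ℝ) :
    Fin n → Fin n → Matrix (κ × κ') (κ × κ') ℝ := fun a b => kl κ κ' (ρ a b) + kr κ κ' (ρ' a b)

theorem isRep_tensor {ρ : Fin n → Fin n → Matrix κ κ ℝ} {ρ' : Fin n → Fin n → Matrix κ' κ' ℝ}
    (hρ : IsRep ρ) (hρ' : IsRep ρ') : IsRep (tensor ρ ρ') where
  skew a b := by
    unfold tensor
    have h1 : (kl κ κ' (ρ a b)).transpose = kl κ κ' (ρ a b).transpose := by
      change (ρ a b ⊗ₖ 1).transpose = (ρ a b).transpose ⊗ₖ 1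
      rw [← Matrix.kroneckerMap_transpose, Matrix.transpose_one]
    have h2 : (kr κ κ' (ρ' a b)).transpose = kr κ κ' (ρ' a b).transpose := by
      change (1 ⊗ₖ ρ' a b).transpose = 1 ⊗ₖ (ρ' a b).transpose
      rw [← Matrix.kroneckerMap_transpose, Matrix.transpose_one]
    rw [Matrix.transpose_add, h1, h2, hρ.skew, hρ'.skew, map_neg, map_neg, neg_add]
  brk a b k l := by
    have h1 : ac a b (fun k => tensor ρ ρ' k l) k = kl κ κ' (ac a b (fun k => ρ k l) k) +
        kr κ κ' (ac a b (fun k => ρ' k l) k) := by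
      unfold tensor
      rw [ac_add, ac_map, ac_map]
    have h2 : ac a b (fun l => tensor ρ ρ' k l) l = kl κ κ' (ac a b (fun l => ρ k l) l) +
        kr κ κ' (ac a b (fun l => ρ' k l) l) := by
      unfold tensor
      rw [ac_add, ac_map, ac_map]
    have h3 : kl κ κ' (ρ k l * ρ a b - ρ a b * ρ k l) =
        kl κ κ' (ac a b (fun k => ρ k l) k) + kl κ κ' (ac a b (fun l => ρ k l) l) := by
      rw [hρ.brk, map_add]
    have h4 : kr κ κ' (ρ' k l * ρ' a b - ρ' a b * ρ' k l) =
        kr κ κ' (ac a b (fun k => ρ' k l) k) + kr κ κ' (ac a b (fun l => ρ' k l) l) := by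
      rw [hρ'.brk, map_add]
    rw [h1, h2]
    rw [map_sub, ← kl_mul, ← kl_mul] at h3
    rw [map_sub, ← kr_mul, ← kr_mul] at h4
    unfold tensor
    rw [add_mul, mul_add, mul_add, add_mul, mul_add, mul_add, kl_kr_comm, kl_kr_comm]
    calc _ = (kl κ κ' (ρ k l) * kl κ κ' (ρ a b) - kl κ κ' (ρ a b) * kl κ κ' (ρ k l)) +
          (kr κ κ' (ρ' k l) * kr κ κ' (ρ' a b) - kr κ κ' (ρ' a b) * kr κ κ' (ρ' k l)) := by abel
      _ = _ := by rw [h3, h4]; abel

theorem kl_apply (M : Matrix κ κ ℝ) (i j : κ × κ') :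
    kl κ κ' M i j = M i.1 j.1 * (if i.2 = j.2 then 1 else 0) := by
  change (M ⊗ₖ 1) i j = _
  rw [Matrix.kronecker_apply, Matrix.one_apply]

theorem kr_apply (M : Matrix κ' κ' ℝ) (i j : κ × κ') :
    kr κ κ' M i j = (if i.1 = j.1 then 1 else 0) * M i.2 j.2 := by
  change (1 ⊗ₖ M) i j = _
  rw [Matrix.kronecker_apply, Matrix.one_apply]

/-- the tensor product acting on families -/
theorem sum_tensor {A : Type*} [AddCommGroup A] [Module ℝ A]
    (ρ : Fin n → Fin n → Matrix κ κ ℝ) (ρ' : Fin n → Fin n → Matrix κ' κ' ℝ) (a b : Fin n)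
    (f : κ × κ' → A) (α : κ) (α' : κ') :
    ∑ β, tensor ρ ρ' a b (α, α') β • f β =
      ∑ β, ρ a b α β • f (β, α') + ∑ β', ρ' a b α' β' • f (α, β') := by
  simp only [tensor, Matrix.add_apply, add_smul, Finset.sum_add_distrib, kl_apply, kr_apply]
  rw [Fintype.sum_prod_type, Fintype.sum_prod_type]
  congr 1
  · refine Finset.sum_congr rfl fun β _ => ?_
    rw [Finset.sum_eq_single α']
    · simp
    · intro β' _ hne; rw [if_neg (Ne.symm hne), mul_zero, zero_smul]
    · intro h; exact absurd (Finset.mem_univ _) h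
  · rw [Finset.sum_eq_single α]
    · simp
    · intro β _ hne
      exact Finset.sum_eq_zero fun β' _ => by rw [if_neg (Ne.symm hne), zero_mul, zero_smul]
    · intro h; exact absurd (Finset.mem_univ _) h

end Prod

/-- the vector representation acting on families -/
theorem sum_rho1 {A : Type*} [AddCommGroup A] [Module ℝ A] (a b : Fin n) (w : Fin n → A)
    (i : Fin n) : ∑ j, rho1 a b i j • w j = ac a b w i := by
  rw [ac_dl]
  simp only [rho1_apply, sub_smul, Finset.sum_sub_distrib, mul_smul, ← Finset.smul_sum]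
  have h : ∀ c : Fin n, ∑ j, dl c j • w j = w c := by
    intro c
    simp [dl, ite_smul, Finset.sum_ite_eq]
  rw [h, h]

/-- tensors of rank two -/
abbrev rho2 : Fin n → Fin n → Matrix (Fin n × Fin n) (Fin n × Fin n) ℝ := tensor rho1 rho1

theorem isRep2 : IsRep (rho2 (n := n)) := isRep_tensor isRep1 isRep1

/-- tensors of rank three -/
abbrev rho3 : Fin n → Fin n → Matrix (Fin n × (Fin n × Fin n)) (Fin n × (Fin n × Fin n)) ℝ :=
  tensor rho1 rho2

theorem isRep3 : IsRep (rho3 (n := n)) := isRep_tensor isRep1 isRep2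

/-- tensors of rank four -/
abbrev rho4 : Fin n → Fin n →
    Matrix (Fin n × (Fin n × (Fin n × Fin n))) (Fin n × (Fin n × (Fin n × Fin n))) ℝ :=
  tensor rho1 rho3

theorem isRep4 : IsRep (rho4 (n := n)) := isRep_tensor isRep1 isRep3

section Fam

variable {A : Type*} [CommRing A] [Algebra ℝ A] {C : FrCalc n A}

theorem isFam_rho0 {f : Unit → A} : C.IsFam rho0 f ↔ C.T0 (f ()) := by
  constructor
  · intro h a b
    have := h a b ()
    simpa [rho0] using this
  · intro h a b α
    rw [h a b]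
    simp [rho0]

theorem isFam_rho1 {w : Fin n → A} : C.IsFam rho1 w ↔ C.T1 w := by
  unfold FrCalc.IsFam FrCalc.T1
  simp only [sum_rho1]

theorem isFam_rho2 {k : Fin n × Fin n → A} : C.IsFam rho2 k ↔ C.T2 (fun i j => k (i, j)) := by
  unfold FrCalc.IsFam FrCalc.T2
  refine forall_congr' fun a => forall_congr' fun b => ?_
  rw [Prod.forall]
  refine forall_congr' fun i => forall_congr' fun j => ?_
  rw [sum_tensor, sum_rho1 a b (fun i => k (i, j)), sum_rho1 a b (fun j => k (i, j))]

theorem isFam_rho3 {k : Fin n × (Fin n × Fin n) → A} :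
    C.IsFam rho3 k ↔ C.T3 (fun i j l => k (i, (j, l))) := by
  unfold FrCalc.IsFam FrCalc.T3
  refine forall_congr' fun a => forall_congr' fun b => ?_
  simp only [Prod.forall]
  refine forall_congr' fun i => forall_congr' fun j => forall_congr' fun l => ?_
  rw [sum_tensor, sum_rho1 a b (fun i => k (i, (j, l))), sum_tensor,
    sum_rho1 a b (fun j => k (i, (j, l))), sum_rho1 a b (fun l => k (i, (j, l))), add_assoc]

end Fam

end Vale.Agent.P207.H395
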