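import Vale.Agent.P207.H395.Sob3
import Vale.Agent.P207.H395.LM

/-!
# P207, block SPEC: the resolvent of `1 - ∑ X_i² + B`
-/

open Filter Topology
open scoped InnerProductSpace

noncomputable section

set_option linter.unusedSectionVars false

namespace Vale.Agent.P207.H395

variable {ι : Type} [Fintype ι] {H : Type} [NormedAddCommGroup H] [InnerProductSpace ℝ H]
  [CompleteSpace H]

namespace HSys

/-- the energy space as a type -/
def EH (S : HSys ι H) : Type := ↥S.H1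

instance (S : HSys ι H) : NormedAddCommGroup S.EH := inferInstanceAs (NormedAddCommGroup ↥S.H1)

instance (S : HSys ι H) : InnerProductSpace ℝ S.EH := inferInstanceAs (InnerProductSpace ℝ ↥S.H1)

instance (S : HSys ι H) : CompleteSpace S.EH := inferInstanceAs (CompleteSpace ↥S.H1)

/-- the function underlying an element of the energy space -/
def EH.fn {S : HSys ι H} (z : S.EH) : H := (z.1 : E1 ι H).fst

/-- its derivatives -/
def EH.dv {S : HSys ι H} (z : S.EH) (i : ι) : H := (z.1 : E1 ι H).snd i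

theorem EH.isH1 {S : HSys ι H} (z : S.EH) : S.IsH1 z.fn z.dv := mem_H1.1 z.2

/-- constructor -/
def EH.mk' {S : HSys ι H} {u : H} {v : ι → H} (h : S.IsH1 u v) : S.EH :=
  ⟨WithLp.toLp 2 (u, WithLp.toLp 2 v), mem_H1.2 h⟩

@[simp] theorem EH.fn_mk' {S : HSys ι H} {u : H} {v : ι → H} (h : S.IsH1 u v) :
    (EH.mk' h).fn = u := rfl

@[simp] theorem EH.dv_mk' {S : HSys ι H} {u : H} {v : ι → H} (h : S.IsH1 u v) (i : ι) :
    (EH.mk' h).dv i = v i := rfl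

theorem EH.inner_def {S : HSys ι H} (z w : S.EH) :
    ⟪z, w⟫_ℝ = ⟪z.fn, w.fn⟫_ℝ + ∑ i, ⟪z.dv i, w.dv i⟫_ℝ :=
  (Submodule.coe_inner S.H1 z w).trans (inner_E1 _ _)

theorem EH.norm_sq {S : HSys ι H} (z : S.EH) : ‖z‖ ^ 2 = ‖z.fn‖ ^ 2 + ∑ i, ‖z.dv i‖ ^ 2 :=
  norm_sq_E1 _

theorem EH.norm_fn_le {S : HSys ι H} (z : S.EH) : ‖z.fn‖ ≤ ‖z‖ := by
  have h2 : 0 ≤ ∑ i, ‖z.dv i‖ ^ 2 := Finset.sum_nonneg fun _ _ => by positivity
  have h3 : ‖z.fn‖ ^ 2 ≤ ‖z‖ ^ 2 := by rw [z.norm_sq]; linarith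
  exact (pow_le_pow_iff_left₀ (norm_nonneg _) (norm_nonneg _) two_ne_zero).1 h3

theorem EH.norm_dv_le {S : HSys ι H} (z : S.EH) (i : ι) : ‖z.dv i‖ ≤ ‖z‖ := by
  have h2 : ‖z.dv i‖ ^ 2 ≤ ∑ i, ‖z.dv i‖ ^ 2 :=
    Finset.single_le_sum (f := fun i => ‖z.dv i‖ ^ 2) (fun _ _ => by positivity)
      (Finset.mem_univ i)
  have h4 : 0 ≤ ‖z.fn‖ ^ 2 := by positivity
  have h3 : ‖z.dv i‖ ^ 2 ≤ ‖z‖ ^ 2 := by rw [z.norm_sq]; linarith
  exact (pow_le_pow_iff_left₀ (norm_nonneg _) (norm_nonneg _) two_ne_zero).1 h3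

/-- density of the smooth vectors in the energy space -/
theorem EH.exists_seq {S : HSys ι H} (z : S.EH) :
    ∃ a : ℕ → S.A, Tendsto (fun n => EH.mk' (isH1_coe (a n))) atTop (𝓝 z) := by
  have h1 : (z.1 : E1 ι H) ∈ closure (LinearMap.range S.gr : Set (E1 ι H)) := z.2
  obtain ⟨x, hx, hx2⟩ := mem_closure_iff_seq_limit.1 h1
  choose a ha using hx
  refine ⟨a, ?_⟩
  have h3 : Tendsto (fun n => (⟨S.gr (a n), mem_H1.2 (isH1_coe (a n))⟩ : S.H1)) atTop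
      (𝓝 (⟨z.1, z.2⟩ : S.H1)) := by
    rw [tendsto_subtype_rng]
    refine hx2.congr fun n => ?_
    rw [← ha n]
  exact h3

/-- the embedding of the energy space -/
def J (S : HSys ι H) : S.EH →L[ℝ] H :=
  LinearMap.mkContinuous
    { toFun := fun z => z.fn
      map_add' := fun _ _ => rfl
      map_smul' := fun _ _ => rfl } 1 (fun z => by rw [one_mul]; exact z.norm_fn_le)

@[simp] theorem J_apply (S : HSys ι H) (z : S.EH) : S.J z = z.fn := rfl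

theorem norm_J_le (S : HSys ι H) (z : S.EH) : ‖S.J z‖ ≤ ‖z‖ := z.norm_fn_le

variable (S : HSys ι H) {B : H →L[ℝ] H}

/-- the solution operator into the energy space -/
def sol (hB : Pos B) : H →L[ℝ] S.EH := LM.sol S.J hB

theorem form_sol (hB : Pos B) (f : H) (w : S.EH) :
    ⟪S.sol hB f, w⟫_ℝ + ⟪B (S.sol hB f).fn, w.fn⟫_ℝ = ⟪f, w.fn⟫_ℝ := LM.form_sol S.J hB f w

/-- the resolvent -/
def res (hB : Pos B) : H →L[ℝ] H := S.J.comp (S.sol hB)

theorem norm_sol_le (hB : Pos B) (f : H) : ‖S.sol hB f‖ ≤ ‖f‖ :=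
  LM.norm_sol_le S.J S.norm_J_le hB f

theorem norm_res_le (hB : Pos B) (f : H) : ‖S.res hB f‖ ≤ ‖f‖ :=
  (S.norm_J_le _).trans (S.norm_sol_le hB f)

theorem res_symm (hB : Pos B) (f g : H) : ⟪S.res hB f, g⟫_ℝ = ⟪f, S.res hB g⟫_ℝ :=
  LM.res_symm S.J hB f g

/-- the weak equation of the resolvent -/
theorem res_weak (hB : Pos B) (f : H) : ∃ v : ι → H, S.IsH1 (S.res hB f) v ∧
    (∀ i, ‖v i‖ ≤ ‖f‖) ∧
    ∀ φ : S.A, ⟪S.res hB f, (φ : H)⟫_ℝ + ∑ i, ⟪v i, (S.X i φ : H)⟫_ℝ +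
      ⟪B (S.res hB f), (φ : H)⟫_ℝ = ⟪f, (φ : H)⟫_ℝ := by
  refine ⟨(S.sol hB f).dv, (S.sol hB f).isH1, fun i =>
    ((S.sol hB f).norm_dv_le i).trans (S.norm_sol_le hB f), fun φ => ?_⟩
  have h1 := S.form_sol hB f (EH.mk' (isH1_coe φ))
  rw [EH.inner_def] at h1
  exact h1

/-- uniqueness -/
theorem eq_res (hB : Pos B) {u f : H} {v : ι → H} (huv : S.IsH1 u v)
    (hw : ∀ φ : S.A, ⟪u, (φ : H)⟫_ℝ + ∑ i, ⟪v i, (S.X i φ : H)⟫_ℝ + ⟪B u, (φ : H)⟫_ℝ =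
      ⟪f, (φ : H)⟫_ℝ) : u = S.res hB f := by
  have h1 : ∀ w : S.EH, ⟪EH.mk' huv, w⟫_ℝ + ⟪B (S.J (EH.mk' huv)), S.J w⟫_ℝ = ⟪f, S.J w⟫_ℝ := by
    intro w
    obtain ⟨a, ha⟩ := w.exists_seq
    have h2 : Tendsto (fun n => ⟪EH.mk' huv, EH.mk' (isH1_coe (a n))⟫_ℝ +
        ⟪B (S.J (EH.mk' huv)), S.J (EH.mk' (isH1_coe (a n)))⟫_ℝ) atTop
        (𝓝 (⟪EH.mk' huv, w⟫_ℝ + ⟪B (S.J (EH.mk' huv)), S.J w⟫_ℝ)) :=
      (tendsto_const_nhds.inner ha).add
        (tendsto_const_nhds.inner ((S.J.continuous.tendsto _).comp ha))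
    have h3 : Tendsto (fun n => ⟪f, S.J (EH.mk' (isH1_coe (a n)))⟫_ℝ) atTop (𝓝 ⟪f, S.J w⟫_ℝ) :=
      tendsto_const_nhds.inner ((S.J.continuous.tendsto _).comp ha)
    refine tendsto_nhds_unique h2 (h3.congr fun n => ?_)
    rw [EH.inner_def]
    exact (hw (a n)).symm
  have h5 : EH.mk' huv = S.sol hB f := LM.eq_sol S.J hB h1
  change u = (S.sol hB f).fn
  rw [← h5]; rfl

theorem res_injective (hB : Pos B) {f : H} (h : S.res hB f = 0) : f = 0 := by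
  obtain ⟨v, hv, -, hw⟩ := S.res_weak hB f
  rw [h] at hv hw
  have hv0 : v = fun _ => 0 := hv.unique isH1_zero
  refine S.eq_zero_of_inner_A fun φ => ?_
  rw [← hw φ, hv0]
  simp

theorem isCompactOperator_res (hR : S.Rel) (hB : Pos B) : IsCompactOperator (S.res hB) := by
  have h0 := isCompactOperator_iff_isCompact_closure_image_closedBall
    (S.res hB : H →ₗ[ℝ] H) one_pos
  refine h0.2 ?_
  have hR' : TotallyBounded {u : H | ‖u‖ ≤ 1 ∧ ∀ i t, ‖S.U i t u - u‖ ≤ |t|} := hR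
  have h1 : TotallyBounded (S.res hB '' Metric.closedBall 0 1) := by
    refine TotallyBounded.subset ?_ hR' 
    rintro _ ⟨f, hf, rfl⟩
    rw [mem_closedBall_zero_iff] at hf
    refine ⟨(S.norm_res_le hB f).trans hf, fun i t => ?_⟩
    obtain ⟨v, hv, hvn, -⟩ := S.res_weak hB f
    calc _ ≤ |t| * ‖v i‖ := hv.norm_U_sub_le i t
      _ ≤ |t| * 1 := mul_le_mul_of_nonneg_left ((hvn i).trans hf) (abs_nonneg _)
      _ = |t| := mul_one _
  exact isCompact_iff_totallyBounded_isComplete.2 ⟨TotallyBounded.closure h1, isClosed_closure.isComplete⟩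

/-- the operator `1 - ∑ X_i² + B` on smooth vectors -/
def lap {B : H →L[ℝ] H} (hT : B ∈ S.T) : S.A →ₗ[ℝ] S.A :=
  LinearMap.id - ∑ i, (S.X i).comp (S.X i) +
    { toFun := fun u => ⟨B u, S.T_mem B hT u u.2⟩
      map_add' := fun u v => Subtype.ext (by simp)
      map_smul' := fun c u => Subtype.ext (by simp) }

theorem coe_lap {B : H →L[ℝ] H} (hT : B ∈ S.T) (u : S.A) :
    (S.lap hT u : H) = (u : H) - ∑ i, (S.X i (S.X i u) : H) + B u := by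
  simp [lap, LinearMap.sum_apply]

theorem inner_lap {B : H →L[ℝ] H} (hT : B ∈ S.T) (u φ : S.A) :
    ⟪(S.lap hT u : H), (φ : H)⟫_ℝ = ⟪(u : H), (φ : H)⟫_ℝ +
      ∑ i, ⟪(S.X i u : H), (S.X i φ : H)⟫_ℝ + ⟪B u, (φ : H)⟫_ℝ := by
  rw [coe_lap, inner_add_left, inner_sub_left, sum_inner]
  simp only [S.skew _ (S.X _ u) φ]
  rw [Finset.sum_neg_distrib]
  ring

theorem res_lap (hB : Pos B) (hT : B ∈ S.T) (u : S.A) : S.res hB (S.lap hT u) = u :=
  (S.eq_res hB (isH1_coe u) fun φ => (S.inner_lap hT u φ).symm).symm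

theorem res_mem (hG : S.Reg) (hB : Pos B) (hT : B ∈ S.T) {f : H} (hf : ∀ s, S.Sob s f) :
    S.res hB f ∈ S.A := by
  obtain ⟨v, hv, -, hw⟩ := S.res_weak hB f
  refine hG _ fun s => regularity' (B := B + 1) (S.T.add_mem hT S.T.one_mem) hv (f := f)
    (fun φ => ?_) hf s
  rw [← hw φ]
  simp only [add_apply, one_apply_eq_self, inner_add_left]
  ring

/-- the resolvent on smooth vectors -/
def resA (hG : S.Reg) (hB : Pos B) (hT : B ∈ S.T) (f : S.A) : S.A :=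
  ⟨S.res hB f, S.res_mem hG hB hT fun s => Sob.coe s f⟩

@[simp] theorem coe_resA (hG : S.Reg) (hB : Pos B) (hT : B ∈ S.T) (f : S.A) :
    (S.resA hG hB hT f : H) = S.res hB f := rfl

theorem lap_resA (hG : S.Reg) (hB : Pos B) (hT : B ∈ S.T) (f : S.A) :
    S.lap hT (S.resA hG hB hT f) = f := by
  apply Subtype.ext
  rw [← sub_eq_zero]
  apply S.res_injective hB
  rw [map_sub, S.res_lap hB hT]
  simp

theorem resA_lap (hG : S.Reg) (hB : Pos B) (hT : B ∈ S.T) (f : S.A) :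
    S.resA hG hB hT (S.lap hT f) = f := Subtype.ext (S.res_lap hB hT f)

/-- smoothness of eigenvectors -/
theorem mem_A_of_eigen (hG : S.Reg) (hB : Pos B) (hT : B ∈ S.T) {μ : ℝ} (hμ : μ ≠ 0) {u : H}
    (hu : S.res hB u = μ • u) : u ∈ S.A := by
  obtain ⟨v, hv, -, hw⟩ := S.res_weak hB u
  rw [hu] at hv hw
  have hv' := hv.smul μ⁻¹
  rw [smul_smul, inv_mul_cancel₀ hμ, one_smul] at hv'
  refine hG _ fun s => regularity' (B := B + (1 - μ⁻¹) • 1)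
    (S.T.add_mem hT (S.T.smul_mem S.T.one_mem _)) hv' (f := 0)
    (fun φ => ?_) (fun s => Sob.zero_mem s) s
  have h1 := hw φ
  simp only [map_smul, real_inner_smul_left] at h1
  simp only [real_inner_smul_left, add_apply, smul_apply, one_apply_eq_self,
    inner_add_left, inner_zero_left]
  rw [← Finset.mul_sum]
  have h2 : ∑ i, ⟪v i, (S.X i φ : H)⟫_ℝ = ⟪u, (φ : H)⟫_ℝ - μ * ⟪u, (φ : H)⟫_ℝ -
      μ * ⟪B u, (φ : H)⟫_ℝ := by linarith
  rw [h2]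
  field_simp
  ring

theorem lap_of_eigen (hB : Pos B) (hT : B ∈ S.T) {μ : ℝ} (hμ : μ ≠ 0) {u : S.A}
    (hu : S.res hB u = μ • (u : H)) : S.lap hT u = μ⁻¹ • u := by
  apply Subtype.ext
  rw [← sub_eq_zero]
  apply S.res_injective hB
  rw [map_sub, S.res_lap hB hT, Submodule.coe_smul, map_smul, hu, smul_smul, inv_mul_cancel₀ hμ,
    one_smul, sub_self]

theorem eigen_pos (hB : Pos B) {μ : ℝ} {u : H} (hu0 : u ≠ 0) (hu : S.res hB u = μ • u) :
    0 < μ ∧ μ ≤ 1 := by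
  have h1 : ⟪u, S.res hB u⟫_ℝ = ‖S.sol hB u‖ ^ 2 + ⟪B (S.res hB u), S.res hB u⟫_ℝ :=
    LM.sol_inner S.J hB u
  have h2 := hB.nonneg (S.res hB u)
  have h3 : ⟪u, S.res hB u⟫_ℝ = μ * ‖u‖ ^ 2 := by
    rw [hu, real_inner_smul_right, real_inner_self_eq_norm_sq]
  have hun : 0 < ‖u‖ := norm_pos_iff.2 hu0
  have h4 : S.sol hB u ≠ 0 := by
    intro h0
    have : S.res hB u = 0 := by
      change S.J (S.sol hB u) = 0
      rw [h0, map_zero]
    exact hu0 (S.res_injective hB this)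
  have h5 : 0 < ‖S.sol hB u‖ := norm_pos_iff.2 h4
  have h6 : 0 < μ * ‖u‖ ^ 2 := by rw [← h3, h1]; positivity
  have h7 : 0 < μ := by
    by_contra h
    push Not at h
    nlinarith [sq_nonneg ‖u‖]
  refine ⟨h7, ?_⟩
  have h8 := S.norm_res_le hB u
  rw [hu, norm_smul, Real.norm_eq_abs, abs_of_pos h7] at h8
  have : μ * ‖u‖ ≤ 1 * ‖u‖ := by linarith
  exact le_of_mul_le_mul_right this hun

end HSys

end Vale.Agent.P207.H395
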