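import Mathlib

/-!
# P207, block SPEC: spaces of smooth objects with a self-adjoint operator of discrete spectrum

`SSp E`: the interface between the elliptic theory and its applications. `E` is a real vector
space (smooth families of a given type), `ip` the `L²` inner product, `nm s` the Sobolev norms,
`L` the operator (`L = -cas`), `P l` the orthogonal projection to its eigenspace.
-/

open Filter Topology

noncomputable section

set_option linter.unusedSectionVars false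

namespace Vale.Agent.P207.H395

/-- smooth objects, `L²` inner product, Sobolev norms, an elliptic self-adjoint operator `L` and
its spectral projections -/
structure SSp (E : Type*) [AddCommGroup E] [Module ℝ E] where
  ip : E →ₗ[ℝ] E →ₗ[ℝ] ℝ
  symm : ∀ x y, ip x y = ip y x
  nm : ℕ → E → ℝ
  nm_nonneg : ∀ s x, 0 ≤ nm s x
  nm_add : ∀ s x y, nm s (x + y) ≤ nm s x + nm s y
  nm_smul : ∀ s (c : ℝ) x, nm s (c • x) = |c| * nm s x
  nm_succ : ∀ s x, nm s x ≤ nm (s + 1) x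
  nm_zero : ∀ x, nm 0 x ^ 2 = ip x x
  pos : ∀ x, ip x x = 0 → x = 0
  L : E →ₗ[ℝ] E
  sa : ∀ x y, ip (L x) y = ip x (L y)
  b : ℝ
  low : ∀ x, -b * ip x x ≤ ip (L x) x
  est : ∀ s, ∃ C : ℝ, 0 ≤ C ∧ ∀ x, nm (s + 2) x ≤ C * (nm s (L x) + nm 0 x)
  bdd : ∀ s, ∃ C : ℝ, 0 ≤ C ∧ ∀ x, nm s (L x) ≤ C * nm (s + 2) x
  P : ℝ → E →ₗ[ℝ] E
  L_P : ∀ l x, L (P l x) = l • P l x
  P_eig : ∀ l x, L x = l • x → P l x = x
  P_symm : ∀ l x y, ip (P l x) y = ip x (P l y)
  conv : ∀ s x, ∀ ε > 0, ∃ F₀ : Finset ℝ, ∀ F, F₀ ⊆ F → nm s (x - ∑ l ∈ F, P l x) < ε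
  synth : ∀ v : ℝ → E, (∀ l, L (v l) = l • v l) →
    (∀ m : ℕ, ∃ K : ℝ, ∀ F : Finset ℝ, ∑ l ∈ F, ((1 + |l|) ^ m) ^ 2 * ip (v l) (v l) ≤ K) →
    ∃ x, ∀ l, P l x = v l
  fin : ∀ R : ℝ, ∃ W : Submodule ℝ E, FiniteDimensional ℝ W ∧
    ∀ x, (∀ l, R < l → P l x = 0) → x ∈ W

namespace SSp

variable {E : Type*} [AddCommGroup E] [Module ℝ E] (S : SSp E)

/-! ### elementary facts -/

theorem ip_self_nonneg (x : E) : 0 ≤ S.ip x x := by rw [← S.nm_zero]; positivity

theorem nm_zero_eq (x : E) : S.nm 0 x = Real.sqrt (S.ip x x) := by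
  rw [← S.nm_zero, Real.sqrt_sq (S.nm_nonneg 0 x)]

theorem nm_mono {s t : ℕ} (h : s ≤ t) (x : E) : S.nm s x ≤ S.nm t x := by
  induction h with
  | refl => exact le_rfl
  | step _ ih => exact ih.trans (S.nm_succ _ x)

theorem nm_of_zero (s : ℕ) : S.nm s 0 = 0 := by simpa using S.nm_smul s 0 0

theorem nm_neg (s : ℕ) (x : E) : S.nm s (-x) = S.nm s x := by simpa using S.nm_smul s (-1) x

theorem nm_sub (s : ℕ) (x y : E) : S.nm s (x - y) ≤ S.nm s x + S.nm s y := by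
  rw [sub_eq_add_neg, ← S.nm_neg s y]; exact S.nm_add s x (-y)

theorem nm_sum {κ : Type*} (F : Finset κ) (s : ℕ) (f : κ → E) :
    S.nm s (∑ k ∈ F, f k) ≤ ∑ k ∈ F, S.nm s (f k) := by
  classical
  induction F using Finset.induction_on with
  | empty => simp [S.nm_of_zero]
  | insert a F ha ih =>
    rw [Finset.sum_insert ha, Finset.sum_insert ha]
    exact (S.nm_add s _ _).trans (add_le_add le_rfl ih)

/-- Cauchy-Schwarz -/
theorem abs_ip_le (x y : E) : |S.ip x y| ≤ S.nm 0 x * S.nm 0 y := by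
  have h1 : ∀ t : ℝ, 0 ≤ S.ip y y * (t * t) + 2 * S.ip x y * t + S.ip x x := by
    intro t
    have h2 := S.ip_self_nonneg (x + t • y)
    simp only [map_add, map_smul, LinearMap.add_apply, LinearMap.smul_apply, smul_eq_mul] at h2
    rw [S.symm y x] at h2
    linarith
  have h3 := discrim_le_zero h1
  unfold discrim at h3
  have h4 : S.ip x y ^ 2 ≤ (S.nm 0 x * S.nm 0 y) ^ 2 := by
    rw [mul_pow, S.nm_zero, S.nm_zero]; linarith
  exact abs_le_of_sq_le_sq h4 (mul_nonneg (S.nm_nonneg 0 x) (S.nm_nonneg 0 y))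

/-- nondegeneracy -/
theorem ext_ip {x y : E} (h : ∀ z, S.ip x z = S.ip y z) : x = y := by
  rw [← sub_eq_zero]
  apply S.pos
  rw [S.ip.map_sub x y, LinearMap.sub_apply, h, sub_self]

theorem eq_zero_of_nm {x : E} (h : S.nm 0 x = 0) : x = 0 := S.pos x (by rw [← S.nm_zero, h]; simp)

/-! ### spectral projections -/

theorem P_P (l : ℝ) (x : E) : S.P l (S.P l x) = S.P l x := S.P_eig l _ (S.L_P l x)

/-- eigenvectors with different eigenvalues are orthogonal -/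
theorem ip_eig {l l' : ℝ} (hl : l ≠ l') {x y : E} (hx : S.L x = l • x) (hy : S.L y = l' • y) :
    S.ip x y = 0 := by
  have h1 := S.sa x y
  rw [hx, hy, map_smul, LinearMap.smul_apply, map_smul, smul_eq_mul, smul_eq_mul] at h1
  have h2 : (l - l') * S.ip x y = 0 := by linarith
  rcases mul_eq_zero.1 h2 with h | h
  · exact absurd (sub_eq_zero.1 h) hl
  · exact h

theorem ip_P_ne {l l' : ℝ} (hl : l ≠ l') (x y : E) : S.ip (S.P l x) (S.P l' y) = 0 :=
  S.ip_eig hl (S.L_P l x) (S.L_P l' y)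

theorem P_P_ne {l l' : ℝ} (hl : l ≠ l') (x : E) : S.P l (S.P l' x) = 0 := by
  apply S.pos
  rw [S.P_symm, S.P_P, ← S.P_symm]
  exact S.ip_P_ne hl _ _

theorem ip_P_P (l : ℝ) (x y : E) : S.ip (S.P l x) (S.P l y) = S.ip (S.P l x) y := by
  rw [← S.P_symm, S.P_P]

theorem P_L (l : ℝ) (x : E) : S.P l (S.L x) = l • S.P l x := by
  apply S.ext_ip
  intro z
  rw [S.P_symm, S.sa, S.L_P, map_smul, map_smul, LinearMap.smul_apply, S.P_symm]

/-- lower bound of the spectrum -/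
theorem le_of_P_ne {l : ℝ} {x : E} (h : S.P l x ≠ 0) : -S.b ≤ l := by
  have h1 := S.low (S.P l x)
  rw [S.L_P, map_smul, LinearMap.smul_apply, smul_eq_mul] at h1
  have h2 : 0 < S.ip (S.P l x) (S.P l x) :=
    lt_of_le_of_ne (S.ip_self_nonneg _) fun h0 => h (S.pos _ h0.symm)
  exact le_of_mul_le_mul_right h1 h2

/-- the components determine the object -/
theorem ext_P {x y : E} (h : ∀ l, S.P l x = S.P l y) : x = y := by
  rw [← sub_eq_zero]
  apply S.eq_zero_of_nm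
  refine le_antisymm (le_of_forall_pos_le_add fun ε hε => ?_) (S.nm_nonneg _ _)
  obtain ⟨F, hF⟩ := S.conv 0 (x - y) ε hε
  have h1 := hF F (Finset.Subset.refl F)
  have h2 : ∑ l ∈ F, S.P l (x - y) = 0 := Finset.sum_eq_zero fun l _ => by
    rw [map_sub, h, sub_self]
  rw [h2, sub_zero] at h1
  linarith

theorem P_sum (F : Finset ℝ) (v : ℝ → E) (hv : ∀ l, S.L (v l) = l • v l) (l : ℝ) :
    S.P l (∑ l' ∈ F, v l') = if l ∈ F then v l else 0 := by
  classical
  rw [map_sum]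
  have h1 : ∀ l', S.P l (v l') = if l' = l then v l else 0 := by
    intro l'
    split_ifs with h
    · subst h; exact S.P_eig _ _ (hv _)
    · have h2 := S.P_P_ne (l := l) (l' := l') (fun e => h e.symm) (v l')
      rwa [S.P_eig l' _ (hv l')] at h2
  simp only [h1, Finset.sum_ite_eq']

/-- the finite sums converge in the inner product -/
theorem hasSum_ip (x y : E) : HasSum (fun l => S.ip (S.P l x) y) (S.ip x y) := by
  have h0 : Tendsto (fun F : Finset ℝ => ∑ l ∈ F, S.ip (S.P l x) y) atTop (𝓝 (S.ip x y)) := by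
    rw [Metric.tendsto_atTop]
    intro ε hε
    obtain ⟨F₀, hF₀⟩ := S.conv 0 x (ε / (S.nm 0 y + 1))
      (div_pos hε (by linarith [S.nm_nonneg 0 y]))
    refine ⟨F₀, fun F hF => ?_⟩
    have h1 := hF₀ F hF
    have h2 : ∑ l ∈ F, S.ip (S.P l x) y - S.ip x y = -S.ip (x - ∑ l ∈ F, S.P l x) y := by
      rw [map_sub, LinearMap.sub_apply, map_sum, LinearMap.sum_apply]; ring
    rw [Real.dist_eq, h2, abs_neg]
    have hy := S.nm_nonneg 0 y
    calc _ ≤ S.nm 0 (x - ∑ l ∈ F, S.P l x) * S.nm 0 y := S.abs_ip_le _ _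
      _ ≤ ε / (S.nm 0 y + 1) * S.nm 0 y := mul_le_mul_of_nonneg_right h1.le hy
      _ < ε := by
        rw [div_mul_eq_mul_div, div_lt_iff₀ (by linarith)]
        nlinarith
  exact h0

theorem hasSum_ip' (x y : E) : HasSum (fun l => S.ip (S.P l x) (S.P l y)) (S.ip x y) := by
  simpa only [S.ip_P_P] using S.hasSum_ip x y

theorem sum_ip_le (F : Finset ℝ) (x : E) : ∑ l ∈ F, S.ip (S.P l x) (S.P l x) ≤ S.ip x x :=
  sum_le_hasSum F (fun l _ => S.ip_self_nonneg _) (S.hasSum_ip' x x)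

/-! ### finiteness of the low part -/

/-- the objects whose components above `R` vanish -/
def lowE (R : ℝ) : Submodule ℝ E where
  carrier := {x | ∀ l, R < l → S.P l x = 0}
  add_mem' {x y} hx hy l hl := by rw [map_add, hx l hl, hy l hl, add_zero]
  zero_mem' l _ := map_zero _
  smul_mem' c x hx l hl := by rw [map_smul, hx l hl, smul_zero]

theorem mem_lowE {R : ℝ} {x : E} : x ∈ S.lowE R ↔ ∀ l, R < l → S.P l x = 0 := Iff.rfl

theorem finiteDimensional_lowE (R : ℝ) : FiniteDimensional ℝ (S.lowE R) := by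
  obtain ⟨W, hW, h⟩ := S.fin R
  exact Submodule.finiteDimensional_of_le fun x hx => h x hx

theorem mem_lowE_of_eig {R l : ℝ} (hl : l ≤ R) {x : E} (hx : S.L x = l • x) : x ∈ S.lowE R := by
  intro l' hl'
  rw [← S.P_eig l x hx]
  exact S.P_P_ne (by linarith [lt_of_le_of_lt hl hl'] : l' ≠ l) x

theorem P_mem_lowE {R l : ℝ} (hl : l ≤ R) (x : E) : S.P l x ∈ S.lowE R :=
  S.mem_lowE_of_eig hl (S.L_P l x)

/-- the eigenspaces are finite dimensional -/
theorem finiteDimensional_eig (l : ℝ) : FiniteDimensional ℝ (LinearMap.ker (S.L - l • LinearMap.id)) := by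
  have h := S.finiteDimensional_lowE l
  refine Submodule.finiteDimensional_of_le (S₂ := S.lowE l) fun x hx => ?_
  rw [LinearMap.mem_ker, LinearMap.sub_apply, LinearMap.smul_apply, LinearMap.id_apply,
    sub_eq_zero] at hx
  exact S.mem_lowE_of_eig le_rfl hx

/-- **the spectrum is discrete** -/
theorem finite_spec (R : ℝ) : {l : ℝ | l ≤ R ∧ ∃ x, S.P l x ≠ 0}.Finite := by
  have hfd := S.finiteDimensional_lowE R
  by_contra hinf
  have hinf' : Infinite {l : ℝ | l ≤ R ∧ ∃ x, S.P l x ≠ 0} := Set.infinite_coe_iff.2 hinf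
  choose x hx using fun l : {l : ℝ | l ≤ R ∧ ∃ x, S.P l x ≠ 0} => l.2.2
  let v : {l : ℝ | l ≤ R ∧ ∃ x, S.P l x ≠ 0} → S.lowE R :=
    fun l => ⟨S.P l (x l), S.P_mem_lowE l.2.1 _⟩
  have hli : LinearIndependent ℝ v := by
    rw [linearIndependent_iff']
    intro s g hg l hl
    have h1 := congrArg (fun y : S.lowE R => S.P l (y : E)) hg
    simp only [Submodule.coe_sum, Submodule.coe_smul, map_sum, map_smul, Submodule.coe_zero,
      map_zero, v] at h1
    rw [Finset.sum_eq_single l] at h1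
    · rw [S.P_P] at h1
      exact (smul_eq_zero.1 h1).resolve_right (hx l)
    · intro l' _ hne
      rw [S.P_P_ne (fun e => hne (Subtype.ext e.symm)), smul_zero]
    · intro h; exact absurd hl h
  have hf : Finite {l : ℝ | l ≤ R ∧ ∃ x, S.P l x ≠ 0} := hli.finite
  exact hinf'.not_finite hf

/-! ### the positive operator `Λ = L + b + 1` -/

/-- `L + b + 1 ≥ 1` -/
def Lam : E →ₗ[ℝ] E := S.L + (S.b + 1) • LinearMap.id

theorem Lam_apply (x : E) : S.Lam x = S.L x + (S.b + 1) • x := rfl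

theorem P_Lam (l : ℝ) (x : E) : S.P l (S.Lam x) = (l + S.b + 1) • S.P l x := by
  rw [Lam_apply, map_add, map_smul, S.P_L, ← add_smul]; congr 1; ring

theorem P_Lam_iter (j : ℕ) (l : ℝ) (x : E) :
    S.P l (S.Lam^[j] x) = (l + S.b + 1) ^ j • S.P l x := by
  induction j generalizing x with
  | zero => simp
  | succ j ih => rw [Function.iterate_succ_apply, ih, S.P_Lam, smul_smul, pow_succ]

theorem nm_le_Lam (x : E) : S.nm 0 x ≤ S.nm 0 (S.Lam x) := by
  have h1 : S.ip x x ≤ S.ip (S.Lam x) x := by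
    have := S.low x
    rw [Lam_apply, map_add, map_smul, LinearMap.add_apply, LinearMap.smul_apply, smul_eq_mul]
    linarith
  have h2 := (le_abs_self _).trans (S.abs_ip_le (S.Lam x) x)
  rw [← S.nm_zero] at h1
  rcases (S.nm_nonneg 0 x).eq_or_lt with h0 | h0
  · rw [← h0]; exact S.nm_nonneg _ _
  · refine le_of_mul_le_mul_right ?_ h0
    nlinarith

theorem nm_le_Lam_iter (j : ℕ) (x : E) : S.nm 0 x ≤ S.nm 0 (S.Lam^[j] x) := by
  induction j with
  | zero => simp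
  | succ j ih =>
    rw [Function.iterate_succ_apply']
    exact ih.trans (S.nm_le_Lam _)

theorem exists_nm_le_Lam (j : ℕ) : ∃ C : ℝ, 0 ≤ C ∧ ∀ x, S.nm (2 * j) x ≤
    C * S.nm 0 (S.Lam^[j] x) := by
  induction j with
  | zero => exact ⟨1, zero_le_one, fun x => by simp⟩
  | succ j ih =>
    obtain ⟨C, hC, h⟩ := ih
    obtain ⟨C', hC', h'⟩ := S.est (2 * j)
    refine ⟨C' * (C + |S.b + 1| * C + 1), by positivity, fun x => ?_⟩
    have h1 := h (S.Lam x)
    rw [← Function.iterate_succ_apply] at h1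
    have h2 := S.nm_le_Lam_iter (j + 1) x
    have h3 : S.nm 0 (S.Lam^[j] x) ≤ S.nm 0 (S.Lam^[j + 1] x) := by
      rw [Function.iterate_succ_apply']; exact S.nm_le_Lam _
    have h4 : S.nm (2 * j) (S.L x) ≤ S.nm (2 * j) (S.Lam x) + |S.b + 1| * S.nm (2 * j) x := by
      have h5 : S.L x = S.Lam x - (S.b + 1) • x := by rw [Lam_apply]; abel
      rw [h5, ← S.nm_smul]
      exact S.nm_sub _ _ _
    have h6 : S.nm (2 * j) x ≤ C * S.nm 0 (S.Lam^[j + 1] x) :=
      (h x).trans (mul_le_mul_of_nonneg_left h3 hC)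
    calc S.nm (2 * (j + 1)) x ≤ C' * (S.nm (2 * j) (S.L x) + S.nm 0 x) := h' x
      _ ≤ C' * ((C * S.nm 0 (S.Lam^[j + 1] x) + |S.b + 1| * (C * S.nm 0 (S.Lam^[j + 1] x))) +
          S.nm 0 (S.Lam^[j + 1] x)) := by
        refine mul_le_mul_of_nonneg_left (add_le_add (h4.trans (add_le_add h1 ?_)) h2) hC'
        exact mul_le_mul_of_nonneg_left h6 (abs_nonneg _)
      _ = _ := by ring

theorem exists_Lam_le_nm (j : ℕ) : ∀ s : ℕ, ∃ C : ℝ, 0 ≤ C ∧ ∀ x,
    S.nm s (S.Lam^[j] x) ≤ C * S.nm (s + 2 * j) x := by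
  induction j with
  | zero => exact fun s => ⟨1, zero_le_one, fun x => by simp⟩
  | succ j ih =>
    intro s
    obtain ⟨C, hC, h⟩ := ih s
    obtain ⟨C', hC', h'⟩ := S.bdd (s + 2 * j)
    refine ⟨C * (C' + |S.b + 1|), by positivity, fun x => ?_⟩
    rw [Function.iterate_succ_apply]
    calc _ ≤ C * S.nm (s + 2 * j) (S.Lam x) := h _
      _ ≤ C * (C' * S.nm (s + 2 * j + 2) x + |S.b + 1| * S.nm (s + 2 * j + 2) x) := by
        refine mul_le_mul_of_nonneg_left ?_ hC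
        rw [Lam_apply]
        refine (S.nm_add _ _ _).trans (add_le_add (h' x) ?_)
        rw [S.nm_smul]
        exact mul_le_mul_of_nonneg_left (S.nm_mono (by omega) x) (abs_nonneg _)
      _ = C * (C' + |S.b + 1|) * S.nm (s + 2 * (j + 1)) x := by
        rw [show s + 2 * (j + 1) = s + 2 * j + 2 by ring]; ring

/-- comparison of weights -/
theorem one_add_abs_le {l : ℝ} (hl : -S.b ≤ l) : 1 + |l| ≤ (1 + |S.b|) * (l + S.b + 1) := by
  have h1 : (1 : ℝ) ≤ l + S.b + 1 := by linarith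
  have h2 : |S.b| * 1 ≤ |S.b| * (l + S.b + 1) := mul_le_mul_of_nonneg_left h1 (abs_nonneg _)
  rcases abs_cases l with ⟨h, h'⟩ | ⟨h, h'⟩ <;> rcases abs_cases S.b with ⟨k, k'⟩ | ⟨k, k'⟩ <;>
    nlinarith

/-! ### functional calculus -/

/-- polynomial growth on the spectrum -/
def Gr (a : ℝ → ℝ) : Prop :=
  ∃ (m : ℕ) (K : ℝ), 0 ≤ K ∧ ∀ l, (∃ x, S.P l x ≠ 0) → |a l| ≤ K * (1 + |l|) ^ m

/-- bound of the finite sums -/
theorem sum_sq_le (m : ℕ) {K : ℝ} (hK : 0 ≤ K) {a : ℝ → ℝ}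
    (ha : ∀ l, (∃ x, S.P l x ≠ 0) → |a l| ≤ K * (1 + |l|) ^ m) (F : Finset ℝ) (x : E) :
    ∑ l ∈ F, a l ^ 2 * S.ip (S.P l x) (S.P l x) ≤
      (K * (1 + |S.b|) ^ m * S.nm 0 (S.Lam^[m] x)) ^ 2 := by
  have h1 : ∀ l, a l ^ 2 * S.ip (S.P l x) (S.P l x) ≤
      (K * (1 + |S.b|) ^ m) ^ 2 * S.ip (S.P l (S.Lam^[m] x)) (S.P l (S.Lam^[m] x)) := by
    intro l
    rcases eq_or_ne (S.P l x) 0 with h0 | h0
    · rw [S.P_Lam_iter, h0]; simp
    · have hl := S.le_of_P_ne h0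
      have h2 := ha l ⟨x, h0⟩
      have h3 : |a l| ≤ K * (1 + |S.b|) ^ m * (l + S.b + 1) ^ m := by
        refine h2.trans ?_
        rw [mul_assoc, ← mul_pow]
        exact mul_le_mul_of_nonneg_left (pow_le_pow_left₀ (by positivity)
          (S.one_add_abs_le hl) m) hK
      rw [S.P_Lam_iter]
      simp only [map_smul, LinearMap.smul_apply, smul_eq_mul]
      have h4 : a l ^ 2 ≤ (K * (1 + |S.b|) ^ m * (l + S.b + 1) ^ m) ^ 2 := by
        rw [← sq_abs (a l)]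
        exact pow_le_pow_left₀ (abs_nonneg _) h3 2
      calc _ ≤ (K * (1 + |S.b|) ^ m * (l + S.b + 1) ^ m) ^ 2 * S.ip (S.P l x) (S.P l x) :=
            mul_le_mul_of_nonneg_right h4 (S.ip_self_nonneg _)
        _ = _ := by ring
  calc _ ≤ ∑ l ∈ F, (K * (1 + |S.b|) ^ m) ^ 2 *
        S.ip (S.P l (S.Lam^[m] x)) (S.P l (S.Lam^[m] x)) := Finset.sum_le_sum fun l _ => h1 l
    _ = (K * (1 + |S.b|) ^ m) ^ 2 *
        ∑ l ∈ F, S.ip (S.P l (S.Lam^[m] x)) (S.P l (S.Lam^[m] x)) := by rw [Finset.mul_sum]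
    _ ≤ (K * (1 + |S.b|) ^ m) ^ 2 * S.ip (S.Lam^[m] x) (S.Lam^[m] x) :=
        mul_le_mul_of_nonneg_left (S.sum_ip_le F _) (by positivity)
    _ = _ := by rw [← S.nm_zero]; ring

/-- the object with components `a l • P l x` -/
theorem exists_fc_aux {a : ℝ → ℝ} (ha : S.Gr a) (x : E) : ∃ y, ∀ l, S.P l y = a l • S.P l x := by
  obtain ⟨m, K, hK, h⟩ := ha
  refine S.synth (fun l => a l • S.P l x) (fun l => ?_) fun k => ?_
  · rw [map_smul, S.L_P, smul_comm]
  · refine ⟨(K * (1 + |S.b|) ^ (k + m) * S.nm 0 (S.Lam^[k + m] x)) ^ 2, fun F => ?_⟩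
    have h1 := S.sum_sq_le (k + m) hK (a := fun l => (1 + |l|) ^ k * a l) (fun l hl => by
      rw [abs_mul, abs_of_nonneg (by positivity : (0 : ℝ) ≤ (1 + |l|) ^ k), pow_add]
      calc (1 + |l|) ^ k * |a l| ≤ (1 + |l|) ^ k * (K * (1 + |l|) ^ m) :=
            mul_le_mul_of_nonneg_left (h l hl) (by positivity)
        _ = _ := by ring) F x
    refine le_trans (le_of_eq (Finset.sum_congr rfl fun l _ => ?_)) h1
    simp only [map_smul, LinearMap.smul_apply, smul_eq_mul]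
    ring

/-- **Functional calculus.** -/
def fc (a : ℝ → ℝ) (ha : S.Gr a) : E →ₗ[ℝ] E where
  toFun x := (S.exists_fc_aux ha x).choose
  map_add' x y := S.ext_P fun l => by
    rw [map_add, (S.exists_fc_aux ha (x + y)).choose_spec, (S.exists_fc_aux ha x).choose_spec,
      (S.exists_fc_aux ha y).choose_spec, map_add, smul_add]
  map_smul' c x := S.ext_P fun l => by
    rw [RingHom.id_apply, map_smul, (S.exists_fc_aux ha (c • x)).choose_spec,
      (S.exists_fc_aux ha x).choose_spec, map_smul, smul_comm]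

theorem P_fc {a : ℝ → ℝ} (ha : S.Gr a) (l : ℝ) (x : E) : S.P l (S.fc a ha x) = a l • S.P l x :=
  (S.exists_fc_aux ha x).choose_spec l

theorem fc_P {a : ℝ → ℝ} (ha : S.Gr a) (l : ℝ) (x : E) : S.fc a ha (S.P l x) = a l • S.P l x := by
  apply S.ext_P
  intro l'
  rw [S.P_fc, map_smul]
  rcases eq_or_ne l' l with rfl | h
  · rfl
  · rw [S.P_P_ne h, smul_zero, smul_zero]

theorem fc_symm {a : ℝ → ℝ} (ha : S.Gr a) (x y : E) :
    S.ip (S.fc a ha x) y = S.ip x (S.fc a ha y) := by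
  have h1 := S.hasSum_ip' (S.fc a ha x) y
  have h2 := S.hasSum_ip' x (S.fc a ha y)
  simp only [S.P_fc, map_smul, LinearMap.smul_apply, smul_eq_mul] at h1 h2
  exact h1.unique h2

/-- the components of the functional calculus -/
theorem hasSum_fc {a : ℝ → ℝ} (ha : S.Gr a) (x y : E) :
    HasSum (fun l => a l * S.ip (S.P l x) (S.P l y)) (S.ip (S.fc a ha x) y) := by
  have h1 := S.hasSum_ip' (S.fc a ha x) y
  simpa only [S.P_fc, map_smul, LinearMap.smul_apply, smul_eq_mul] using h1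

/-- bounds of the functional calculus, with constants depending on the growth only -/
theorem exists_nm_fc_le (s m : ℕ) : ∃ C : ℝ, 0 ≤ C ∧ ∀ (a : ℝ → ℝ) (ha : S.Gr a) (K : ℝ), 0 ≤ K →
    (∀ l, (∃ x, S.P l x ≠ 0) → |a l| ≤ K * (1 + |l|) ^ m) →
    ∀ x, S.nm s (S.fc a ha x) ≤ C * K * S.nm (2 * (s + m)) x := by
  obtain ⟨C, hC, h⟩ := S.exists_nm_le_Lam s
  obtain ⟨C', hC', h'⟩ := S.exists_Lam_le_nm (s + m) 0
  refine ⟨C * ((1 + |S.b|) ^ m * C'), by positivity, fun a ha K hK haK x => ?_⟩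
  have h1 : S.nm 0 (S.Lam^[s] (S.fc a ha x)) ≤
      K * (1 + |S.b|) ^ m * S.nm 0 (S.Lam^[m] (S.Lam^[s] x)) := by
    have hnn : 0 ≤ K * (1 + |S.b|) ^ m * S.nm 0 (S.Lam^[m] (S.Lam^[s] x)) :=
      mul_nonneg (by positivity) (S.nm_nonneg _ _)
    refine (pow_le_pow_iff_left₀ (S.nm_nonneg _ _) hnn two_ne_zero).1 ?_
    rw [S.nm_zero]
    refine hasSum_le_of_sum_le (S.hasSum_ip' _ _) fun F => ?_
    refine le_trans (le_of_eq (Finset.sum_congr rfl fun l _ => ?_))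
      (S.sum_sq_le m hK haK F (S.Lam^[s] x))
    rw [S.P_Lam_iter, S.P_Lam_iter, S.P_fc]
    simp only [map_smul, LinearMap.smul_apply, smul_eq_mul]
    ring
  have h2 : S.Lam^[m] (S.Lam^[s] x) = S.Lam^[s + m] x := by
    rw [← Function.iterate_add_apply, add_comm]
  rw [h2] at h1
  have h3 := h' x
  rw [zero_add] at h3
  calc S.nm s (S.fc a ha x) ≤ S.nm (2 * s) (S.fc a ha x) := S.nm_mono (by omega) _
    _ ≤ C * S.nm 0 (S.Lam^[s] (S.fc a ha x)) := h _
    _ ≤ C * (K * (1 + |S.b|) ^ m * (C' * S.nm (2 * (s + m)) x)) :=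
      mul_le_mul_of_nonneg_left (h1.trans (mul_le_mul_of_nonneg_left h3 (by positivity))) hC
    _ = _ := by ring

/-! ### resolvents -/

/-- `L + c` is bounded below by a positive constant -/
def Big (c : ℝ) : Prop := ∃ δ > 0, ∀ x, δ * S.ip x x ≤ S.ip (S.L x + c • x) x

theorem Big.le {c δ : ℝ} (h : ∀ x, δ * S.ip x x ≤ S.ip (S.L x + c • x) x) {l : ℝ} {x : E}
    (hx : S.P l x ≠ 0) : δ ≤ l + c := by
  have h1 := h (S.P l x)
  rw [S.L_P, ← add_smul, map_smul, LinearMap.smul_apply, smul_eq_mul] at h1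
  have h2 : 0 < S.ip (S.P l x) (S.P l x) :=
    lt_of_le_of_ne (S.ip_self_nonneg _) fun h0 => hx (S.pos _ h0.symm)
  exact le_of_mul_le_mul_right h1 h2

theorem Big.gr {c : ℝ} (h : S.Big c) : S.Gr fun l => (l + c)⁻¹ := by
  obtain ⟨δ, hδ, h⟩ := h
  refine ⟨0, δ⁻¹, by positivity, fun l hl => ?_⟩
  obtain ⟨x, hx⟩ := hl
  have h1 := Big.le S h hx
  rw [pow_zero, mul_one, abs_of_nonneg (inv_nonneg.2 (by linarith))]
  exact inv_anti₀ hδ h1

/-- the resolvent -/
def res (c : ℝ) (h : S.Big c) : E →ₗ[ℝ] E := S.fc (fun l => (l + c)⁻¹) (Big.gr S h)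

theorem L_res {c : ℝ} (h : S.Big c) (x : E) : S.L (S.res c h x) + c • S.res c h x = x := by
  apply S.ext_P
  intro l
  rw [map_add, map_smul, S.P_L, res, S.P_fc, smul_smul, smul_smul, ← add_smul, ← add_mul]
  rcases eq_or_ne (S.P l x) 0 with h0 | h0
  · rw [h0, smul_zero]
  · obtain ⟨δ, hδ, h⟩ := h
    have h1 := Big.le S h h0
    rw [mul_inv_cancel₀ (by linarith), one_smul]

theorem eq_zero_of_Big {c : ℝ} (h : S.Big c) {x : E} (hx : S.L x + c • x = 0) : x = 0 := by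
  obtain ⟨δ, hδ, h⟩ := h
  have h1 := h x
  rw [hx, map_zero, LinearMap.zero_apply] at h1
  apply S.pos
  have := S.ip_self_nonneg x
  nlinarith

theorem res_unique {c : ℝ} (h : S.Big c) {x y : E} (hx : S.L x + c • x = y) :
    x = S.res c h y := by
  rw [← sub_eq_zero]
  apply S.eq_zero_of_Big h
  rw [map_sub, smul_sub]
  have h1 := S.L_res h y
  calc _ = (S.L x + c • x) - (S.L (S.res c h y) + c • S.res c h y) := by abel
    _ = 0 := by rw [hx, h1, sub_self]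

theorem res_L {c : ℝ} (h : S.Big c) (x : E) : S.res c h (S.L x + c • x) = x :=
  (S.res_unique h rfl).symm

theorem res_symm {c : ℝ} (h : S.Big c) (x y : E) : S.ip (S.res c h x) y = S.ip x (S.res c h y) :=
  S.fc_symm _ x y

theorem P_res {c : ℝ} (h : S.Big c) (l : ℝ) (x : E) :
    S.P l (S.res c h x) = (l + c)⁻¹ • S.P l x := S.P_fc _ l x

theorem nm_zero_res_le {c δ : ℝ} (hδ : 0 < δ) (h : ∀ x, δ * S.ip x x ≤ S.ip (S.L x + c • x) x)
    (x : E) : S.nm 0 (S.res c ⟨δ, hδ, h⟩ x) ≤ δ⁻¹ * S.nm 0 x := by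
  have h1 := h (S.res c ⟨δ, hδ, h⟩ x)
  rw [S.L_res ⟨δ, hδ, h⟩, ← S.nm_zero] at h1
  have h2 := h1.trans ((le_abs_self _).trans (S.abs_ip_le _ _))
  have h3 := S.nm_nonneg 0 (S.res c ⟨δ, hδ, h⟩ x)
  rw [← div_eq_inv_mul, le_div_iff₀ hδ]
  rcases h3.eq_or_lt with h0 | h0
  · rw [← h0, zero_mul]; exact S.nm_nonneg _ _
  · refine le_of_mul_le_mul_right ?_ h0
    nlinarith

/-- **the resolvent gains two derivatives** -/
theorem exists_nm_res_le {c : ℝ} (h : S.Big c) (s : ℕ) : ∃ C : ℝ, 0 ≤ C ∧ ∀ x,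
    S.nm (s + 2) (S.res c h x) ≤ C * S.nm s x := by
  have key : ∀ s, (∃ C : ℝ, 0 ≤ C ∧ ∀ x, S.nm s (S.res c h x) ≤ C * S.nm s x) →
      ∃ C : ℝ, 0 ≤ C ∧ ∀ x, S.nm (s + 2) (S.res c h x) ≤ C * S.nm s x := by
    rintro s ⟨C, hC, h1⟩
    obtain ⟨C', hC', h'⟩ := S.est s
    refine ⟨C' * ((1 + |c| * C) + C), by positivity, fun x => ?_⟩
    have h2 : S.nm s (S.L (S.res c h x)) ≤ S.nm s x + |c| * (C * S.nm s x) := by
      have h3 : S.L (S.res c h x) = x - c • S.res c h x := by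
        rw [eq_sub_iff_add_eq]; exact S.L_res h x
      rw [h3]
      refine (S.nm_sub _ _ _).trans (add_le_add le_rfl ?_)
      rw [S.nm_smul]
      exact mul_le_mul_of_nonneg_left (h1 x) (abs_nonneg _)
    have h4 : S.nm 0 (S.res c h x) ≤ C * S.nm s x :=
      (S.nm_mono (Nat.zero_le s) _).trans (h1 x)
    calc _ ≤ C' * (S.nm s (S.L (S.res c h x)) + S.nm 0 (S.res c h x)) := h' _
      _ ≤ C' * ((S.nm s x + |c| * (C * S.nm s x)) + C * S.nm s x) :=
        mul_le_mul_of_nonneg_left (add_le_add h2 h4) hC'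
      _ = _ := by ring
  have h0 : ∀ s, ∃ C : ℝ, 0 ≤ C ∧ ∀ x, S.nm s (S.res c h x) ≤ C * S.nm s x := by
    intro s
    induction s with
    | zero =>
      obtain ⟨δ, hδ, h⟩ := h
      exact ⟨δ⁻¹, by positivity, S.nm_zero_res_le hδ h⟩
    | succ s ih =>
      obtain ⟨C, hC, h1⟩ := key s ih
      refine ⟨C, hC, fun x => (S.nm_succ (s + 1) _).trans ((h1 x).trans ?_)⟩
      exact mul_le_mul_of_nonneg_left (S.nm_succ s x) hC
  exact key s (h0 s)

end SSp

end Vale.Agent.P207.H395
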