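import Vale.Agent.P207.H395.SSp

/-!
# P207, block SPEC: natural operators, shifts, subspaces and transport of `SSp`
-/

open Filter Topology

noncomputable section

set_option linter.unusedSectionVars false

namespace Vale.Agent.P207.H395

namespace SSp

variable {E E' E'' : Type*} [AddCommGroup E] [Module ℝ E] [AddCommGroup E'] [Module ℝ E']
  [AddCommGroup E''] [Module ℝ E'']

/-! ### natural operators -/

/-- an operator with formal adjoint which intertwines the operators `L` -/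
structure Nt (S : SSp E) (S' : SSp E') (D : E →ₗ[ℝ] E') : Prop where
  adj : ∃ D' : E' → E, ∀ x y, S'.ip (D x) y = S.ip x (D' y)
  comm : ∀ x, D (S.L x) = S'.L (D x)

variable {S : SSp E} {S' : SSp E'} {S'' : SSp E''}

theorem adj_comm {D : E →ₗ[ℝ] E'} (hc : ∀ x, D (S.L x) = S'.L (D x)) {D' : E' → E}
    (h : ∀ x y, S'.ip (D x) y = S.ip x (D' y)) (y : E') : S.L (D' y) = D' (S'.L y) := by
  apply S.ext_ip
  intro z
  rw [S.sa, S.symm, ← h, hc, S'.sa, h, S.symm]

namespace Nt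

theorem id (S : SSp E) : Nt S S LinearMap.id := ⟨⟨fun y => y, fun _ _ => rfl⟩, fun _ => rfl⟩

theorem comp {D : E →ₗ[ℝ] E'} {D₂ : E' →ₗ[ℝ] E''} (h₂ : Nt S' S'' D₂) (h : Nt S S' D) :
    Nt S S'' (D₂ ∘ₗ D) := by
  obtain ⟨D', hD'⟩ := h.adj
  obtain ⟨D₂', hD₂'⟩ := h₂.adj
  refine ⟨⟨fun y => D' (D₂' y), fun x y => ?_⟩, fun x => ?_⟩
  · rw [LinearMap.comp_apply, hD₂', hD']
  · rw [LinearMap.comp_apply, LinearMap.comp_apply, h.comm, h₂.comm]

theorem zero : Nt S S' (0 : E →ₗ[ℝ] E') :=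
  ⟨⟨fun _ => 0, fun x y => by simp⟩, fun x => by simp⟩

theorem add {D D₂ : E →ₗ[ℝ] E'} (h : Nt S S' D) (h₂ : Nt S S' D₂) : Nt S S' (D + D₂) := by
  obtain ⟨D', hD'⟩ := h.adj
  obtain ⟨D₂', hD₂'⟩ := h₂.adj
  refine ⟨⟨fun y => D' y + D₂' y, fun x y => ?_⟩, fun x => ?_⟩
  · rw [LinearMap.add_apply, map_add, LinearMap.add_apply, hD', hD₂', map_add]
  · rw [LinearMap.add_apply, LinearMap.add_apply, h.comm, h₂.comm, map_add]

theorem smul {D : E →ₗ[ℝ] E'} (c : ℝ) (h : Nt S S' D) : Nt S S' (c • D) := by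
  obtain ⟨D', hD'⟩ := h.adj
  refine ⟨⟨fun y => c • D' y, fun x y => ?_⟩, fun x => ?_⟩
  · rw [LinearMap.smul_apply, map_smul, LinearMap.smul_apply, hD', map_smul]
  · rw [LinearMap.smul_apply, LinearMap.smul_apply, h.comm, map_smul]

theorem neg {D : E →ₗ[ℝ] E'} (h : Nt S S' D) : Nt S S' (-D) := by
  have := h.smul (-1)
  rwa [neg_one_smul] at this

theorem sub {D D₂ : E →ₗ[ℝ] E'} (h : Nt S S' D) (h₂ : Nt S S' D₂) : Nt S S' (D - D₂) := by
  rw [sub_eq_add_neg]; exact h.add h₂.neg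

theorem sum {κ : Type*} (F : Finset κ) {D : κ → E →ₗ[ℝ] E'} (h : ∀ k ∈ F, Nt S S' (D k)) :
    Nt S S' (∑ k ∈ F, D k) := by
  classical
  induction F using Finset.induction_on with
  | empty => simpa using zero
  | insert a F ha ih =>
    rw [Finset.sum_insert ha]
    exact (h a (Finset.mem_insert_self _ _)).add
      (ih fun k hk => h k (Finset.mem_insert_of_mem hk))

/-- the adjoint is natural -/
theorem adjoint {D : E →ₗ[ℝ] E'} (h : Nt S S' D) {D' : E' →ₗ[ℝ] E}
    (hD : ∀ x y, S'.ip (D x) y = S.ip x (D' y)) : Nt S' S D' := by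
  refine ⟨⟨D, fun x y => ?_⟩, fun y => ?_⟩
  · rw [S.symm, ← hD, S'.symm]
  · exact (adj_comm h.comm hD y).symm

theorem L (S : SSp E) : Nt S S S.L := ⟨⟨S.L, S.sa⟩, fun _ => rfl⟩

theorem proj (S : SSp E) (l : ℝ) : Nt S S (S.P l) :=
  ⟨⟨S.P l, S.P_symm l⟩, fun x => by rw [S.P_L, S.L_P]⟩

/-- **natural operators commute with the spectral projections** -/
theorem P {D : E →ₗ[ℝ] E'} (h : Nt S S' D) (l : ℝ) (x : E) : D (S.P l x) = S'.P l (D x) := by
  obtain ⟨D', hD'⟩ := h.adj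
  have h1 : S'.P l (D (x - S.P l x)) = 0 := by
    apply S'.pos
    rw [S'.P_symm, S'.P_P]
    set w := S'.P l (D (x - S.P l x)) with hw
    have h2 : S.L (D' w) = l • D' w := by
      rw [adj_comm h.comm hD' w]
      have h3 : S'.L w = l • w := S'.L_P l _
      rw [h3]
      apply S.ext_ip
      intro z
      rw [S.symm, ← hD', map_smul, map_smul, LinearMap.smul_apply, S.symm (D' w), ← hD']
    rw [hD', ← S.P_eig l _ h2, ← S.P_symm, map_sub, S.P_P, sub_self, map_zero,
      LinearMap.zero_apply]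
  have h4 : S'.P l (D (S.P l x)) = D (S.P l x) := by
    apply S'.P_eig
    rw [← h.comm, S.L_P, map_smul]
  rw [map_sub, map_sub, h4, sub_eq_zero] at h1
  exact h1.symm

theorem fc {D : E →ₗ[ℝ] E'} (h : Nt S S' D) {a : ℝ → ℝ} (ha : S.Gr a) (ha' : S'.Gr a) (x : E) :
    D (S.fc a ha x) = S'.fc a ha' (D x) := by
  apply S'.ext_P
  intro l
  rw [← h.P, S.P_fc, map_smul, S'.P_fc, h.P]

theorem res {D : E →ₗ[ℝ] E'} (h : Nt S S' D) {c : ℝ} (hc : S.Big c) (hc' : S'.Big c) (x : E) :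
    D (S.res c hc x) = S'.res c hc' (D x) := by
  apply S'.res_unique
  rw [← h.comm, ← map_smul, ← map_add, S.L_res]

/-- the inner products of images decompose -/
theorem hasSum_ip {D D₂ : E →ₗ[ℝ] E'} (h : Nt S S' D) (h₂ : Nt S S' D₂) (x y : E) :
    HasSum (fun l => S'.ip (D (S.P l x)) (D₂ (S.P l y))) (S'.ip (D x) (D₂ y)) := by
  have h1 := S'.hasSum_ip' (D x) (D₂ y)
  simpa only [← h.P, ← h₂.P] using h1

theorem hasSum_fc {D D₂ : E →ₗ[ℝ] E'} (h : Nt S S' D) (h₂ : Nt S S' D₂) {a a' : ℝ → ℝ}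
    (ha : S.Gr a) (ha' : S.Gr a') (x y : E) :
    HasSum (fun l => a l * a' l * S'.ip (D (S.P l x)) (D₂ (S.P l y)))
      (S'.ip (D (S.fc a ha x)) (D₂ (S.fc a' ha' y))) := by
  have h1 := h.hasSum_ip h₂ (S.fc a ha x) (S.fc a' ha' y)
  simp only [S.P_fc, map_smul, LinearMap.smul_apply, smul_eq_mul] at h1
  refine h1.congr_fun ?_
  intro l
  ring

end Nt

theorem fc_nt (S : SSp E) {a : ℝ → ℝ} (ha : S.Gr a) : Nt S S (S.fc a ha) :=
  ⟨⟨S.fc a ha, S.fc_symm ha⟩, fun x => S.ext_P fun l => by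
    rw [S.P_fc, S.P_L, S.P_L, S.P_fc, smul_comm]⟩

theorem res_nt (S : SSp E) {c : ℝ} (h : S.Big c) : Nt S S (S.res c h) := S.fc_nt _

/-! ### growth -/

namespace Gr

theorem const (S : SSp E) (c : ℝ) : S.Gr fun _ => c :=
  ⟨0, |c|, abs_nonneg _, fun _ _ => by simp⟩

theorem ident (S : SSp E) : S.Gr fun l => l :=
  ⟨1, 1, zero_le_one, fun l _ => by rw [pow_one, one_mul]; linarith⟩

theorem add {a a' : ℝ → ℝ} (h : S.Gr a) (h' : S.Gr a') : S.Gr fun l => a l + a' l := by
  obtain ⟨m, K, hK, h⟩ := h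
  obtain ⟨m', K', hK', h'⟩ := h'
  refine ⟨m + m', K + K', by positivity, fun l hl => ?_⟩
  have h1 : (1 : ℝ) ≤ 1 + |l| := by linarith [abs_nonneg l]
  calc |a l + a' l| ≤ |a l| + |a' l| := abs_add_le _ _
    _ ≤ K * (1 + |l|) ^ m + K' * (1 + |l|) ^ m' := add_le_add (h l hl) (h' l hl)
    _ ≤ K * (1 + |l|) ^ (m + m') + K' * (1 + |l|) ^ (m + m') :=
      add_le_add (mul_le_mul_of_nonneg_left (pow_le_pow_right₀ h1 (by omega)) hK)
        (mul_le_mul_of_nonneg_left (pow_le_pow_right₀ h1 (by omega)) hK')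
    _ = _ := by ring

theorem mul {a a' : ℝ → ℝ} (h : S.Gr a) (h' : S.Gr a') : S.Gr fun l => a l * a' l := by
  obtain ⟨m, K, hK, h⟩ := h
  obtain ⟨m', K', hK', h'⟩ := h'
  refine ⟨m + m', K * K', by positivity, fun l hl => ?_⟩
  rw [abs_mul]
  calc |a l| * |a' l| ≤ (K * (1 + |l|) ^ m) * (K' * (1 + |l|) ^ m') :=
        mul_le_mul (h l hl) (h' l hl) (abs_nonneg _) (by positivity)
    _ = _ := by ring

theorem neg {a : ℝ → ℝ} (h : S.Gr a) : S.Gr fun l => - a l := by
  obtain ⟨m, K, hK, h⟩ := h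
  exact ⟨m, K, hK, fun l hl => by rw [abs_neg]; exact h l hl⟩

theorem of_le {a a' : ℝ → ℝ} (h : S.Gr a) (h' : ∀ l, (∃ x, S.P l x ≠ 0) → |a' l| ≤ |a l|) :
    S.Gr a' := by
  obtain ⟨m, K, hK, h⟩ := h
  exact ⟨m, K, hK, fun l hl => (h' l hl).trans (h l hl)⟩

end Gr

/-! ### shifts -/

/-- `L` replaced by `L + c` -/
def shift (S : SSp E) (c : ℝ) : SSp E where
  ip := S.ip
  symm := S.symm
  nm := S.nm
  nm_nonneg := S.nm_nonneg
  nm_add := S.nm_add
  nm_smul := S.nm_smul
  nm_succ := S.nm_succ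
  nm_zero := S.nm_zero
  pos := S.pos
  L := S.L + c • LinearMap.id
  sa x y := by
    simp only [LinearMap.add_apply, LinearMap.smul_apply, LinearMap.id_apply, map_add, map_smul]
    rw [S.sa]
  b := S.b - c
  low x := by
    have := S.low x
    simp only [LinearMap.add_apply, LinearMap.smul_apply, LinearMap.id_apply, map_add, map_smul,
      smul_eq_mul]
    linarith
  est := by
    have key : ∀ s, ∃ C : ℝ, 0 ≤ C ∧ ∀ x, S.nm (s + 2) x ≤
        C * (S.nm s (S.L x + c • x) + S.nm 0 x) := by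
      have step : ∀ s, (∃ C : ℝ, 0 ≤ C ∧ ∀ x, S.nm s x ≤
          C * (S.nm s (S.L x + c • x) + S.nm 0 x)) →
          ∃ C : ℝ, 0 ≤ C ∧ ∀ x, S.nm (s + 2) x ≤
            C * (S.nm s (S.L x + c • x) + S.nm 0 x) := by
        rintro s ⟨C, hC, h⟩
        obtain ⟨C', hC', h'⟩ := S.est s
        refine ⟨C' * (1 + |c| * C), by positivity, fun x => ?_⟩
        have h1 : S.nm s (S.L x) ≤ S.nm s (S.L x + c • x) + |c| * S.nm s x := by
          have h2 : S.L x = (S.L x + c • x) - c • x := by abel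
          rw [← S.nm_smul]
          calc S.nm s (S.L x) = S.nm s ((S.L x + c • x) - c • x) := by rw [← h2]
            _ ≤ _ := S.nm_sub _ _ _
        have h3 := mul_le_mul_of_nonneg_left (h x) (abs_nonneg c)
        have h4 := S.nm_nonneg s (S.L x + c • x)
        have h5 := S.nm_nonneg 0 x
        calc _ ≤ C' * (S.nm s (S.L x) + S.nm 0 x) := h' x
          _ ≤ C' * ((S.nm s (S.L x + c • x) +
              |c| * (C * (S.nm s (S.L x + c • x) + S.nm 0 x))) + S.nm 0 x) :=
            mul_le_mul_of_nonneg_left (add_le_add (h1.trans (add_le_add le_rfl h3)) le_rfl) hC'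
          _ = _ := by ring
      intro s
      apply step
      induction s with
      | zero =>
        exact ⟨1, zero_le_one, fun x => by rw [one_mul]; linarith [S.nm_nonneg 0 (S.L x + c • x)]⟩
      | succ s ih =>
        obtain ⟨C, hC, h⟩ := step s ih
        refine ⟨C, hC, fun x => (S.nm_succ (s + 1) x).trans ((h x).trans ?_)⟩
        exact mul_le_mul_of_nonneg_left (add_le_add (S.nm_succ s _) le_rfl) hC
    exact key
  bdd := by
    intro s
    obtain ⟨C, hC, h⟩ := S.bdd s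
    refine ⟨C + |c|, by positivity, fun x => ?_⟩
    rw [LinearMap.add_apply, LinearMap.smul_apply, LinearMap.id_apply, add_mul]
    refine (S.nm_add _ _ _).trans (add_le_add (h x) ?_)
    rw [S.nm_smul]
    exact mul_le_mul_of_nonneg_left (S.nm_mono (by omega) x) (abs_nonneg _)
  P l := S.P (l - c)
  L_P l x := by
    rw [LinearMap.add_apply, LinearMap.smul_apply, LinearMap.id_apply, S.L_P, ← add_smul,
      sub_add_cancel]
  P_eig l x hx := by
    apply S.P_eig
    rw [LinearMap.add_apply, LinearMap.smul_apply, LinearMap.id_apply] at hx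
    rw [sub_smul, ← hx]; abel
  P_symm l := S.P_symm (l - c)
  conv s x ε hε := by
    classical
    obtain ⟨F₀, hF₀⟩ := S.conv s x ε hε
    refine ⟨F₀.image fun l => l + c, fun F hF => ?_⟩
    have h1 := hF₀ (F.image fun l => l - c) (fun l hl => by
      rw [Finset.mem_image]
      exact ⟨l + c, hF (Finset.mem_image_of_mem _ hl), by ring⟩)
    rwa [Finset.sum_image fun x _ y _ h => by simpa using h] at h1
  synth v hv hb := by
    classical
    obtain ⟨x, hx⟩ := S.synth (fun l => v (l + c)) (fun l => by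
      have h1 := hv (l + c)
      rw [LinearMap.add_apply, LinearMap.smul_apply, LinearMap.id_apply, add_smul] at h1
      exact add_right_cancel h1) (fun m => by
        obtain ⟨K, hK⟩ := hb m
        refine ⟨((1 + |c|) ^ m) ^ 2 * K, fun F => ?_⟩
        have h1 := hK (F.image fun l => l + c)
        rw [Finset.sum_image fun x _ y _ h => by simpa using h] at h1
        refine le_trans ?_ (mul_le_mul_of_nonneg_left h1 (by positivity))
        rw [Finset.mul_sum]
        refine Finset.sum_le_sum fun l _ => ?_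
        rw [← mul_assoc, ← mul_pow, ← mul_pow]
        refine mul_le_mul_of_nonneg_right ?_ (S.ip_self_nonneg _)
        refine pow_le_pow_left₀ (by positivity) (pow_le_pow_left₀ (by positivity) ?_ m) 2
        have h2 : |l| ≤ |l + c| + |c| := by
          have h3 := abs_sub (l + c) c
          rwa [add_sub_cancel_right] at h3
        nlinarith [abs_nonneg (l + c), abs_nonneg c])
    exact ⟨x, fun l => by rw [hx, sub_add_cancel]⟩
  fin R := by
    obtain ⟨W, hW, h⟩ := S.fin (R - c)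
    refine ⟨W, hW, fun x hx => h x fun l hl => ?_⟩
    have := hx (l + c) (by linarith)
    rwa [add_sub_cancel_right] at this

@[simp] theorem shift_ip (S : SSp E) (c : ℝ) : (S.shift c).ip = S.ip := rfl

@[simp] theorem shift_nm (S : SSp E) (c : ℝ) : (S.shift c).nm = S.nm := rfl

theorem shift_L (S : SSp E) (c : ℝ) (x : E) : (S.shift c).L x = S.L x + c • x := rfl

theorem shift_P (S : SSp E) (c l : ℝ) : (S.shift c).P l = S.P (l - c) := rfl

/-! ### invariant subspaces -/

/-- subspaces described by the components -/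
def Nsub (S : SSp E) (F : Submodule ℝ E) : Prop := ∀ x, x ∈ F ↔ ∀ l, S.P l x ∈ F

theorem Nsub.P_mem {F : Submodule ℝ E} (h : S.Nsub F) {x : E} (hx : x ∈ F) (l : ℝ) :
    S.P l x ∈ F := (h x).1 hx l

theorem Nsub.L_mem {F : Submodule ℝ E} (h : S.Nsub F) {x : E} (hx : x ∈ F) : S.L x ∈ F :=
  (h _).2 fun l => by rw [S.P_L]; exact F.smul_mem _ (h.P_mem hx l)

theorem Nsub.fc_mem {F : Submodule ℝ E} (h : S.Nsub F) {a : ℝ → ℝ} (ha : S.Gr a) {x : E}
    (hx : x ∈ F) : S.fc a ha x ∈ F :=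
  (h _).2 fun l => by rw [S.P_fc]; exact F.smul_mem _ (h.P_mem hx l)

theorem Nsub.top (S : SSp E) : S.Nsub ⊤ := fun _ => ⟨fun _ _ => trivial, fun _ => trivial⟩

theorem Nsub.inf {F F' : Submodule ℝ E} (h : S.Nsub F) (h' : S.Nsub F') : S.Nsub (F ⊓ F') :=
  fun x => ⟨fun hx l => ⟨h.P_mem hx.1 l, h'.P_mem hx.2 l⟩,
    fun hx => ⟨(h x).2 fun l => (hx l).1, (h' x).2 fun l => (hx l).2⟩⟩

theorem Nsub.iInf {κ : Sort*} {F : κ → Submodule ℝ E} (h : ∀ k, S.Nsub (F k)) :
    S.Nsub (⨅ k, F k) := fun x => by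
  simp only [Submodule.mem_iInf]
  exact ⟨fun hx l k => (h k).P_mem (hx k) l, fun hx k => (h k x).2 fun l => hx l k⟩

/-- kernels of natural operators -/
theorem Nt.ker {D : E →ₗ[ℝ] E'} (h : Nt S S' D) : S.Nsub (LinearMap.ker D) := by
  intro x
  simp only [LinearMap.mem_ker, h.P]
  constructor
  · intro hx l; rw [hx, map_zero]
  · intro hx
    apply S'.ext_P
    intro l
    rw [hx, map_zero]

/-- the restriction to an invariant subspace -/
def sub (S : SSp E) (F : Submodule ℝ E) (hF : S.Nsub F) : SSp F where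
  ip := S.ip.domRestrict₁₂ F F
  symm x y := S.symm x y
  nm s x := S.nm s x
  nm_nonneg s x := S.nm_nonneg s x
  nm_add s x y := S.nm_add s x y
  nm_smul s c x := S.nm_smul s c x
  nm_succ s x := S.nm_succ s x
  nm_zero x := S.nm_zero x
  pos x hx := Subtype.ext (S.pos x hx)
  L := S.L.restrict fun _ hx => hF.L_mem hx
  sa x y := S.sa x y
  b := S.b
  low x := S.low x
  est s := by
    obtain ⟨C, hC, h⟩ := S.est s
    exact ⟨C, hC, fun x => h x⟩
  bdd s := by
    obtain ⟨C, hC, h⟩ := S.bdd s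
    exact ⟨C, hC, fun x => h x⟩
  P l := (S.P l).restrict fun _ hx => hF.P_mem hx l
  L_P l x := Subtype.ext (S.L_P l x)
  P_eig l x hx := Subtype.ext (S.P_eig l x (congrArg Subtype.val hx))
  P_symm l x y := S.P_symm l x y
  conv s x ε hε := by
    obtain ⟨F₀, hF₀⟩ := S.conv s x ε hε
    refine ⟨F₀, fun G hG => ?_⟩
    have h1 := hF₀ G hG
    have h2 : ((x - ∑ l ∈ G, (S.P l).restrict (fun _ hx => hF.P_mem hx l) x : F) : E) =
        x - ∑ l ∈ G, S.P l x := by
      rw [Submodule.coe_sub, Submodule.coe_sum]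
      rfl
    rw [h2]; exact h1
  synth v hv hb := by
    obtain ⟨x, hx⟩ := S.synth (fun l => v l) (fun l => congrArg Subtype.val (hv l)) hb
    have hxF : x ∈ F := (hF x).2 fun l => by rw [hx]; exact (v l).2
    exact ⟨⟨x, hxF⟩, fun l => Subtype.ext (hx l)⟩
  fin R := by
    obtain ⟨W, hW, h⟩ := S.fin R
    refine ⟨W.comap F.subtype, ?_, fun x hx => h x fun l hl => congrArg Subtype.val (hx l hl)⟩
    have hinj : Function.Injective
        ((F.subtype.domRestrict (W.comap F.subtype)).codRestrict W fun x => x.2) := by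
      intro x y hxy
      have h1 := congrArg Subtype.val hxy
      exact Subtype.ext (Subtype.ext h1)
    exact FiniteDimensional.of_injective _ hinj

theorem sub_ip (S : SSp E) {F : Submodule ℝ E} (hF : S.Nsub F) (x y : F) :
    (S.sub F hF).ip x y = S.ip x y := rfl

theorem sub_nm (S : SSp E) {F : Submodule ℝ E} (hF : S.Nsub F) (s : ℕ) (x : F) :
    (S.sub F hF).nm s x = S.nm s x := rfl

@[simp] theorem coe_sub_L (S : SSp E) {F : Submodule ℝ E} (hF : S.Nsub F) (x : F) :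
    ((S.sub F hF).L x : E) = S.L x := rfl

@[simp] theorem coe_sub_P (S : SSp E) {F : Submodule ℝ E} (hF : S.Nsub F) (l : ℝ) (x : F) :
    ((S.sub F hF).P l x : E) = S.P l x := rfl

/-- the functional calculus of a subspace -/
theorem coe_sub_fc (S : SSp E) {F : Submodule ℝ E} (hF : S.Nsub F) {a : ℝ → ℝ} (ha : S.Gr a)
    (ha' : (S.sub F hF).Gr a) (x : F) : ((S.sub F hF).fc a ha' x : E) = S.fc a ha x := by
  apply S.ext_P
  intro l
  rw [S.P_fc, ← coe_sub_P S hF, SSp.P_fc]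
  rfl

theorem Gr.sub {F : Submodule ℝ E} (hF : S.Nsub F) {a : ℝ → ℝ} (ha : S.Gr a) :
    (S.sub F hF).Gr a := by
  obtain ⟨m, K, hK, h⟩ := ha
  refine ⟨m, K, hK, fun l hl => h l ?_⟩
  obtain ⟨x, hx⟩ := hl
  exact ⟨x, fun h0 => hx (Subtype.ext h0)⟩

/-- natural operators between subspaces -/
theorem Nt.restrict {D : E →ₗ[ℝ] E'} {F : Submodule ℝ E} {F' : Submodule ℝ E'}
    (hF : S.Nsub F) (hF' : S'.Nsub F') (hD : ∀ x ∈ F, D x ∈ F')
    (hc : ∀ x ∈ F, D (S.L x) = S'.L (D x)) {D' : E' → E} (hD' : ∀ y ∈ F', D' y ∈ F)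
    (ha : ∀ x ∈ F, ∀ y ∈ F', S'.ip (D x) y = S.ip x (D' y)) :
    Nt (S.sub F hF) (S'.sub F' hF') (D.restrict hD) :=
  ⟨⟨fun y => ⟨D' y, hD' y y.2⟩, fun x y => ha x x.2 y y.2⟩, fun x => Subtype.ext (hc x x.2)⟩

/-! ### transport -/

/-- transport along a linear equivalence -/
def map (S : SSp E) (e : E ≃ₗ[ℝ] E') : SSp E' where
  ip := (S.ip.comp e.symm.toLinearMap).compl₂ e.symm.toLinearMap
  symm x y := S.symm _ _
  nm s x := S.nm s (e.symm x)
  nm_nonneg s x := S.nm_nonneg s _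
  nm_add s x y := by rw [map_add]; exact S.nm_add s _ _
  nm_smul s c x := by rw [map_smul]; exact S.nm_smul s c _
  nm_succ s x := S.nm_succ s _
  nm_zero x := S.nm_zero _
  pos x hx := by
    have := S.pos _ hx
    simpa using this
  L := e.toLinearMap ∘ₗ S.L ∘ₗ e.symm.toLinearMap
  sa x y := by
    simp only [LinearMap.compl₂_apply, LinearMap.comp_apply, LinearEquiv.coe_coe,
      LinearEquiv.symm_apply_apply]
    exact S.sa _ _
  b := S.b
  low x := by
    simp only [LinearMap.compl₂_apply, LinearMap.comp_apply, LinearEquiv.coe_coe,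
      LinearEquiv.symm_apply_apply]
    exact S.low _
  est s := by
    obtain ⟨C, hC, h⟩ := S.est s
    refine ⟨C, hC, fun x => ?_⟩
    simp only [LinearMap.comp_apply, LinearEquiv.coe_coe, LinearEquiv.symm_apply_apply]
    exact h _
  bdd s := by
    obtain ⟨C, hC, h⟩ := S.bdd s
    refine ⟨C, hC, fun x => ?_⟩
    simp only [LinearMap.comp_apply, LinearEquiv.coe_coe, LinearEquiv.symm_apply_apply]
    exact h _
  P l := e.toLinearMap ∘ₗ S.P l ∘ₗ e.symm.toLinearMap
  L_P l x := by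
    simp only [LinearMap.comp_apply, LinearEquiv.coe_coe, LinearEquiv.symm_apply_apply]
    rw [S.L_P, map_smul]
  P_eig l x hx := by
    simp only [LinearMap.comp_apply, LinearEquiv.coe_coe] at hx ⊢
    rw [S.P_eig l, LinearEquiv.apply_symm_apply]
    rw [← LinearEquiv.symm_apply_apply e (S.L (e.symm x)), hx, map_smul]
  P_symm l x y := by
    simp only [LinearMap.compl₂_apply, LinearMap.comp_apply, LinearEquiv.coe_coe,
      LinearEquiv.symm_apply_apply]
    exact S.P_symm _ _ _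
  conv s x ε hε := by
    obtain ⟨F₀, hF₀⟩ := S.conv s (e.symm x) ε hε
    refine ⟨F₀, fun F hF => ?_⟩
    simp only [LinearMap.comp_apply, LinearEquiv.coe_coe, map_sub, map_sum,
      LinearEquiv.symm_apply_apply]
    exact hF₀ F hF
  synth v hv hb := by
    obtain ⟨x, hx⟩ := S.synth (fun l => e.symm (v l)) (fun l => by
      have h1 := hv l
      simp only [LinearMap.comp_apply, LinearEquiv.coe_coe] at h1
      rw [← LinearEquiv.symm_apply_apply e (S.L (e.symm (v l))), h1, map_smul]) hb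
    refine ⟨e x, fun l => ?_⟩
    simp only [LinearMap.comp_apply, LinearEquiv.coe_coe, LinearEquiv.symm_apply_apply]
    rw [hx, LinearEquiv.apply_symm_apply]
  fin R := by
    obtain ⟨W, hW, h⟩ := S.fin R
    refine ⟨W.map e.toLinearMap, inferInstance, fun x hx => ?_⟩
    refine ⟨e.symm x, h _ fun l hl => ?_, e.apply_symm_apply x⟩
    have h1 := hx l hl
    simp only [LinearMap.comp_apply, LinearEquiv.coe_coe] at h1
    exact (LinearEquiv.map_eq_zero_iff e).1 h1

theorem map_ip (S : SSp E) (e : E ≃ₗ[ℝ] E') (x y : E') :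
    (S.map e).ip x y = S.ip (e.symm x) (e.symm y) := rfl

theorem map_nm (S : SSp E) (e : E ≃ₗ[ℝ] E') (s : ℕ) (x : E') :
    (S.map e).nm s x = S.nm s (e.symm x) := rfl

theorem map_L (S : SSp E) (e : E ≃ₗ[ℝ] E') (x : E') :
    (S.map e).L x = e (S.L (e.symm x)) := rfl

theorem map_P (S : SSp E) (e : E ≃ₗ[ℝ] E') (l : ℝ) (x : E') :
    (S.map e).P l x = e (S.P l (e.symm x)) := rfl

end SSp

end Vale.Agent.P207.H395
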