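import Vale.Agent.P207.H395.Spec4
import Vale.Agent.P207.H395.Fd
import Vale.Agent.P207.H395.SSp2

/-!
# P207, block SPEC: the spectral space `SSp` of a Hilbert space system
-/

open Filter Topology
open scoped InnerProductSpace

noncomputable section

set_option linter.unusedSectionVars false

namespace Vale.Agent.P207.H395

namespace HSys

variable {ι : Type} [Fintype ι] {H : Type} [NormedAddCommGroup H] [InnerProductSpace ℝ H]
  [CompleteSpace H]

variable (S : HSys ι H) {B : H →L[ℝ] H}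

theorem lap_symm (hB : Pos B) (hT : B ∈ S.T) (a b : S.A) :
    ⟪(S.lap hT a : H), (b : H)⟫_ℝ = ⟪(a : H), (S.lap hT b : H)⟫_ℝ := by
  rw [S.inner_lap, real_inner_comm (S.lap hT b : H) (a : H), S.inner_lap,
    real_inner_comm (a : H) (b : H), hB.symm, real_inner_comm (B b) (a : H)]
  simp only [real_inner_comm (S.X _ b : H) (S.X _ a : H)]

/-- **the spectral space of a Hilbert space system** -/
def ssp (hG : S.Reg) (hR : S.Rel) (hB : Pos B) (hT : B ∈ S.T) : SSp S.A where
  ip := (innerₗ H).domRestrict₁₂ S.A S.A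
  symm x y := real_inner_comm _ _
  nm := S.nS
  nm_nonneg := S.nS_nonneg
  nm_add := S.nS_add_le
  nm_smul := S.nS_smul
  nm_succ := S.nS_le_succ
  nm_zero x := (real_inner_self_eq_norm_sq (x : H)).symm
  pos x hx := Subtype.ext (inner_self_eq_zero.1 hx)
  L := S.lap hT
  sa := S.lap_symm hB hT
  b := -1
  low x := by
    change -(-1) * ⟪(x : H), (x : H)⟫_ℝ ≤ ⟪(S.lap hT x : H), (x : H)⟫_ℝ
    rw [S.inner_lap]
    have h1 := hB.nonneg (x : H)
    have h2 : 0 ≤ ∑ i, ⟪(S.X i x : H), (S.X i x : H)⟫_ℝ :=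
      Finset.sum_nonneg fun i _ => real_inner_self_nonneg
    linarith
  est := S.est hT
  bdd := S.bdd hT
  P l :=
    { toFun := S.projA hG hB hT l
      map_add' := S.projA_add hG hB hT l
      map_smul' := S.projA_smul hG hB hT l }
  L_P := S.lap_projA hG hB hT
  P_eig l x hx := by
    rcases eq_or_ne l 0 with rfl | hl
    · have h1 := S.norm_le_lap hB hT x
      rw [hx, zero_smul, Submodule.coe_zero, norm_zero] at h1
      have h2 : x = 0 := Subtype.ext (norm_le_zero_iff.1 h1)
      rw [h2, map_zero]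
    · exact Subtype.ext (S.proj_eq_self (S.mem_eig_of_lap hB hT hl hx))
  P_symm l x y := S.inner_proj_left hB l (x : H) (y : H)
  conv s x ε hε := S.exists_sum_projA hB hT hG hR (S.est hT) s x hε
  synth v hv hb := by
    obtain ⟨x, hx, -⟩ := exists_synth (S := S) hG hB hT (v := v) (fun l => by
      rcases eq_or_ne l 0 with rfl | hl
      · have h1 := S.norm_le_lap hB hT (v 0)
        rw [hv, zero_smul, Submodule.coe_zero, norm_zero] at h1
        rw [norm_le_zero_iff.1 h1]
        exact Submodule.zero_mem _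
      · exact S.mem_eig_of_lap hB hT hl (hv l)) (fun m => by
        obtain ⟨K, hK⟩ := hb m
        refine ⟨K, fun F => le_trans (Finset.sum_le_sum fun l _ => ?_) (hK F)⟩
        have h1 : ‖(v l : H)‖ ^ 2 = ((innerₗ H).domRestrict₁₂ S.A S.A) (v l) (v l) :=
          (real_inner_self_eq_norm_sq (v l : H)).symm
        rw [← h1]
        refine mul_le_mul_of_nonneg_right ?_ (by positivity)
        rw [← sq_abs (l ^ m), abs_pow]
        exact pow_le_pow_left₀ (by positivity)
          (pow_le_pow_left₀ (abs_nonneg _) (by linarith) m) 2)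
    exact ⟨x, hx⟩
  fin R := S.exists_fin hG hR hB hT R

theorem ssp_ip (hG : S.Reg) (hR : S.Rel) (hB : Pos B) (hT : B ∈ S.T) (x y : S.A) :
    (S.ssp hG hR hB hT).ip x y = ⟪(x : H), (y : H)⟫_ℝ := rfl

theorem ssp_nm (hG : S.Reg) (hR : S.Rel) (hB : Pos B) (hT : B ∈ S.T) :
    (S.ssp hG hR hB hT).nm = S.nS := rfl

theorem ssp_L (hG : S.Reg) (hR : S.Rel) (hB : Pos B) (hT : B ∈ S.T) :
    (S.ssp hG hR hB hT).L = S.lap hT := rfl

theorem ssp_P (hG : S.Reg) (hR : S.Rel) (hB : Pos B) (hT : B ∈ S.T) (l : ℝ) (x : S.A) :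
    (S.ssp hG hR hB hT).P l x = S.projA hG hB hT l x := rfl

/-- natural operators of systems are natural operators of spectral spaces -/
theorem Nat.nt {ι' : Type} [Fintype ι'] {H' : Type} [NormedAddCommGroup H']
    [InnerProductSpace ℝ H'] [CompleteSpace H'] {S' : HSys ι' H'} {B' : H' →L[ℝ] H'}
    {S : HSys ι H} {hT : B ∈ S.T} {hT' : B' ∈ S'.T} {D : S.A →ₗ[ℝ] S'.A}
    (hD : S.Nat hT hT' D) (hG : S.Reg) (hR : S.Rel) (hB : Pos B) (hG' : S'.Reg) (hR' : S'.Rel)
    (hB' : Pos B') : SSp.Nt (S.ssp hG hR hB hT) (S'.ssp hG' hR' hB' hT') D :=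
  ⟨hD.adj, hD.comm⟩

end HSys

end Vale.Agent.P207.H395
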