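import Vale.Agent.P207.H395.HSys

/-!
# P207, block SPEC: the first Sobolev space of a system of skew derivations
-/

open Filter Topology
open scoped InnerProductSpace

noncomputable section

namespace Vale.Agent.P207.H395

variable {ι : Type} [Fintype ι] {H : Type} [NormedAddCommGroup H] [InnerProductSpace ℝ H]
  [CompleteSpace H]

namespace HSys

variable (S : HSys ι H)

theorem exists_seq_A (u : H) : ∃ a : ℕ → S.A, Tendsto (fun n => (a n : H)) atTop (𝓝 u) := by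
  obtain ⟨x, hx, hx2⟩ := mem_closure_iff_seq_limit.1 (S.dense u)
  exact ⟨fun n => ⟨x n, hx n⟩, hx2⟩

theorem eq_zero_of_inner_A {u : H} (h : ∀ φ : S.A, ⟪u, (φ : H)⟫_ℝ = 0) : u = 0 := by
  obtain ⟨a, ha⟩ := S.exists_seq_A u
  have h1 : Tendsto (fun n => ⟪u, (a n : H)⟫_ℝ) atTop (𝓝 ⟪u, u⟫_ℝ) :=
    tendsto_const_nhds.inner ha
  simp only [h] at h1
  exact inner_self_eq_zero.1 (tendsto_nhds_unique h1 tendsto_const_nhds)

theorem eq_of_inner_A {u v : H} (h : ∀ φ : S.A, ⟪u, (φ : H)⟫_ℝ = ⟪v, (φ : H)⟫_ℝ) : u = v := by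
  rw [← sub_eq_zero]
  refine S.eq_zero_of_inner_A fun φ => ?_
  rw [inner_sub_left, h, sub_self]

/-- `u` is in the closure of the smooth vectors for the energy norm, with derivatives `v` -/
def IsH1 (u : H) (v : ι → H) : Prop :=
  ∃ a : ℕ → S.A, Tendsto (fun n => (a n : H)) atTop (𝓝 u) ∧
    ∀ i, Tendsto (fun n => (S.X i (a n) : H)) atTop (𝓝 (v i))

variable {S}

theorem isH1_coe (u : S.A) : S.IsH1 u (fun i => S.X i u) :=
  ⟨fun _ => u, tendsto_const_nhds, fun _ => tendsto_const_nhds⟩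

theorem IsH1.inner {u : H} {v : ι → H} (h : S.IsH1 u v) (i : ι) (φ : S.A) :
    ⟪v i, (φ : H)⟫_ℝ = - ⟪u, (S.X i φ : H)⟫_ℝ := by
  obtain ⟨a, ha, hb⟩ := h
  have h1 : Tendsto (fun n => ⟪(S.X i (a n) : H), (φ : H)⟫_ℝ) atTop (𝓝 ⟪v i, (φ : H)⟫_ℝ) :=
    (hb i).inner tendsto_const_nhds
  have h2 : Tendsto (fun n => -⟪(a n : H), (S.X i φ : H)⟫_ℝ) atTop (𝓝 (-⟪u, (S.X i φ : H)⟫_ℝ)) :=
    (ha.inner tendsto_const_nhds).neg
  simp only [S.skew] at h1
  exact tendsto_nhds_unique h1 h2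

theorem IsH1.unique {u : H} {v v' : ι → H} (h : S.IsH1 u v) (h' : S.IsH1 u v') : v = v' := by
  funext i
  exact S.eq_of_inner_A fun φ => by rw [h.inner, h'.inner]

theorem IsH1.add {u u' : H} {v v' : ι → H} (h : S.IsH1 u v) (h' : S.IsH1 u' v') :
    S.IsH1 (u + u') (fun i => v i + v' i) := by
  obtain ⟨a, ha, hb⟩ := h
  obtain ⟨a', ha', hb'⟩ := h'
  exact ⟨fun n => a n + a' n, by simpa using ha.add ha', fun i => by
    simpa using (hb i).add (hb' i)⟩

theorem IsH1.smul {u : H} {v : ι → H} (h : S.IsH1 u v) (c : ℝ) :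
    S.IsH1 (c • u) (fun i => c • v i) := by
  obtain ⟨a, ha, hb⟩ := h
  exact ⟨fun n => c • a n, by simpa using ha.const_smul c, fun i => by
    simpa using (hb i).const_smul c⟩

theorem IsH1.sub {u u' : H} {v v' : ι → H} (h : S.IsH1 u v) (h' : S.IsH1 u' v') :
    S.IsH1 (u - u') (fun i => v i - v' i) := by
  obtain ⟨a, ha, hb⟩ := h
  obtain ⟨a', ha', hb'⟩ := h'
  exact ⟨fun n => a n - a' n, by simpa using ha.sub ha', fun i => by
    simpa using (hb i).sub (hb' i)⟩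

theorem isH1_zero : S.IsH1 0 (fun _ => 0) := by
  have h := isH1_coe (S := S) 0
  simpa using h

theorem isH1_sum {κ : Type*} (s : Finset κ) {u : κ → H} {v : κ → ι → H}
    (h : ∀ k ∈ s, S.IsH1 (u k) (v k)) :
    S.IsH1 (∑ k ∈ s, u k) (fun i => ∑ k ∈ s, v k i) := by
  classical
  induction s using Finset.induction_on with
  | empty => simpa using isH1_zero
  | insert a s ha ih =>
    have h1 := (h a (Finset.mem_insert_self a s)).add
      (ih fun k hk => h k (Finset.mem_insert_of_mem hk))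
    simpa [Finset.sum_insert ha] using h1

/-- smooth multipliers act on the energy space -/
theorem exists_IsH1_mul {P : H →L[ℝ] H} (hP : P ∈ S.T) : ∃ Q : ι → H →L[ℝ] H, (∀ i, Q i ∈ S.T) ∧
    (∀ i (u : S.A), (S.X i ⟨P u, S.T_mem P hP u u.2⟩ : H) = P (S.X i u) + Q i u) ∧
    ∀ (u : H) (v : ι → H), S.IsH1 u v → S.IsH1 (P u) (fun i => P (v i) + Q i u) := by
  choose Q hQ hPQ using fun i => S.T_comm i P hP
  refine ⟨Q, hQ, hPQ, fun u v h => ?_⟩
  obtain ⟨a, ha, hb⟩ := h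
  refine ⟨fun n => ⟨P (a n), S.T_mem P hP _ (a n).2⟩, (P.continuous.tendsto _).comp ha,
    fun i => ?_⟩
  simp only [hPQ]
  exact ((P.continuous.tendsto _).comp (hb i)).add (((Q i).continuous.tendsto _).comp ha)

/-- the estimate `|U_i(t) u - u| ≤ |t| |X_i u|` -/
theorem norm_U_sub_le_A (S : HSys ι H) (i : ι) (t : ℝ) (u : S.A) :
    ‖S.U i t u - u‖ ≤ |t| * ‖(S.X i u : H)‖ := by
  have key : ∀ (σ : ℝ), |σ| = 1 → ∀ s : ℝ, 0 ≤ s →
      ‖S.U i (σ * s) (u : H) - u‖ ≤ ‖(S.X i u : H)‖ * (s - 0) := by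
    intro σ hσ s hs
    have h1 : ∀ r, HasDerivAt (fun r => S.U i (σ * r) (u : H))
        (σ • S.U i (σ * r) (S.X i u : H)) r := by
      intro r
      have h2 : HasDerivAt (fun r : ℝ => σ * r) σ r := by
        simpa using (hasDerivAt_id r).const_mul σ
      exact HasDerivAt.scomp r (S.hasDerivAt_U i u (σ * r)) h2
    have h3 := norm_image_sub_le_of_norm_deriv_le_segment' (f := fun r => S.U i (σ * r) (u : H))
      (f' := fun r => σ • S.U i (σ * r) (S.X i u : H)) (C := ‖(S.X i u : H)‖) (a := 0) (b := s)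
      (fun x _ => (h1 x).hasDerivWithinAt) (fun x _ => by
        rw [norm_smul, Real.norm_eq_abs, hσ, one_mul, S.U_norm]) s ⟨hs, le_rfl⟩
    simpa [S.U_zero] using h3
  rcases le_total 0 t with h | h
  · have := key 1 (by simp) t h
    rw [one_mul, sub_zero] at this
    rwa [abs_of_nonneg h, mul_comm]
  · have := key (-1) (by simp) (-t) (by linarith)
    rw [neg_one_mul, neg_neg, sub_zero] at this
    rwa [abs_of_nonpos h, mul_comm]

theorem IsH1.norm_U_sub_le {u : H} {v : ι → H} (h : S.IsH1 u v) (i : ι) (t : ℝ) :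
    ‖S.U i t u - u‖ ≤ |t| * ‖v i‖ := by
  obtain ⟨a, ha, hb⟩ := h
  refine le_of_tendsto_of_tendsto' (f := fun n => ‖S.U i t (a n : H) - (a n : H)‖)
    (g := fun n => |t| * ‖(S.X i (a n) : H)‖) (b := atTop) ?_ ?_ fun n => norm_U_sub_le_A S i t (a n)
  · exact ((((S.U i t).continuous.tendsto _).comp ha).sub ha).norm
  · exact ((hb i).norm).const_mul _

theorem IsH1.tendsto_slope {u : H} {v : ι → H} (h : S.IsH1 u v) (i : ι) :
    Tendsto (fun t : ℝ => t⁻¹ • (S.U i t u - u)) (𝓝[≠] 0) (𝓝 (v i)) := by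
  have hh := h
  obtain ⟨a, ha, hb⟩ := hh
  rw [Metric.tendsto_nhds]
  intro ε hε
  obtain ⟨n, hn⟩ := ((Metric.tendsto_nhds.1 (hb i)) (ε / 3) (by positivity)).exists
  have h1 := (S.hasDerivAt_U i (a n) 0).tendsto_slope_zero
  simp only [zero_add, S.U_zero, one_apply_eq_self] at h1
  have h2 := (Metric.tendsto_nhds.1 h1) (ε / 3) (by positivity)
  filter_upwards [h2, self_mem_nhdsWithin] with t ht ht0
  have ht0' : t ≠ 0 := ht0
  have h3 := (h.sub (isH1_coe (S := S) (a n))).norm_U_sub_le i t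
  have h4 : ‖t⁻¹ • (S.U i t (u - a n) - (u - a n))‖ ≤ ‖v i - S.X i (a n)‖ := by
    rw [norm_smul, norm_inv, Real.norm_eq_abs]
    calc |t|⁻¹ * ‖S.U i t (u - a n) - (u - a n)‖ ≤ |t|⁻¹ * (|t| * ‖v i - S.X i (a n)‖) :=
          mul_le_mul_of_nonneg_left h3 (by positivity)
      _ = ‖v i - S.X i (a n)‖ := by
          rw [← mul_assoc, inv_mul_cancel₀ (abs_ne_zero.2 ht0'), one_mul]
  have h5 : t⁻¹ • (S.U i t u - u) - v i = t⁻¹ • (S.U i t (u - a n) - (u - a n)) +
      (t⁻¹ • (S.U i t (a n) - a n) - S.X i (a n)) + ((S.X i (a n) : H) - v i) := by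
    rw [map_sub]
    have : t⁻¹ • (S.U i t u - u) = t⁻¹ • (S.U i t u - S.U i t (a n) - (u - a n)) +
        t⁻¹ • (S.U i t (a n) - a n) := by
      rw [← smul_add]; congr 1; abel
    rw [this]; abel
  rw [dist_eq_norm, h5]
  rw [dist_eq_norm] at ht hn
  calc _ ≤ ‖t⁻¹ • (S.U i t (u - a n) - (u - a n))‖ + ‖t⁻¹ • (S.U i t (a n) - a n) - S.X i (a n)‖ +
        ‖(S.X i (a n) : H) - v i‖ := norm_add₃_le
    _ < ε / 3 + ε / 3 + ε / 3 := by
        refine add_lt_add (add_lt_add ?_ ht) hn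
        refine h4.trans_lt ?_
        rw [norm_sub_rev]; exact hn
    _ = ε := by ring

/-- the groups act on the energy space -/
theorem exists_UH1_bound (S : HSys ι H) : ∃ C : ℝ, 0 ≤ C ∧ ∀ (j : ι) (s : ℝ), |s| ≤ 1 →
    (∀ (i : ι) (u : S.A), ‖(S.X i (S.UA j s u) : H) - S.U j s (S.X i u)‖ ≤ C * |s| * S.n1 u) ∧
    ∀ (u : H) (v : ι → H), S.IsH1 u v → ∃ w : ι → H, S.IsH1 (S.U j s u) w ∧
      ∀ i, ‖w i - S.U j s (v i)‖ ≤ C * |s| * ∑ k, ‖v k‖ := by
  obtain ⟨C, hC, h⟩ := S.exists_comm_bound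
  refine ⟨C, hC, fun j s hs => ⟨fun i u => h i j s hs u, fun u v huv => ?_⟩⟩
  obtain ⟨a, ha, hb⟩ := huv
  have hn1 : Tendsto (fun n => S.n1 (a n)) atTop (𝓝 (∑ k, ‖v k‖)) :=
    tendsto_finsetSum _ fun k _ => (hb k).norm
  -- Cauchy
  have hcau : ∀ i, ∃ w : H, Tendsto (fun n => (S.X i (S.UA j s (a n)) : H)) atTop (𝓝 w) := by
    intro i
    apply cauchySeq_tendsto_of_complete
    rw [Metric.cauchySeq_iff']
    intro ε hε
    have hcb : ∀ k, CauchySeq (fun n => (S.X k (a n) : H)) := fun k => (hb k).cauchySeq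
    set m : ℝ := (Fintype.card ι : ℝ) with hm
    have hm0 : 0 ≤ m := Nat.cast_nonneg _
    set δ : ℝ := ε / (2 * (1 + C * m)) with hδ
    have hδ0 : 0 < δ := by positivity
    have h1 : ∀ k, ∃ N, ∀ n ≥ N, ∀ n' ≥ N, dist (S.X k (a n) : H) (S.X k (a n')) < δ := fun k =>
      Metric.cauchySeq_iff.1 (hcb k) δ hδ0
    choose N hN using h1
    obtain ⟨N0, hN0⟩ : ∃ N0, ∀ k, N k ≤ N0 := ⟨∑ k, N k, fun k =>
      Finset.single_le_sum (f := N) (fun _ _ => Nat.zero_le _) (Finset.mem_univ k)⟩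
    refine ⟨N0, fun n hn => ?_⟩
    have h2 : ∀ k, ‖(S.X k (a n - a N0) : H)‖ ≤ δ := by
      intro k
      have := hN k n ((hN0 k).trans hn) N0 (hN0 k)
      rw [dist_eq_norm] at this
      simpa using this.le
    have h3 := h i j s hs (a n - a N0)
    have h4 : (S.X i (S.UA j s (a n)) : H) - S.X i (S.UA j s (a N0)) =
        S.X i (S.UA j s (a n - a N0)) := by
      have : S.UA j s (a n - a N0) = S.UA j s (a n) - S.UA j s (a N0) := by
        apply Subtype.ext; simp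
      rw [this]; simp
    have h5 : S.n1 (a n - a N0) ≤ m * δ := by
      calc S.n1 (a n - a N0) ≤ ∑ _k : ι, δ := Finset.sum_le_sum fun k _ => h2 k
        _ = m * δ := by simp [hm]
    rw [dist_eq_norm, h4]
    calc ‖(S.X i (S.UA j s (a n - a N0)) : H)‖
        ≤ ‖(S.X i (S.UA j s (a n - a N0)) : H) - S.U j s (S.X i (a n - a N0))‖ +
          ‖S.U j s (S.X i (a n - a N0) : H)‖ := by
          have := norm_add_le ((S.X i (S.UA j s (a n - a N0)) : H) - S.U j s (S.X i (a n - a N0)))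
            (S.U j s (S.X i (a n - a N0) : H))
          simpa using this
      _ ≤ C * |s| * S.n1 (a n - a N0) + δ := by
          rw [S.U_norm]; exact add_le_add h3 (h2 i)
      _ ≤ C * 1 * (m * δ) + δ := by
          refine add_le_add (mul_le_mul (mul_le_mul_of_nonneg_left hs hC) h5
            (S.n1_nonneg _) (by positivity)) le_rfl
      _ = (1 + C * m) * δ := by ring
      _ = ε / 2 := by rw [hδ]; field_simp
      _ < ε := by linarith
  choose w hw using hcau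
  refine ⟨w, ⟨fun n => S.UA j s (a n), ((S.U j s).continuous.tendsto _).comp ha, hw⟩, fun i => ?_⟩
  refine le_of_tendsto_of_tendsto' (b := atTop)
    (f := fun n => ‖(S.X i (S.UA j s (a n)) : H) - S.U j s (S.X i (a n))‖)
    (g := fun n => C * |s| * S.n1 (a n)) ?_ ?_ fun n => h i j s hs (a n)
  · exact ((hw i).sub (((S.U j s).continuous.tendsto _).comp (hb i))).norm
  · exact hn1.const_mul _

end HSys

end Vale.Agent.P207.H395
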