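import Vale.Agent.P207.H395.Sob1

/-!
# P207, block SPEC: Nirenberg's difference quotients and elliptic regularity
-/

open Filter Topology
open scoped InnerProductSpace

noncomputable section

set_option linter.unusedSectionVars false

namespace Vale.Agent.P207.H395

/-- bounded sequences in a Hilbert space have weak limits along an ultrafilter -/
theorem exists_weak_lim {E : Type*} [NormedAddCommGroup E] [InnerProductSpace ℝ E]
    [CompleteSpace E] {α : Type*} (𝓤 : Ultrafilter α) {y : α → E} {K : ℝ}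
    (hy : ∀ n, ‖y n‖ ≤ K) :
    ∃ z : E, ∀ w : E, Tendsto (fun n => ⟪y n, w⟫_ℝ) 𝓤 (𝓝 ⟪z, w⟫_ℝ) := by
  have hlim : ∀ w : E, ∃ l : ℝ, Tendsto (fun n => ⟪y n, w⟫_ℝ) 𝓤 (𝓝 l) := by
    intro w
    have h1 : ∀ n, ⟪y n, w⟫_ℝ ∈ Set.Icc (-(K * ‖w‖)) (K * ‖w‖) := fun n => by
      rw [Set.mem_Icc, ← abs_le]
      exact (abs_real_inner_le_norm _ _).trans
        (mul_le_mul_of_nonneg_right (hy n) (norm_nonneg _))
    have h2 : (𝓤.map fun n => ⟪y n, w⟫_ℝ : Filter ℝ) ≤ 𝓟 (Set.Icc (-(K * ‖w‖)) (K * ‖w‖)) :=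
      le_principal_iff.2 (Filter.mem_map.2 (Eventually.of_forall h1))
    obtain ⟨l, -, hl⟩ := isCompact_Icc.ultrafilter_le_nhds (𝓤.map fun n => ⟪y n, w⟫_ℝ) h2
    exact ⟨l, hl⟩
  choose F hF using hlim
  have hadd : ∀ w w', F (w + w') = F w + F w' := by
    intro w w'
    refine tendsto_nhds_unique (hF (w + w')) ?_
    simp only [inner_add_right]
    exact (hF w).add (hF w')
  have hsmul : ∀ (c : ℝ) w, F (c • w) = c * F w := by
    intro c w
    refine tendsto_nhds_unique (hF (c • w)) ?_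
    simp only [inner_smul_right]
    exact (hF w).const_mul c
  let L : E →ₗ[ℝ] ℝ := { toFun := F, map_add' := hadd, map_smul' := hsmul }
  have hbd : ∀ w, ‖L w‖ ≤ K * ‖w‖ := by
    intro w
    refine le_of_tendsto (hF w).norm (Eventually.of_forall fun n => ?_)
    rw [Real.norm_eq_abs]
    exact (abs_real_inner_le_norm _ _).trans (mul_le_mul_of_nonneg_right (hy n) (norm_nonneg _))
  let L' : StrongDual ℝ E := L.mkContinuous K hbd
  refine ⟨(InnerProductSpace.toDual ℝ E).symm L', fun w => ?_⟩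
  rw [InnerProductSpace.toDual_symm_apply]
  exact hF w

variable {ι : Type} [Fintype ι] {H : Type} [NormedAddCommGroup H] [InnerProductSpace ℝ H]
  [CompleteSpace H]

/-- the ambient space of the energy space -/
abbrev E1 (ι H : Type) [Fintype ι] [NormedAddCommGroup H] [InnerProductSpace ℝ H] : Type :=
  WithLp 2 (H × PiLp 2 (fun _ : ι => H))

namespace HSys

/-- the graph of the derivations -/
def gr (S : HSys ι H) : S.A →ₗ[ℝ] E1 ι H where
  toFun u := WithLp.toLp 2 ((u : H), WithLp.toLp 2 fun i => (S.X i u : H))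
  map_add' u v := by
    apply (WithLp.ofLp_injective 2)
    ext <;> simp
  map_smul' c u := by
    apply (WithLp.ofLp_injective 2)
    ext <;> simp

@[simp] theorem gr_fst (S : HSys ι H) (u : S.A) : (S.gr u).fst = u := rfl

@[simp] theorem gr_snd (S : HSys ι H) (u : S.A) (i : ι) : (S.gr u).snd i = S.X i u := rfl

/-- the energy space -/
def H1 (S : HSys ι H) : Submodule ℝ (E1 ι H) := (LinearMap.range S.gr).topologicalClosure

instance (S : HSys ι H) : CompleteSpace S.H1 :=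
  (Submodule.isClosed_topologicalClosure _).completeSpace_coe

theorem continuous_fst' : Continuous fun z : E1 ι H => z.fst :=
  (WithLp.fstL 2 ℝ H (PiLp 2 (fun _ : ι => H))).continuous

theorem continuous_snd' (i : ι) : Continuous fun z : E1 ι H => z.snd i :=
  (continuous_apply i).comp ((PiLp.continuous_ofLp 2 _).comp
    (WithLp.sndL 2 ℝ H (PiLp 2 (fun _ : ι => H))).continuous)

variable {S : HSys ι H}

theorem mem_H1 {z : E1 ι H} : z ∈ S.H1 ↔ S.IsH1 z.fst (fun i => z.snd i) := by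
  constructor
  · intro h
    have h1 : z ∈ closure (LinearMap.range S.gr : Set (E1 ι H)) := h
    obtain ⟨x, hx, hx2⟩ := mem_closure_iff_seq_limit.1 h1
    choose a ha using hx
    refine ⟨a, ?_, fun i => ?_⟩
    · have h2 := (continuous_fst'.tendsto z).comp hx2
      refine h2.congr fun n => ?_
      simp only [Function.comp]
      rw [← ha n]; rfl
    · have h2 := ((continuous_snd' i).tendsto z).comp hx2
      refine h2.congr fun n => ?_
      simp only [Function.comp]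
      rw [← ha n]; rfl
  · rintro ⟨a, ha, hb⟩
    have h1 : Tendsto (fun n => S.gr (a n)) atTop (𝓝 z) := by
      have h2 : Tendsto (fun n => (((a n : H), WithLp.toLp 2 fun i => (S.X i (a n) : H)) :
          H × PiLp 2 (fun _ : ι => H))) atTop (𝓝 (z.fst, z.snd)) := by
        refine Tendsto.prodMk_nhds ha ?_
        have h3 : Tendsto (fun n => fun i => (S.X i (a n) : H)) atTop (𝓝 (fun i => z.snd i)) :=
          tendsto_pi_nhds.2 hb
        exact ((PiLp.continuous_toLp 2 (fun _ : ι => H)).tendsto _).comp h3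
      exact ((WithLp.prod_continuous_toLp 2 _ _).tendsto _).comp h2
    exact mem_closure_of_tendsto h1 (Eventually.of_forall fun n => ⟨a n, rfl⟩)

theorem inner_E1 (z w : E1 ι H) : ⟪z, w⟫_ℝ = ⟪z.fst, w.fst⟫_ℝ + ∑ i, ⟪z.snd i, w.snd i⟫_ℝ := by
  rw [WithLp.prod_inner_apply]
  congr 1

theorem norm_sq_E1 (z : E1 ι H) : ‖z‖ ^ 2 = ‖z.fst‖ ^ 2 + ∑ i, ‖z.snd i‖ ^ 2 := by
  rw [← real_inner_self_eq_norm_sq, inner_E1, real_inner_self_eq_norm_sq]
  congr 1
  exact Finset.sum_congr rfl fun i _ => real_inner_self_eq_norm_sq _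

/-- weak closedness of balls of the energy space -/
theorem IsH1.of_bounded {z : ℕ → H} {w : ℕ → ι → H} {ζ : H} {K : ℝ}
    (h : ∀ n, S.IsH1 (z n) (w n)) (hz : Tendsto z atTop (𝓝 ζ)) (hK : ∀ n, ∑ i, ‖w n i‖ ≤ K) :
    ∃ v : ι → H, S.IsH1 ζ v := by
  let y : ℕ → E1 ι H := fun n => WithLp.toLp 2 (z n, WithLp.toLp 2 (w n))
  have hy1 : ∀ n, y n ∈ S.H1 := fun n => mem_H1.2 (h n)
  obtain ⟨B, hB⟩ : ∃ B, ∀ n, ‖z n‖ ≤ B := by
    obtain ⟨B, hB⟩ := (Metric.isBounded_range_of_tendsto z hz).exists_norm_le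
    exact ⟨B, fun n => hB _ ⟨n, rfl⟩⟩
  have hB0 : 0 ≤ B := (norm_nonneg _).trans (hB 0)
  have hK0 : 0 ≤ K := (Finset.sum_nonneg fun _ _ => norm_nonneg _).trans (hK 0)
  have hy2 : ∀ n, ‖y n‖ ≤ B + K := by
    intro n
    have h1 := norm_sq_E1 (y n)
    have h2 : ∑ i, ‖w n i‖ ^ 2 ≤ (∑ i, ‖w n i‖) ^ 2 :=
      Finset.sum_sq_le_sq_sum_of_nonneg fun _ _ => norm_nonneg _
    have h3 : ‖y n‖ ^ 2 ≤ (B + K) ^ 2 := by
      calc ‖y n‖ ^ 2 = ‖z n‖ ^ 2 + ∑ i, ‖w n i‖ ^ 2 := h1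
        _ ≤ B ^ 2 + K ^ 2 := by
            refine add_le_add (pow_le_pow_left₀ (norm_nonneg _) (hB n) 2) (h2.trans ?_)
            exact pow_le_pow_left₀ (Finset.sum_nonneg fun _ _ => norm_nonneg _) (hK n) 2
        _ ≤ (B + K) ^ 2 := by nlinarith
    exact (pow_le_pow_iff_left₀ (norm_nonneg _) (by positivity) two_ne_zero).1 h3
  obtain ⟨Z, hZ⟩ := exists_weak_lim (Ultrafilter.of (atTop : Filter ℕ)) hy2
  have hle : ((Ultrafilter.of (atTop : Filter ℕ) : Ultrafilter ℕ) : Filter ℕ) ≤ atTop :=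
    Ultrafilter.of_le _
  -- `Z ∈ H1`
  have hZ1 : Z ∈ S.H1 := by
    have h1 : Z ∈ (S.H1)ᗮᗮ := by
      rw [Submodule.mem_orthogonal]
      intro t ht
      have h2 := hZ t
      have h3 : ∀ n, ⟪y n, t⟫_ℝ = 0 := fun n => (Submodule.mem_orthogonal _ _).1 ht _ (hy1 n)
      simp only [h3] at h2
      rw [real_inner_comm]
      exact (tendsto_nhds_unique h2 tendsto_const_nhds)
    rwa [Submodule.orthogonal_orthogonal] at h1
  have hZ2 : Z.fst = ζ := by
    refine ext_inner_right ℝ fun t => ?_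
    have h2 := hZ (WithLp.toLp 2 (t, 0))
    simp only [inner_E1] at h2
    have h3 : Tendsto (fun n => ⟪z n, t⟫_ℝ) (Ultrafilter.of (atTop : Filter ℕ)) (𝓝 ⟪ζ, t⟫_ℝ) :=
      (hz.mono_left hle).inner tendsto_const_nhds
    have h4 : Tendsto (fun n => ⟪z n, t⟫_ℝ) (Ultrafilter.of (atTop : Filter ℕ))
        (𝓝 ⟪Z.fst, t⟫_ℝ) := by
      simpa [y] using h2
    exact tendsto_nhds_unique h4 h3
  exact ⟨fun i => Z.snd i, hZ2 ▸ mem_H1.1 hZ1⟩

/-- Nirenberg's theorem: weak solutions in the energy space have derivatives in it -/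
theorem nirenberg {u f : H} {v : ι → H} (huv : S.IsH1 u v)
    (hw : ∀ φ : S.A, ∑ i, ⟪v i, (S.X i φ : H)⟫_ℝ = ⟪f, (φ : H)⟫_ℝ) (j : ι) :
    ∃ w : ι → H, S.IsH1 (v j) w := by
  obtain ⟨C, hC, hU⟩ := exists_UH1_bound S
  set m : ℝ := (Fintype.card ι : ℝ) with hm
  have hm0 : 0 ≤ m := Nat.cast_nonneg _
  set nv : ℝ := ∑ k, ‖v k‖ with hnv
  have hnv0 : 0 ≤ nv := Finset.sum_nonneg fun _ _ => norm_nonneg _
  have hvk : ∀ k, ‖v k‖ ≤ nv := fun k =>
    Finset.single_le_sum (f := fun k => ‖v k‖) (fun _ _ => norm_nonneg _) (Finset.mem_univ k)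
  set K : ℝ := ‖f‖ + 2 * m * C * nv with hKd
  have hK0 : 0 ≤ K := by positivity
  -- the estimate of one difference quotient
  have key : ∀ t : ℝ, t ≠ 0 → |t| ≤ 1 → ∃ w : ι → H, S.IsH1 (t⁻¹ • (S.U j t u - u)) w ∧
      ∑ i, ‖w i‖ ≤ m * K := by
    intro t ht0 ht1
    obtain ⟨v', hv', hv'2⟩ := (hU j t ht1).2 u v huv
    have hw1 : S.IsH1 (t⁻¹ • (S.U j t u - u)) (fun i => t⁻¹ • (v' i - v i)) :=
      (hv'.sub huv).smul _
    refine ⟨_, hw1, ?_⟩
    set w : ι → H := fun i => t⁻¹ • (v' i - v i) with hwd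
    -- tested against smooth vectors
    have htest : ∀ φ : S.A, |∑ i, ⟪w i, (S.X i φ : H)⟫_ℝ| ≤ K * S.n1 φ := by
      intro φ
      have e0 : ∀ i, ⟪v' i, (S.X i φ : H)⟫_ℝ = ⟪v' i - S.U j t (v i), (S.X i φ : H)⟫_ℝ +
          (⟪v i, (S.X i (S.UA j (-t) φ) : H)⟫_ℝ -
            ⟪v i, (S.X i (S.UA j (-t) φ) : H) - S.U j (-t) (S.X i φ)⟫_ℝ) := by
        intro i
        rw [inner_sub_left, inner_sub_right, S.inner_U_left]; ring
      have e1 : ∑ i, ⟪w i, (S.X i φ : H)⟫_ℝ = t⁻¹ * ((∑ i, ⟪v' i - S.U j t (v i), (S.X i φ : H)⟫_ℝ)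
          - (∑ i, ⟪v i, (S.X i (S.UA j (-t) φ) : H) - S.U j (-t) (S.X i φ)⟫_ℝ)
          + ⟪f, S.U j (-t) (φ : H) - φ⟫_ℝ) := by
        have h1 : ∀ i, ⟪w i, (S.X i φ : H)⟫_ℝ =
            t⁻¹ * (⟪v' i, (S.X i φ : H)⟫_ℝ - ⟪v i, (S.X i φ : H)⟫_ℝ) := by
          intro i; simp only [hwd]; rw [real_inner_smul_left, inner_sub_left]
        simp only [h1]
        rw [← Finset.mul_sum, Finset.sum_sub_distrib, hw φ]
        simp only [e0]
        rw [Finset.sum_add_distrib, Finset.sum_sub_distrib, hw (S.UA j (-t) φ), inner_sub_right,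
          coe_UA]
        ring
      have b1 : |∑ i, ⟪v' i - S.U j t (v i), (S.X i φ : H)⟫_ℝ| ≤ |t| * (m * C * nv * S.n1 φ) := by
        calc _ ≤ ∑ i, |⟪v' i - S.U j t (v i), (S.X i φ : H)⟫_ℝ| := Finset.abs_sum_le_sum_abs _ _
          _ ≤ ∑ _i : ι, (C * |t| * nv) * S.n1 φ := by
              refine Finset.sum_le_sum fun i _ => (abs_real_inner_le_norm _ _).trans ?_
              exact mul_le_mul (hv'2 i) (S.norm_X_le_n1 i φ) (norm_nonneg _) (by positivity)
          _ = _ := by simp [hm]; ring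
      have b2 : |∑ i, ⟪v i, (S.X i (S.UA j (-t) φ) : H) - S.U j (-t) (S.X i φ)⟫_ℝ| ≤
          |t| * (m * C * nv * S.n1 φ) := by
        have hst : |-t| ≤ 1 := by rwa [abs_neg]
        calc _ ≤ ∑ i, |⟪v i, (S.X i (S.UA j (-t) φ) : H) - S.U j (-t) (S.X i φ)⟫_ℝ| :=
              Finset.abs_sum_le_sum_abs _ _
          _ ≤ ∑ _i : ι, nv * (C * |t| * S.n1 φ) := by
              refine Finset.sum_le_sum fun i _ => (abs_real_inner_le_norm _ _).trans ?_
              have := (hU j (-t) hst).1 i φ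
              rw [abs_neg] at this
              exact mul_le_mul (hvk i) this (norm_nonneg _) hnv0
          _ = _ := by simp [hm]; ring
      have b3 : |⟪f, S.U j (-t) (φ : H) - φ⟫_ℝ| ≤ |t| * (‖f‖ * S.n1 φ) := by
        have h1 := norm_U_sub_le_A S j (-t) φ
        rw [abs_neg] at h1
        calc _ ≤ ‖f‖ * ‖S.U j (-t) (φ : H) - φ‖ := abs_real_inner_le_norm _ _
          _ ≤ ‖f‖ * (|t| * S.n1 φ) := mul_le_mul_of_nonneg_left
              (h1.trans (mul_le_mul_of_nonneg_left (S.norm_X_le_n1 j φ) (abs_nonneg _)))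
              (norm_nonneg _)
          _ = _ := by ring
      rw [e1, abs_mul, abs_inv]
      calc |t|⁻¹ * _ ≤ |t|⁻¹ * (|t| * (m * C * nv * S.n1 φ) + |t| * (m * C * nv * S.n1 φ) +
            |t| * (‖f‖ * S.n1 φ)) := by
            refine mul_le_mul_of_nonneg_left ?_ (by positivity)
            refine (abs_add_le _ _).trans (add_le_add ((abs_sub _ _).trans (add_le_add b1 b2)) b3)
        _ = (|t|⁻¹ * |t|) * (K * S.n1 φ) := by rw [hKd]; ring
        _ = K * S.n1 φ := by rw [inv_mul_cancel₀ (abs_ne_zero.2 ht0), one_mul]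
    -- pass to the limit
    obtain ⟨a, ha, hb⟩ := hw1
    have hlim : ∑ i, ⟪w i, w i⟫_ℝ ≤ K * ∑ i, ‖w i‖ := by
      refine le_of_tendsto_of_tendsto' (b := atTop)
        (f := fun n => ∑ i, ⟪w i, (S.X i (a n) : H)⟫_ℝ) (g := fun n => K * S.n1 (a n)) ?_ ?_
        fun n => (le_abs_self _).trans (htest (a n))
      · exact tendsto_finsetSum _ fun i _ => tendsto_const_nhds.inner (hb i)
      · exact (tendsto_finsetSum _ fun i _ => (hb i).norm).const_mul _
    have h1 : (∑ i, ‖w i‖) ^ 2 ≤ m * ∑ i, ‖w i‖ ^ 2 := by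
      have := sq_sum_le_card_mul_sum_sq (s := (Finset.univ : Finset ι)) (f := fun i => ‖w i‖)
      simpa [hm] using this
    have h2 : ∑ i, ‖w i‖ ^ 2 ≤ K * ∑ i, ‖w i‖ := by
      simpa only [real_inner_self_eq_norm_sq] using hlim
    have h3 : (∑ i, ‖w i‖) ^ 2 ≤ (m * K) * ∑ i, ‖w i‖ := by
      calc _ ≤ _ := h1
        _ ≤ m * (K * ∑ i, ‖w i‖) := mul_le_mul_of_nonneg_left h2 hm0
        _ = _ := by ring
    rcases eq_or_lt_of_le (show 0 ≤ ∑ i, ‖w i‖ from Finset.sum_nonneg fun _ _ => norm_nonneg _)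
      with h | h
    · rw [← h]; positivity
    · rw [pow_two] at h3
      exact le_of_mul_le_mul_right h3 h
  -- the sequence
  have ht : ∀ n : ℕ, ((1 : ℝ) / (n + 1)) ≠ 0 ∧ |(1 : ℝ) / (n + 1)| ≤ 1 := by
    intro n
    have h0 : (0 : ℝ) < n + 1 := by positivity
    refine ⟨by positivity, ?_⟩
    rw [abs_of_pos (by positivity), div_le_one h0]
    linarith [Nat.cast_nonneg (α := ℝ) n]
  choose w hw1 hw2 using fun n : ℕ => key _ (ht n).1 (ht n).2
  refine IsH1.of_bounded (z := fun n : ℕ => ((1 : ℝ) / (n + 1))⁻¹ •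
    (S.U j ((1 : ℝ) / (n + 1)) u - u)) (w := w) hw1 ?_ hw2
  refine (huv.tendsto_slope j).comp ?_
  rw [tendsto_nhdsWithin_iff]
  exact ⟨tendsto_one_div_add_atTop_nhds_zero_nat, Eventually.of_forall fun n => (ht n).1⟩

end HSys

end Vale.Agent.P207.H395
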