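import Vale.Agent.P207.H395.NSys

/-!
# P207, block SPEC: higher regularity
-/

open Filter Topology
open scoped InnerProductSpace

noncomputable section

set_option linter.unusedSectionVars false

namespace Vale.Agent.P207.H395

variable {ι : Type} [Fintype ι] {H : Type} [NormedAddCommGroup H] [InnerProductSpace ℝ H]
  [CompleteSpace H]

namespace HSys

variable {S : HSys ι H}

theorem Sob.zero (S : HSys ι H) (u : H) : S.Sob 0 u := trivial

theorem sob_succ {s : ℕ} {u : H} : S.Sob (s + 1) u ↔ ∃ v : ι → H, S.IsH1 u v ∧ ∀ i, S.Sob s (v i) :=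
  Iff.rfl

theorem Sob.of_succ {s : ℕ} {u : H} (h : S.Sob (s + 1) u) : S.Sob s u := by
  induction s generalizing u with
  | zero => trivial
  | succ s ih =>
    obtain ⟨v, hv, hs⟩ := h
    exact ⟨v, hv, fun i => ih (hs i)⟩

theorem Sob.mono {s t : ℕ} (hst : s ≤ t) {u : H} (h : S.Sob t u) : S.Sob s u := by
  induction hst with
  | refl => exact h
  | step _ ih => exact ih h.of_succ

theorem Sob.coe (s : ℕ) (u : S.A) : S.Sob s u := by
  induction s generalizing u with
  | zero => trivial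
  | succ s ih => exact ⟨_, isH1_coe u, fun i => ih (S.X i u)⟩

theorem Sob.add {s : ℕ} {u u' : H} (h : S.Sob s u) (h' : S.Sob s u') : S.Sob s (u + u') := by
  induction s generalizing u u' with
  | zero => trivial
  | succ s ih =>
    obtain ⟨v, hv, hs⟩ := h
    obtain ⟨v', hv', hs'⟩ := h'
    exact ⟨_, hv.add hv', fun i => ih (hs i) (hs' i)⟩

theorem Sob.smul {s : ℕ} {u : H} (h : S.Sob s u) (c : ℝ) : S.Sob s (c • u) := by
  induction s generalizing u with
  | zero => trivial
  | succ s ih =>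
    obtain ⟨v, hv, hs⟩ := h
    exact ⟨_, hv.smul c, fun i => ih (hs i)⟩

theorem Sob.neg {s : ℕ} {u : H} (h : S.Sob s u) : S.Sob s (-u) := by
  have := h.smul (-1)
  simpa using this

theorem Sob.sub {s : ℕ} {u u' : H} (h : S.Sob s u) (h' : S.Sob s u') : S.Sob s (u - u') := by
  rw [sub_eq_add_neg]; exact h.add h'.neg

theorem Sob.zero_mem (s : ℕ) : S.Sob s (0 : H) := by
  have := Sob.coe (S := S) s 0
  simpa using this

theorem Sob.sum {κ : Type*} (t : Finset κ) {s : ℕ} {u : κ → H} (h : ∀ k ∈ t, S.Sob s (u k)) :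
    S.Sob s (∑ k ∈ t, u k) := by
  classical
  induction t using Finset.induction_on with
  | empty => simpa using Sob.zero_mem (S := S) s
  | insert a t ha ih =>
    rw [Finset.sum_insert ha]
    exact (h a (Finset.mem_insert_self a t)).add
      (ih fun k hk => h k (Finset.mem_insert_of_mem hk))

theorem Sob.mul {s : ℕ} {P : H →L[ℝ] H} (hP : P ∈ S.T) {u : H} (h : S.Sob s u) :
    S.Sob s (P u) := by
  induction s generalizing u P with
  | zero => trivial
  | succ s ih =>
    obtain ⟨v, hv, hs⟩ := h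
    obtain ⟨Q, hQ, -, hPQ⟩ := exists_IsH1_mul hP
    have hu : S.Sob s u := Sob.of_succ ⟨v, hv, hs⟩
    exact ⟨_, hPQ u v hv, fun i => (ih hP (hs i)).add (ih (hQ i) hu)⟩

/-- the derivatives of an element of the Sobolev space -/
theorem Sob.der {s : ℕ} {u : H} (h : S.Sob (s + 1) u) {v : ι → H} (hv : S.IsH1 u v) (i : ι) :
    S.Sob s (v i) := by
  obtain ⟨v', hv', hs⟩ := h
  rw [hv.unique hv']
  exact hs i

open ContinuousLinearMap in
/-- **Elliptic regularity.** -/
theorem regularity (s : ℕ) : ∀ {u f : H} {v : ι → H}, S.IsH1 u v →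
    (∀ φ : S.A, ∑ i, ⟪v i, (S.X i φ : H)⟫_ℝ = ⟪f, (φ : H)⟫_ℝ) → S.Sob s f → S.Sob (s + 2) u := by
  induction s with
  | zero =>
    intro u f v huv hw _
    exact ⟨v, huv, fun j => by
      obtain ⟨w, hw⟩ := nirenberg huv hw j
      exact ⟨w, hw, fun _ => trivial⟩⟩
  | succ s ih =>
    intro u f v huv hw hf
    have h2 : S.Sob (s + 2) u := ih huv hw hf.of_succ
    have hfs := hf
    obtain ⟨g, hg, hgs⟩ := hf
    choose w hw1 using fun j => nirenberg huv hw j
    have hv1 : ∀ j, S.Sob (s + 1) (v j) := fun j => h2.der huv j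
    choose c hcT hc using S.comm
    -- the adjoint multipliers
    set d : ι → ι → ι → H →L[ℝ] H := fun i j k => adjoint (c i j k) with hd
    have hdT : ∀ i j k, d i j k ∈ S.T := fun i j k => S.T_adj _ (hcT i j k)
    -- derivatives of `d i j k u` and of `d i j k (v i)`
    have hex1 : ∀ i j k, ∃ e : ι → H, S.IsH1 (d i j k u) e := fun i j k => by
      obtain ⟨Q, -, -, hQ⟩ := exists_IsH1_mul (hdT i j k)
      exact ⟨_, hQ u v huv⟩
    choose e he using hex1
    have hex2 : ∀ i j k, ∃ e : ι → H, S.IsH1 (d i j k (v i)) e := fun i j k => by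
      obtain ⟨Q, -, -, hQ⟩ := exists_IsH1_mul (hdT i j k)
      exact ⟨_, hQ (v i) (w i) (hw1 i)⟩
    choose b hb using hex2
    have heS : ∀ i j k, S.Sob (s + 1) (e i j k k) := fun i j k =>
      (Sob.mul (hdT i j k) h2).der (he i j k) k
    have hbS : ∀ i j k, S.Sob s (b i j k k) := fun i j k =>
      (Sob.mul (hdT i j k) (hv1 i)).der (hb i j k) k
    -- commutation of second derivatives
    set E : ι → ι → H := fun i j => ∑ k, e i j k k with hE
    have hES : ∀ i j, S.Sob (s + 1) (E i j) := fun i j => Sob.sum _ fun k _ => heS i j k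
    have hcomm : ∀ i j, w j i = w i j + E i j := by
      intro i j
      refine S.eq_of_inner_A fun φ => ?_
      rw [inner_add_left, (hw1 j).inner, (hw1 i).inner, huv.inner, huv.inner, hE, sum_inner]
      have h3 : ∀ k, ⟪e i j k k, (φ : H)⟫_ℝ = -⟪u, c i j k (S.X k φ : H)⟫_ℝ := fun k => by
        rw [(he i j k).inner, hd]
        simp only
        rw [adjoint_inner_left]
      simp only [h3]
      rw [Finset.sum_neg_distrib, ← inner_sum, ← hc i j φ, inner_sub_right]
      ring
    choose eE heE using fun i j => (hES i j)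
    -- the weak equation for `v j`
    have hweak : ∀ j, ∀ φ : S.A, ∑ i, ⟪w j i, (S.X i φ : H)⟫_ℝ =
        ⟪g j - ∑ i, ∑ k, b i j k k - ∑ i, eE i j i, (φ : H)⟫_ℝ := by
      intro j φ
      have h4 : ∀ i, ⟪w j i, (S.X i φ : H)⟫_ℝ = -⟪v i, (S.X i (S.X j φ) : H)⟫_ℝ
          - (∑ k, ⟪b i j k k, (φ : H)⟫_ℝ) - ⟪eE i j i, (φ : H)⟫_ℝ := by
        intro i
        rw [hcomm i j, inner_add_left, (hw1 i).inner]
        have h5 : (S.X j (S.X i φ) : H) = S.X i (S.X j φ) - ∑ k, c i j k (S.X k φ) := by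
          rw [← hc i j φ]; abel
        rw [h5, inner_sub_right, inner_sum]
        have h6 : ∀ k, ⟪b i j k k, (φ : H)⟫_ℝ = -⟪v i, c i j k (S.X k φ : H)⟫_ℝ := fun k => by
          rw [(hb i j k).inner, hd]
          simp only
          rw [adjoint_inner_left]
        simp only [h6]
        rw [Finset.sum_neg_distrib, (heE i j).1.inner]
        ring
      simp only [h4]
      rw [Finset.sum_sub_distrib, Finset.sum_sub_distrib, Finset.sum_neg_distrib, hw (S.X j φ),
        inner_sub_left, inner_sub_left, hg.inner, sum_inner, sum_inner]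
      simp only [sum_inner]
    refine ⟨v, huv, fun j => ih (hw1 j) (hweak j) ?_⟩
    refine (Sob.sub (Sob.sub (hgs j) (Sob.sum _ fun i _ => Sob.sum _ fun k _ => hbS i j k)) ?_)
    exact Sob.sum _ fun i _ => (heE i j).2 i

/-- Regularity for `-∑ X_i² + B`. -/
theorem regularity' {B : H →L[ℝ] H} (hB : B ∈ S.T) {u f : H} {v : ι → H} (huv : S.IsH1 u v)
    (hw : ∀ φ : S.A, (∑ i, ⟪v i, (S.X i φ : H)⟫_ℝ) + ⟪B u, (φ : H)⟫_ℝ = ⟪f, (φ : H)⟫_ℝ)
    (hf : ∀ s, S.Sob s f) (s : ℕ) : S.Sob s u := by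
  have hw' : ∀ φ : S.A, ∑ i, ⟪v i, (S.X i φ : H)⟫_ℝ = ⟪f - B u, (φ : H)⟫_ℝ := by
    intro φ
    rw [inner_sub_left, ← hw φ]; ring
  induction s with
  | zero => trivial
  | succ s ih =>
    have h := regularity s huv hw' ((hf s).sub (Sob.mul hB ih))
    exact h.of_succ

end HSys

end Vale.Agent.P207.H395
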