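import Vale.Agent.P207.H395.Res

/-!
# P207, block SPEC: the spectral decomposition of `1 - ∑ X_i² + B`
-/

open Filter Topology
open scoped InnerProductSpace

noncomputable section

set_option linter.unusedSectionVars false

namespace Vale.Agent.P207.H395

namespace HSys

variable {ι : Type} [Fintype ι] {H : Type} [NormedAddCommGroup H] [InnerProductSpace ℝ H]
  [CompleteSpace H]

variable (S : HSys ι H) {B : H →L[ℝ] H}

/-- the eigenspace of `lap` with eigenvalue `l` (in the Hilbert space) -/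
def eig (hB : Pos B) (l : ℝ) : Submodule ℝ H :=
  Module.End.eigenspace (S.res hB : H →ₗ[ℝ] H) l⁻¹

theorem mem_eig {hB : Pos B} {l : ℝ} {u : H} : u ∈ S.eig hB l ↔ S.res hB u = l⁻¹ • u :=
  Module.End.mem_eigenspace_iff

theorem isClosed_eig (hB : Pos B) (l : ℝ) : IsClosed (S.eig hB l : Set H) := by
  have h1 : (S.eig hB l : Set H) = {u | S.res hB u = l⁻¹ • u} := by
    ext u; exact S.mem_eig
  rw [h1]
  exact isClosed_eq (S.res hB).continuous (continuous_const_smul _)

instance (hB : Pos B) (l : ℝ) : CompleteSpace (S.eig hB l) :=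
  (S.isClosed_eig hB l).completeSpace_coe

theorem eig_zero (hB : Pos B) : S.eig hB 0 = ⊥ := by
  rw [eq_bot_iff]
  intro u hu
  rw [mem_eig, inv_zero, zero_smul] at hu
  exact S.res_injective hB hu

/-- the spectral projections -/
def proj (hB : Pos B) (l : ℝ) : H →L[ℝ] H := (S.eig hB l).starProjection

theorem proj_mem (hB : Pos B) (l : ℝ) (u : H) : S.proj hB l u ∈ S.eig hB l :=
  Submodule.starProjection_apply_mem _ _

theorem res_proj (hB : Pos B) (l : ℝ) (u : H) :
    S.res hB (S.proj hB l u) = l⁻¹ • S.proj hB l u := S.mem_eig.1 (S.proj_mem hB l u)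

theorem proj_eq_self {hB : Pos B} {l : ℝ} {u : H} (hu : u ∈ S.eig hB l) : S.proj hB l u = u :=
  Submodule.starProjection_eq_self_iff.2 hu

theorem inner_proj_left (hB : Pos B) (l : ℝ) (u v : H) :
    ⟪S.proj hB l u, v⟫_ℝ = ⟪u, S.proj hB l v⟫_ℝ :=
  Submodule.inner_starProjection_left_eq_right _ _ _

theorem sub_proj_inner {hB : Pos B} {l : ℝ} (u : H) {v : H} (hv : v ∈ S.eig hB l) :
    ⟪u - S.proj hB l u, v⟫_ℝ = 0 := Submodule.starProjection_inner_eq_zero _ _ hv

theorem proj_eq_zero {hB : Pos B} {l : ℝ} {u : H} (h : ∀ v ∈ S.eig hB l, ⟪u, v⟫_ℝ = 0) :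
    S.proj hB l u = 0 := by
  have h1 := h _ (S.proj_mem hB l u)
  have h2 := S.sub_proj_inner u (S.proj_mem hB l u)
  rw [inner_sub_left, h1, zero_sub, neg_eq_zero] at h2
  exact inner_self_eq_zero.1 h2

theorem norm_proj_le (hB : Pos B) (l : ℝ) (u : H) : ‖S.proj hB l u‖ ≤ ‖u‖ :=
  Submodule.norm_starProjection_apply_le _ _

/-- different eigenspaces are orthogonal -/
theorem inner_eig {hB : Pos B} {l l' : ℝ} (hl : l ≠ l') {u v : H} (hu : u ∈ S.eig hB l)
    (hv : v ∈ S.eig hB l') : ⟪u, v⟫_ℝ = 0 := by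
  have h1 := S.res_symm hB u v
  rw [S.mem_eig.1 hu, S.mem_eig.1 hv, real_inner_smul_left, real_inner_smul_right] at h1
  have h2 : (l⁻¹ - l'⁻¹) * ⟪u, v⟫_ℝ = 0 := by linarith
  rcases mul_eq_zero.1 h2 with h | h
  · exact absurd (inv_injective (sub_eq_zero.1 h)) hl
  · exact h

theorem proj_proj_ne {hB : Pos B} {l l' : ℝ} (hl : l ≠ l') (u : H) :
    S.proj hB l (S.proj hB l' u) = 0 :=
  S.proj_eq_zero fun _ hv => S.inner_eig (Ne.symm hl) (S.proj_mem hB l' u) hv

theorem proj_res (hB : Pos B) (l : ℝ) (u : H) :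
    S.proj hB l (S.res hB u) = l⁻¹ • S.proj hB l u := by
  have h1 : S.proj hB l (S.res hB u - l⁻¹ • S.proj hB l u) = 0 := by
    refine S.proj_eq_zero fun v hv => ?_
    rw [inner_sub_left, S.res_symm, S.mem_eig.1 hv, real_inner_smul_right, real_inner_smul_left,
      ← mul_sub, ← inner_sub_left, S.sub_proj_inner u hv, mul_zero]
  rw [map_sub, map_smul, S.proj_eq_self (S.proj_mem hB l u), sub_eq_zero] at h1
  exact h1

/-- eigenvalues are at least one -/
theorem one_le_of_eig {hB : Pos B} {l : ℝ} {u : H} (hu : u ∈ S.eig hB l) (hu0 : u ≠ 0) :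
    1 ≤ l := by
  have h1 := S.eigen_pos hB hu0 (S.mem_eig.1 hu)
  have h2 : 0 < l := inv_pos.1 h1.1
  exact (inv_le_one₀ h2).1 h1.2

/-- squares of norms of finite spectral sums -/
theorem norm_sq_sum_proj (hB : Pos B) (F : Finset ℝ) (a : ℝ → ℝ) (u : H) :
    ‖∑ l ∈ F, a l • S.proj hB l u‖ ^ 2 = ∑ l ∈ F, a l ^ 2 * ‖S.proj hB l u‖ ^ 2 := by
  rw [← real_inner_self_eq_norm_sq, sum_inner]
  refine Finset.sum_congr rfl fun l hl => ?_
  rw [inner_sum, Finset.sum_eq_single l]
  · rw [real_inner_smul_left, real_inner_smul_right, real_inner_self_eq_norm_sq]; ring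
  · intro l' _ hne
    rw [real_inner_smul_left, real_inner_smul_right,
      S.inner_eig (Ne.symm hne) (S.proj_mem hB l u) (S.proj_mem hB l' u)]
    ring
  · intro h; exact absurd hl h

theorem inner_sub_sum_proj {hB : Pos B} {F : Finset ℝ} {u v : H} {l : ℝ} (hl : l ∈ F)
    (hv : v ∈ S.eig hB l) : ⟪u - ∑ l ∈ F, S.proj hB l u, v⟫_ℝ = 0 := by
  rw [inner_sub_left, sum_inner, Finset.sum_eq_single l]
  · rw [← inner_sub_left, S.sub_proj_inner u hv]
  · intro l' _ hne
    exact S.inner_eig hne (S.proj_mem hB l' u) hv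
  · intro h; exact absurd hl h

theorem norm_sq_split {hB : Pos B} {F : Finset ℝ} (u : H) :
    ‖u‖ ^ 2 = ‖u - ∑ l ∈ F, S.proj hB l u‖ ^ 2 + ‖∑ l ∈ F, S.proj hB l u‖ ^ 2 := by
  have h1 : ⟪u - ∑ l ∈ F, S.proj hB l u, ∑ l ∈ F, S.proj hB l u⟫_ℝ = 0 := by
    rw [inner_sum]
    exact Finset.sum_eq_zero fun l hl => S.inner_sub_sum_proj hl (S.proj_mem hB l u)
  have h2 := norm_add_sq_eq_norm_sq_add_norm_sq_real h1
  rw [sub_add_cancel] at h2
  simpa [pow_two] using h2

theorem norm_sum_proj_le (hB : Pos B) (F : Finset ℝ) (u : H) :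
    ‖∑ l ∈ F, S.proj hB l u‖ ≤ ‖u‖ := by
  have h1 := S.norm_sq_split (hB := hB) (F := F) u
  refine (pow_le_pow_iff_left₀ (norm_nonneg _) (norm_nonneg _) two_ne_zero).1 ?_
  rw [h1]
  linarith [sq_nonneg ‖u - ∑ l ∈ F, S.proj hB l u‖]

/-- **Completeness.** -/
theorem exists_sum_proj (hR : S.Rel) (hB : Pos B) (u : H) {ε : ℝ} (hε : 0 < ε) :
    ∃ F₀ : Finset ℝ, ∀ F : Finset ℝ, F₀ ⊆ F → ‖u - ∑ l ∈ F, S.proj hB l u‖ < ε := by
  have h1 : (⨆ μ, Module.End.eigenspace (S.res hB : H →ₗ[ℝ] H) μ)ᗮ = ⊥ :=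
    ContinuousLinearMap.orthogonalComplement_iSup_eigenspaces_eq_bot
      (S.isCompactOperator_res hR hB) (fun f g => S.res_symm hB f g)
  have h2 : (⨆ l, S.eig hB l) = ⨆ μ, Module.End.eigenspace (S.res hB : H →ₗ[ℝ] H) μ := by
    refine le_antisymm (iSup_le fun l => le_iSup (fun μ =>
      Module.End.eigenspace (S.res hB : H →ₗ[ℝ] H) μ) l⁻¹) (iSup_le fun μ => ?_)
    have h3 : Module.End.eigenspace (S.res hB : H →ₗ[ℝ] H) μ = S.eig hB μ⁻¹ := by
      rw [eig, inv_inv]
    rw [h3]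
    exact le_iSup (fun l => S.eig hB l) μ⁻¹
  have h4 : u ∈ (⨆ l, S.eig hB l).topologicalClosure := by
    rw [← Submodule.orthogonal_orthogonal_eq_closure, h2, h1, Submodule.bot_orthogonal_eq_top]
    trivial
  have h5 : u ∈ closure ((⨆ l, S.eig hB l : Submodule ℝ H) : Set H) := h4
  obtain ⟨x, hx, hd⟩ := Metric.mem_closure_iff.1 h5 ε hε
  obtain ⟨F₀, hF₀⟩ := Submodule.mem_iSup_iff_exists_finset.1 hx
  refine ⟨F₀, fun F hF => ?_⟩
  -- `x` is orthogonal to the remainder
  have h6 : ∀ y ∈ (⨆ l ∈ F₀, S.eig hB l : Submodule ℝ H),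
      ⟪u - ∑ l ∈ F, S.proj hB l u, y⟫_ℝ = 0 := by
    intro y hy
    have h7 : (⨆ l ∈ F₀, S.eig hB l : Submodule ℝ H) ≤
        LinearMap.ker (innerₛₗ ℝ (u - ∑ l ∈ F, S.proj hB l u)) := by
      refine iSup₂_le fun l hl v hv => ?_
      rw [LinearMap.mem_ker]
      exact S.inner_sub_sum_proj (hF hl) hv
    exact LinearMap.mem_ker.1 (h7 hy)
  have h8 : ⟪u - ∑ l ∈ F, S.proj hB l u, (∑ l ∈ F, S.proj hB l u) - x⟫_ℝ = 0 := by
    rw [inner_sub_right, h6 x hF₀, inner_sum, sub_zero]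
    exact Finset.sum_eq_zero fun l hl => S.inner_sub_sum_proj hl (S.proj_mem hB l u)
  have h9 := norm_add_sq_eq_norm_sq_add_norm_sq_real h8
  rw [sub_add_sub_cancel] at h9
  rw [dist_eq_norm] at hd
  refine lt_of_le_of_lt ?_ hd
  refine (pow_le_pow_iff_left₀ (norm_nonneg _) (norm_nonneg _) two_ne_zero).1 ?_
  rw [pow_two, pow_two, h9]
  linarith [mul_self_nonneg ‖(∑ l ∈ F, S.proj hB l u) - x‖]

section Smooth

variable (hG : S.Reg) (hB : Pos B) (hT : B ∈ S.T)

include hG hT in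
theorem eig_le_A (l : ℝ) : S.eig hB l ≤ S.A := by
  intro u hu
  rcases eq_or_ne l 0 with rfl | hl
  · rw [S.eig_zero, Submodule.mem_bot] at hu
    rw [hu]; exact S.A.zero_mem
  · exact S.mem_A_of_eigen hG hB hT (inv_ne_zero hl) (S.mem_eig.1 hu)

/-- the spectral projections on smooth vectors -/
def projA (l : ℝ) (u : S.A) : S.A :=
  ⟨S.proj hB l u, S.eig_le_A hG hB hT l (S.proj_mem hB l u)⟩

@[simp] theorem coe_projA (l : ℝ) (u : S.A) : (S.projA hG hB hT l u : H) = S.proj hB l u := rfl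

theorem projA_add (l : ℝ) (u v : S.A) :
    S.projA hG hB hT l (u + v) = S.projA hG hB hT l u + S.projA hG hB hT l v :=
  Subtype.ext (by simp)

theorem projA_smul (l c : ℝ) (u : S.A) :
    S.projA hG hB hT l (c • u) = c • S.projA hG hB hT l u :=
  Subtype.ext (by simp)

theorem lap_of_mem_eig {l : ℝ} {u : S.A} (hu : (u : H) ∈ S.eig hB l) : S.lap hT u = l • u := by
  rcases eq_or_ne l 0 with rfl | hl
  · rw [S.eig_zero, Submodule.mem_bot] at hu
    have : u = 0 := Subtype.ext hu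
    rw [this]; simp
  · have := S.lap_of_eigen hB hT (inv_ne_zero hl) (S.mem_eig.1 hu)
    rwa [inv_inv] at this

theorem mem_eig_of_lap {l : ℝ} {u : S.A} (hl : l ≠ 0) (hu : S.lap hT u = l • u) :
    (u : H) ∈ S.eig hB l := by
  rw [mem_eig]
  have h1 := S.res_lap hB hT u
  rw [hu, Submodule.coe_smul, map_smul] at h1
  rw [← h1, map_smul, smul_smul, inv_mul_cancel₀ hl, one_smul, ← map_smul, h1]

theorem lap_projA (l : ℝ) (u : S.A) :
    S.lap hT (S.projA hG hB hT l u) = l • S.projA hG hB hT l u :=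
  S.lap_of_mem_eig hB hT (S.proj_mem hB l u)

theorem projA_lap (l : ℝ) (u : S.A) :
    S.projA hG hB hT l (S.lap hT u) = l • S.projA hG hB hT l u := by
  apply Subtype.ext
  rcases eq_or_ne l 0 with rfl | hl
  · have h1 : ∀ x : H, S.proj hB 0 x = 0 := fun x => by
      have := S.proj_mem hB 0 x
      rwa [S.eig_zero, Submodule.mem_bot] at this
    simp [h1]
  · have h1 := S.proj_res hB l (S.lap hT u)
    rw [S.res_lap hB hT] at h1
    rw [coe_projA, Submodule.coe_smul, coe_projA, h1, smul_smul, mul_inv_cancel₀ hl, one_smul]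

theorem projA_lap_iter (j : ℕ) (l : ℝ) (u : S.A) :
    S.projA hG hB hT l ((S.lap hT)^[j] u) = l ^ j • S.projA hG hB hT l u := by
  induction j generalizing u with
  | zero => simp
  | succ j ih =>
    rw [Function.iterate_succ_apply, ih, S.projA_lap, smul_smul, pow_succ]

theorem lap_iter_projA (j : ℕ) (l : ℝ) (u : S.A) :
    (S.lap hT)^[j] (S.projA hG hB hT l u) = l ^ j • S.projA hG hB hT l u := by
  induction j with
  | zero => simp
  | succ j ih =>
    rw [Function.iterate_succ_apply', ih, map_smul, S.lap_projA, smul_smul, pow_succ]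

theorem lap_iter_sum {κ : Type*} (F : Finset κ) (j : ℕ) (f : κ → S.A) :
    (S.lap hT)^[j] (∑ l ∈ F, f l) = ∑ l ∈ F, (S.lap hT)^[j] (f l) := by
  induction j with
  | zero => simp
  | succ j ih =>
    simp only [Function.iterate_succ_apply', ih, map_sum]

theorem lap_iter_sub (j : ℕ) (u v : S.A) :
    (S.lap hT)^[j] (u - v) = (S.lap hT)^[j] u - (S.lap hT)^[j] v := by
  induction j with
  | zero => simp
  | succ j ih => simp only [Function.iterate_succ_apply', ih, map_sub]

theorem lap_iter_smul (j : ℕ) (c : ℝ) (u : S.A) :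
    (S.lap hT)^[j] (c • u) = c • (S.lap hT)^[j] u := by
  induction j with
  | zero => simp
  | succ j ih => simp only [Function.iterate_succ_apply', ih, map_smul]

include hB in
theorem norm_le_lap (u : S.A) : ‖(u : H)‖ ≤ ‖(S.lap hT u : H)‖ := by
  have h1 := S.norm_res_le hB (S.lap hT u)
  rwa [S.res_lap hB hT] at h1

include hB in
theorem norm_le_lap_iter (j : ℕ) (u : S.A) : ‖(u : H)‖ ≤ ‖((S.lap hT)^[j] u : H)‖ := by
  induction j with
  | zero => simp
  | succ j ih =>
    rw [Function.iterate_succ_apply']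
    exact ih.trans (S.norm_le_lap hB hT _)

/-- **Commutation**: operators commuting with the Laplacians commute with the projections. -/
theorem projA_comm {ι' : Type} [Fintype ι'] {H' : Type} [NormedAddCommGroup H']
    [InnerProductSpace ℝ H'] [CompleteSpace H'] {S' : HSys ι' H'} {B' : H' →L[ℝ] H'}
    (hG' : S'.Reg) (hB' : Pos B') (hT' : B' ∈ S'.T) {D : S.A →ₗ[ℝ] S'.A} {D' : S'.A → S.A}
    (hD : ∀ (u : S.A) (v : S'.A), ⟪(D u : H'), (v : H')⟫_ℝ = ⟪(u : H), (D' v : H)⟫_ℝ)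
    (hc : ∀ u, D (S.lap hT u) = S'.lap hT' (D u)) (l : ℝ) (u : S.A) :
    D (S.projA hG hB hT l u) = S'.projA hG' hB' hT' l (D u) := by
  rcases eq_or_ne l 0 with rfl | hl
  · have h1 : S.projA hG hB hT 0 u = 0 := by
      apply Subtype.ext
      have := S.proj_mem hB 0 (u : H)
      rwa [S.eig_zero, Submodule.mem_bot] at this
    have h2 : S'.projA hG' hB' hT' 0 (D u) = 0 := by
      apply Subtype.ext
      have := S'.proj_mem hB' 0 (D u : H')
      rwa [S'.eig_zero, Submodule.mem_bot] at this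
    rw [h1, h2, map_zero]
  apply Subtype.ext
  -- the image of the projection is in the eigenspace
  have h1 : (D (S.projA hG hB hT l u) : H') ∈ S'.eig hB' l := by
    apply S'.mem_eig_of_lap hB' hT' hl
    rw [← hc, S.lap_projA, map_smul]
  -- the rest is orthogonal
  have h2 : S'.proj hB' l (D (u - S.projA hG hB hT l u) : H') = 0 := by
    refine S'.proj_eq_zero fun v hv => ?_
    have hvA := S'.eig_le_A hG' hB' hT' l hv
    have h3 := hD (u - S.projA hG hB hT l u) ⟨v, hvA⟩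
    have h4 : (D' ⟨v, hvA⟩ : H) ∈ S.eig hB l := by
      apply S.mem_eig_of_lap hB hT hl
      -- test against smooth vectors
      apply Subtype.ext
      refine S.eq_of_inner_A fun w => ?_
      have hs : ∀ (a b : S.A), ⟪(S.lap hT a : H), (b : H)⟫_ℝ = ⟪(a : H), (S.lap hT b : H)⟫_ℝ := by
        intro a b
        rw [S.inner_lap, real_inner_comm (S.lap hT b : H) (a : H), S.inner_lap,
          real_inner_comm (a : H) (b : H), hB.symm, real_inner_comm (B b) (a : H)]
        simp only [real_inner_comm (S.X _ b : H) (S.X _ a : H)]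
      have hs' : ∀ (a b : S'.A), ⟪(S'.lap hT' a : H'), (b : H')⟫_ℝ =
          ⟪(a : H'), (S'.lap hT' b : H')⟫_ℝ := by
        intro a b
        rw [S'.inner_lap, real_inner_comm (S'.lap hT' b : H') (a : H'), S'.inner_lap,
          real_inner_comm (a : H') (b : H'), hB'.symm, real_inner_comm (B' b) (a : H')]
        simp only [real_inner_comm (S'.X _ b : H') (S'.X _ a : H')]
      rw [hs, real_inner_comm, ← hD, hc, hs', S'.lap_of_mem_eig hB' hT' (u := ⟨v, hvA⟩) hv,
        Submodule.coe_smul, real_inner_smul_right, hD, Submodule.coe_smul, real_inner_smul_left,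
        real_inner_comm (w : H)]
    rw [h3, Submodule.coe_sub, coe_projA]
    exact S.sub_proj_inner (u : H) h4
  rw [map_sub, Submodule.coe_sub, map_sub, sub_eq_zero, S'.proj_eq_self h1] at h2
  exact h2.symm

end Smooth

end HSys

end Vale.Agent.P207.H395
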