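import Vale.Agent.P207.H395.Spec

/-!
# P207, block SPEC: smooth convergence of the spectral decomposition, functional calculus
-/

open Filter Topology
open scoped InnerProductSpace

noncomputable section

set_option linter.unusedSectionVars false

namespace Vale.Agent.P207.H395

namespace HSys

variable {ι : Type} [Fintype ι] {H : Type} [NormedAddCommGroup H] [InnerProductSpace ℝ H]
  [CompleteSpace H]

variable (S : HSys ι H) {B : H →L[ℝ] H}

/-! ### the norms `nS` -/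

theorem nS_nonneg (s : ℕ) (u : S.A) : 0 ≤ S.nS s u := by
  induction s generalizing u with
  | zero => exact norm_nonneg _
  | succ s ih => exact add_nonneg (ih u) (Finset.sum_nonneg fun i _ => ih _)

theorem nS_le_succ (s : ℕ) (u : S.A) : S.nS s u ≤ S.nS (s + 1) u :=
  le_add_of_nonneg_right (Finset.sum_nonneg fun _ _ => S.nS_nonneg s _)

theorem nS_mono {s t : ℕ} (hst : s ≤ t) (u : S.A) : S.nS s u ≤ S.nS t u := by
  induction hst with
  | refl => exact le_rfl
  | step _ ih => exact ih.trans (S.nS_le_succ _ u)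

theorem norm_le_nS (s : ℕ) (u : S.A) : ‖(u : H)‖ ≤ S.nS s u := S.nS_mono (Nat.zero_le s) u

theorem nS_X_le (s : ℕ) (i : ι) (u : S.A) : S.nS s (S.X i u) ≤ S.nS (s + 1) u := by
  have h1 : S.nS s (S.X i u) ≤ ∑ i, S.nS s (S.X i u) :=
    Finset.single_le_sum (f := fun i => S.nS s (S.X i u)) (fun _ _ => S.nS_nonneg s _)
      (Finset.mem_univ i)
  exact h1.trans (le_add_of_nonneg_left (S.nS_nonneg s u))

theorem nS_add_le (s : ℕ) (u v : S.A) : S.nS s (u + v) ≤ S.nS s u + S.nS s v := by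
  induction s generalizing u v with
  | zero => exact norm_add_le _ _
  | succ s ih =>
    simp only [nS, map_add]
    calc S.nS s (u + v) + ∑ i, S.nS s (S.X i u + S.X i v)
        ≤ (S.nS s u + S.nS s v) + ∑ i, (S.nS s (S.X i u) + S.nS s (S.X i v)) :=
          add_le_add (ih u v) (Finset.sum_le_sum fun i _ => ih _ _)
      _ = _ := by rw [Finset.sum_add_distrib]; ring

theorem nS_smul (s : ℕ) (c : ℝ) (u : S.A) : S.nS s (c • u) = |c| * S.nS s u := by
  induction s generalizing u with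
  | zero => simp [nS, norm_smul]
  | succ s ih =>
    simp only [nS, map_smul, ih]
    rw [mul_add, Finset.mul_sum]

theorem nS_zero (s : ℕ) : S.nS s 0 = 0 := by
  have := S.nS_smul s 0 0
  simpa using this

theorem nS_neg (s : ℕ) (u : S.A) : S.nS s (-u) = S.nS s u := by
  have := S.nS_smul s (-1) u
  simpa using this

theorem nS_sub_le (s : ℕ) (u v : S.A) : S.nS s (u - v) ≤ S.nS s u + S.nS s v := by
  rw [sub_eq_add_neg, ← S.nS_neg s v]; exact S.nS_add_le s u (-v)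

theorem nS_sum_le {κ : Type*} (F : Finset κ) (s : ℕ) (f : κ → S.A) :
    S.nS s (∑ k ∈ F, f k) ≤ ∑ k ∈ F, S.nS s (f k) := by
  classical
  induction F using Finset.induction_on with
  | empty => simp [S.nS_zero]
  | insert a F ha ih =>
    rw [Finset.sum_insert ha, Finset.sum_insert ha]
    exact (S.nS_add_le s _ _).trans (add_le_add le_rfl ih)

/-! ### the elliptic estimate (as a property; proved in the block A-PRIORI) -/

/-- the elliptic estimate of all orders -/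
def Est (hT : B ∈ S.T) : Prop :=
  ∀ s, ∃ C : ℝ, 0 ≤ C ∧ ∀ u : S.A, S.nS (s + 2) u ≤ C * (S.nS s (S.lap hT u) + ‖(u : H)‖)

/-- boundedness of the Laplacian -/
def Bdd (hT : B ∈ S.T) : Prop :=
  ∀ s, ∃ C : ℝ, 0 ≤ C ∧ ∀ u : S.A, S.nS s (S.lap hT u) ≤ C * S.nS (s + 2) u

section

variable (hB : Pos B) (hT : B ∈ S.T)

include hB in
theorem nS_le_lap_iter (hE : S.Est hT) (j : ℕ) : ∃ C : ℝ, 0 ≤ C ∧ ∀ u : S.A,
    S.nS (2 * j) u ≤ C * ‖((S.lap hT)^[j] u : H)‖ := by
  induction j with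
  | zero => exact ⟨1, zero_le_one, fun u => by simp [nS]⟩
  | succ j ih =>
    obtain ⟨C, hC, h⟩ := ih
    obtain ⟨C', hC', h'⟩ := hE (2 * j)
    refine ⟨C' * (C + 1), by positivity, fun u => ?_⟩
    have h1 := h (S.lap hT u)
    rw [← Function.iterate_succ_apply] at h1
    have h2 := S.norm_le_lap_iter hB hT (j + 1) u
    calc S.nS (2 * (j + 1)) u ≤ C' * (S.nS (2 * j) (S.lap hT u) + ‖(u : H)‖) := h' u
      _ ≤ C' * (C * ‖((S.lap hT)^[j + 1] u : H)‖ + ‖((S.lap hT)^[j + 1] u : H)‖) :=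
          mul_le_mul_of_nonneg_left (add_le_add h1 h2) hC'
      _ = _ := by ring

theorem lap_iter_le_nS (hE : S.Bdd hT) (j : ℕ) : ∀ s : ℕ, ∃ C : ℝ, 0 ≤ C ∧ ∀ u : S.A,
    S.nS s ((S.lap hT)^[j] u) ≤ C * S.nS (s + 2 * j) u := by
  induction j with
  | zero => exact fun s => ⟨1, zero_le_one, fun u => by simp⟩
  | succ j ih =>
    intro s
    obtain ⟨C, hC, h⟩ := ih s
    obtain ⟨C', hC', h'⟩ := hE (s + 2 * j)
    refine ⟨C * C', by positivity, fun u => ?_⟩
    rw [Function.iterate_succ_apply]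
    calc _ ≤ C * S.nS (s + 2 * j) (S.lap hT u) := h _
      _ ≤ C * (C' * S.nS (s + 2 * j + 2) u) := mul_le_mul_of_nonneg_left (h' u) hC
      _ = C * C' * S.nS (s + 2 * (j + 1)) u := by
          rw [mul_assoc]; congr 3

/-- the inverse is bounded -/
theorem nS_resA_le (hG : S.Reg) (hE : S.Est hT) (s : ℕ) : ∃ C : ℝ, 0 ≤ C ∧ ∀ f : S.A,
    S.nS (s + 2) (S.resA hG hB hT f) ≤ C * S.nS s f := by
  obtain ⟨C, hC, h⟩ := hE s
  refine ⟨C * 2, by positivity, fun f => ?_⟩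
  have h1 := h (S.resA hG hB hT f)
  rw [S.lap_resA] at h1
  have h2 : ‖(S.resA hG hB hT f : H)‖ ≤ S.nS s f :=
    (S.norm_res_le hB f).trans (S.norm_le_nS s f)
  calc _ ≤ _ := h1
    _ ≤ C * (S.nS s f + S.nS s f) := mul_le_mul_of_nonneg_left (add_le_add le_rfl h2) hC
    _ = _ := by ring

variable (hG : S.Reg)

/-- **Smooth convergence** of the spectral decomposition. -/
theorem exists_sum_projA (hR : S.Rel) (hE : S.Est hT) (s : ℕ) (u : S.A) {ε : ℝ} (hε : 0 < ε) :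
    ∃ F₀ : Finset ℝ, ∀ F : Finset ℝ, F₀ ⊆ F →
      S.nS s (u - ∑ l ∈ F, S.projA hG hB hT l u) < ε := by
  obtain ⟨C, hC, h⟩ := S.nS_le_lap_iter hB hT hE s
  obtain ⟨F₀, hF₀⟩ := S.exists_sum_proj hR hB ((S.lap hT)^[s] u : H) (ε := ε / (C + 1))
    (by positivity)
  refine ⟨F₀, fun F hF => ?_⟩
  have h1 := hF₀ F hF
  have h2 : ((S.lap hT)^[s] u : H) - ∑ l ∈ F, S.proj hB l ((S.lap hT)^[s] u : H) =
      ((S.lap hT)^[s] (u - ∑ l ∈ F, S.projA hG hB hT l u) : H) := by
    rw [S.lap_iter_sub hT, S.lap_iter_sum hT, Submodule.coe_sub, Submodule.coe_sum]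
    congr 1
    refine Finset.sum_congr rfl fun l _ => ?_
    rw [S.lap_iter_projA hG hB hT, ← S.projA_lap_iter hG hB hT s l u, coe_projA]
  rw [h2] at h1
  calc _ ≤ S.nS (2 * s) (u - ∑ l ∈ F, S.projA hG hB hT l u) := S.nS_mono (by omega) _
    _ ≤ C * ‖((S.lap hT)^[s] (u - ∑ l ∈ F, S.projA hG hB hT l u) : H)‖ := h _
    _ ≤ C * (ε / (C + 1)) := mul_le_mul_of_nonneg_left h1.le hC
    _ < ε := by
        rw [mul_div_assoc', div_lt_iff₀ (by positivity)]
        nlinarith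

/-- finite spectral sums with coefficients -/
def fc (F : Finset ℝ) (a : ℝ → ℝ) (u : S.A) : S.A := ∑ l ∈ F, a l • S.projA hG hB hT l u

theorem fc_one (F : Finset ℝ) (u : S.A) :
    S.fc hB hT hG F (fun _ => 1) u = ∑ l ∈ F, S.projA hG hB hT l u := by simp [fc]

/-- **Functional calculus**: coefficients of polynomial growth give bounded operators. -/
theorem nS_fc_le (hE : S.Est hT) (hE' : S.Bdd hT) (s m : ℕ) : ∃ C : ℝ, 0 ≤ C ∧
    ∀ (F : Finset ℝ) (a : ℝ → ℝ) (K : ℝ) (u : S.A), 0 ≤ K →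
      (∀ l ∈ F, 1 ≤ l → |a l| ≤ K * l ^ m) →
      S.nS s (S.fc hB hT hG F a u) ≤ C * K * S.nS (2 * (m + s)) u := by
  obtain ⟨C, hC, h⟩ := S.nS_le_lap_iter hB hT hE s
  obtain ⟨C', hC', h'⟩ := S.lap_iter_le_nS hT hE' (m + s) 0
  refine ⟨C * C', by positivity, fun F a K u hK ha => ?_⟩
  have h1 : ((S.lap hT)^[s] (S.fc hB hT hG F a u) : H) =
      ∑ l ∈ F, (a l * l ^ s) • S.proj hB l (u : H) := by
    rw [fc, S.lap_iter_sum hT, Submodule.coe_sum]
    refine Finset.sum_congr rfl fun l _ => ?_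
    rw [S.lap_iter_smul hT, S.lap_iter_projA hG hB hT, smul_smul, Submodule.coe_smul, coe_projA]
  have h2 : ∑ l ∈ F, S.proj hB l ((S.lap hT)^[m + s] u : H) =
      ∑ l ∈ F, (l ^ (m + s)) • S.proj hB l (u : H) := by
    refine Finset.sum_congr rfl fun l _ => ?_
    rw [← coe_projA S hG hB hT, S.projA_lap_iter hG hB hT, Submodule.coe_smul, coe_projA]
  have h3 : ‖((S.lap hT)^[s] (S.fc hB hT hG F a u) : H)‖ ≤ K * ‖((S.lap hT)^[m + s] u : H)‖ := by
    have h4 : ‖((S.lap hT)^[s] (S.fc hB hT hG F a u) : H)‖ ^ 2 ≤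
        (K * ‖∑ l ∈ F, S.proj hB l ((S.lap hT)^[m + s] u : H)‖) ^ 2 := by
      rw [h1, h2, mul_pow, S.norm_sq_sum_proj hB F (fun l => a l * l ^ s),
        S.norm_sq_sum_proj hB F (fun l => l ^ (m + s)), Finset.mul_sum]
      refine Finset.sum_le_sum fun l hl => ?_
      rcases eq_or_ne (S.proj hB l (u : H)) 0 with h0 | h0
      · simp [h0]
      · have hl1 : 1 ≤ l := S.one_le_of_eig (S.proj_mem hB l u) h0
        have hal := ha l hl hl1
        rw [← mul_assoc]
        refine mul_le_mul_of_nonneg_right ?_ (by positivity)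
        have h5 : |a l * l ^ s| ≤ K * l ^ (m + s) := by
          rw [abs_mul, abs_of_nonneg (by positivity : (0 : ℝ) ≤ l ^ s), pow_add, ← mul_assoc]
          exact mul_le_mul_of_nonneg_right hal (by positivity)
        calc (a l * l ^ s) ^ 2 = |a l * l ^ s| ^ 2 := (sq_abs _).symm
          _ ≤ (K * l ^ (m + s)) ^ 2 := pow_le_pow_left₀ (abs_nonneg _) h5 2
          _ = _ := by ring
    have h6 := (pow_le_pow_iff_left₀ (norm_nonneg _) (by positivity) two_ne_zero).1 h4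
    exact h6.trans (mul_le_mul_of_nonneg_left (S.norm_sum_proj_le hB F _) hK)
  calc S.nS s (S.fc hB hT hG F a u) ≤ S.nS (2 * s) (S.fc hB hT hG F a u) :=
        S.nS_mono (by omega) _
    _ ≤ C * ‖((S.lap hT)^[s] (S.fc hB hT hG F a u) : H)‖ := h _
    _ ≤ C * (K * ‖((S.lap hT)^[m + s] u : H)‖) := mul_le_mul_of_nonneg_left h3 hC
    _ ≤ C * (K * (C' * S.nS (0 + 2 * (m + s)) u)) := by
        refine mul_le_mul_of_nonneg_left (mul_le_mul_of_nonneg_left ?_ hK) hC
        exact h' u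
    _ = C * C' * K * S.nS (2 * (m + s)) u := by rw [zero_add]; ring

end

/-! ### Gram matrices of operators commuting with the Laplacians -/

section Gram

variable (hB : Pos B) (hT : B ∈ S.T) (hG : S.Reg)
variable {ι' : Type} [Fintype ι'] {H' : Type} [NormedAddCommGroup H']
    [InnerProductSpace ℝ H'] [CompleteSpace H'] {S' : HSys ι' H'} {B' : H' →L[ℝ] H'}
    (hG' : S'.Reg) (hB' : Pos B') (hT' : B' ∈ S'.T)

/-- an operator with formal adjoint which intertwines the Laplacians -/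
structure Nat (hT : B ∈ S.T) (hT' : B' ∈ S'.T) (D : S.A →ₗ[ℝ] S'.A) : Prop where
  adj : ∃ D' : S'.A → S.A, ∀ (u : S.A) (v : S'.A),
    ⟪(D u : H'), (v : H')⟫_ℝ = ⟪(u : H), (D' v : H)⟫_ℝ
  comm : ∀ u, D (S.lap hT u) = S'.lap hT' (D u)

variable {S}

theorem Nat.projA {D : S.A →ₗ[ℝ] S'.A} (hD : S.Nat hT hT' D) (l : ℝ) (u : S.A) :
    D (S.projA hG hB hT l u) = S'.projA hG' hB' hT' l (D u) := by
  obtain ⟨D', hD'⟩ := hD.adj
  exact S.projA_comm hG hB hT hG' hB' hT' hD' hD.comm l u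

theorem Nat.fc {D : S.A →ₗ[ℝ] S'.A} (hD : S.Nat hT hT' D) (F : Finset ℝ) (a : ℝ → ℝ) (u : S.A) :
    D (S.fc hB hT hG F a u) = S'.fc hB' hT' hG' F a (D u) := by
  simp only [HSys.fc, map_sum, map_smul]
  exact Finset.sum_congr rfl fun l _ => by rw [hD.projA hB hT hG hG' hB' hT']

include hG hG' hB' in
/-- the Gram matrix of two spectral sums -/
theorem Nat.inner_fc {D E : S.A →ₗ[ℝ] S'.A} (hD : S.Nat hT hT' D) (hE : S.Nat hT hT' E)
    (F : Finset ℝ) (a b : ℝ → ℝ) (u v : S.A) :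
    ⟪(D (S.fc hB hT hG F a u) : H'), (E (S.fc hB hT hG F b v) : H')⟫_ℝ =
      ∑ l ∈ F, a l * b l * ⟪(D (S.projA hG hB hT l u) : H'), (E (S.projA hG hB hT l v) : H')⟫_ℝ := by
  rw [hD.fc hB hT hG hG' hB' hT', hE.fc hB hT hG hG' hB' hT']
  simp only [HSys.fc, Submodule.coe_sum, Submodule.coe_smul]
  rw [sum_inner]
  refine Finset.sum_congr rfl fun l hl => ?_
  rw [inner_sum, Finset.sum_eq_single l]
  · rw [real_inner_smul_left, real_inner_smul_right, hD.projA hB hT hG hG' hB' hT',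
      hE.projA hB hT hG hG' hB' hT']
    ring
  · intro l' _ hne
    have h0 : ⟪(S'.projA hG' hB' hT' l (D u) : H'), (S'.projA hG' hB' hT' l' (E v) : H')⟫_ℝ = 0 :=
      S'.inner_eig (Ne.symm hne) (S'.proj_mem hB' l _) (S'.proj_mem hB' l' _)
    rw [real_inner_smul_left, real_inner_smul_right, h0]
    ring
  · intro h; exact absurd hl h

include hG hG' hB' in
/-- the Gram matrix with a full vector -/
theorem Nat.inner_fc_left {D E : S.A →ₗ[ℝ] S'.A} (hD : S.Nat hT hT' D) (hE : S.Nat hT hT' E)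
    (F : Finset ℝ) (b : ℝ → ℝ) (u v : S.A) :
    ⟪(D u : H'), (E (S.fc hB hT hG F b v) : H')⟫_ℝ =
      ∑ l ∈ F, b l * ⟪(D (S.projA hG hB hT l u) : H'), (E (S.projA hG hB hT l v) : H')⟫_ℝ := by
  rw [hE.fc hB hT hG hG' hB' hT']
  simp only [HSys.fc, Submodule.coe_sum, Submodule.coe_smul]
  rw [inner_sum]
  refine Finset.sum_congr rfl fun l hl => ?_
  rw [real_inner_smul_right, hD.projA hB hT hG hG' hB' hT', hE.projA hB hT hG hG' hB' hT']
  congr 1
  rw [coe_projA, coe_projA, S'.inner_proj_left hB' l, S'.proj_eq_self (S'.proj_mem hB' l _)]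

end Gram

end HSys

end Vale.Agent.P207.H395
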