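import Vale.Agent.P207.H395.Spec2
import Vale.Agent.P207.H734.APri

/-!
# P207, block SPEC: the elliptic estimates of `lap` (from the block A-PRIORI)
-/

open Filter Topology
open scoped InnerProductSpace

noncomputable section

set_option linter.unusedSectionVars false

namespace Vale.Agent.P207.H395

namespace HSys

variable {ι : Type} [Fintype ι] {H : Type} [NormedAddCommGroup H] [InnerProductSpace ℝ H]
  [CompleteSpace H]

variable (S : HSys ι H) {B : H →L[ℝ] H}

theorem lap_eq_Lap (hT : B ∈ S.T) :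
    S.lap hT = H734.Lap S (H734.TA S (B + 1) (S.T.add_mem hT S.T.one_mem)) := by
  refine LinearMap.ext fun u => ?_
  apply Subtype.ext
  rw [S.coe_lap, H734.Lap_apply, Submodule.coe_add, H734.coe_TA]
  simp only [add_apply, one_apply_eq_self, Submodule.coe_neg, Submodule.coe_sum]
  abel

theorem isDO_lap (hT : B ∈ S.T) : H734.IsDO S 2 (S.lap hT) := by
  rw [lap_eq_Lap]
  exact H734.isDO_Lap (H734.IsDO.mul _ _).succ

theorem est (hT : B ∈ S.T) : S.Est hT := by
  intro s
  obtain ⟨C, hC, h⟩ := H734.exists_apriori_mul (S := S) (S.T.add_mem hT S.T.one_mem) s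
  exact ⟨C, hC, fun u => by rw [lap_eq_Lap]; exact h u⟩

theorem bdd (hT : B ∈ S.T) : S.Bdd hT := by
  intro s
  obtain ⟨C, hC, h⟩ := (S.isDO_lap hT).exists_nS_le s
  exact ⟨C, hC, h⟩

/-- **The resolvent**: for every smooth `f` there is a unique smooth `u` with
`u - ∑ X_i² u + B u = f`, with two more derivatives. -/
theorem exists_resolvent (hG : S.Reg) (hB : Pos B) (hT : B ∈ S.T) :
    (∀ f : S.A, S.lap hT (S.resA hG hB hT f) = f) ∧
    (∀ f : S.A, S.resA hG hB hT (S.lap hT f) = f) ∧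
    ∀ s, ∃ C : ℝ, 0 ≤ C ∧ ∀ f : S.A, S.nS (s + 2) (S.resA hG hB hT f) ≤ C * S.nS s f :=
  ⟨S.lap_resA hG hB hT, S.resA_lap hG hB hT, S.nS_resA_le hB hT hG (S.est hT)⟩

/-- resolvents commute with natural operators -/
theorem Nat.resA {ι' : Type} [Fintype ι'] {H' : Type} [NormedAddCommGroup H']
    [InnerProductSpace ℝ H'] [CompleteSpace H'] {S' : HSys ι' H'} {B' : H' →L[ℝ] H'}
    {S : HSys ι H} {hT : B ∈ S.T} {hT' : B' ∈ S'.T} {D : S.A →ₗ[ℝ] S'.A}
    (hD : S.Nat hT hT' D) (hG : S.Reg) (hB : Pos B) (hG' : S'.Reg) (hB' : Pos B') (f : S.A) :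
    D (S.resA hG hB hT f) = S'.resA hG' hB' hT' (D f) := by
  have h1 := hD.comm (S.resA hG hB hT f)
  rw [S.lap_resA] at h1
  rw [h1, S'.resA_lap]

end HSys

end Vale.Agent.P207.H395
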