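import Vale.Agent.P207.H395.Spec3

/-!
# P207, block SPEC: synthesis of smooth vectors from their components
-/

open Filter Topology
open scoped InnerProductSpace

noncomputable section

set_option linter.unusedSectionVars false

namespace Vale.Agent.P207.H395

namespace HSys

variable {ι : Type} [Fintype ι] {H : Type} [NormedAddCommGroup H] [InnerProductSpace ℝ H]
  [CompleteSpace H]

variable {S : HSys ι H} {B : H →L[ℝ] H}

/-- smooth vectors from sequences which are Cauchy in all norms -/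
theorem exists_lim (hG : S.Reg) {u : ℕ → S.A}
    (hu : ∀ s, ∀ ε > 0, ∃ N, ∀ m ≥ N, ∀ n ≥ N, S.nS s (u m - u n) < ε) :
    ∃ v : S.A, ∀ s, Tendsto (fun n => S.nS s (u n - v)) atTop (𝓝 0) := by
  -- limits of all words
  have h1 : ∀ s, ∀ u : ℕ → S.A, (∀ ε > 0, ∃ N, ∀ m ≥ N, ∀ n ≥ N, S.nS s (u m - u n) < ε) →
      ∀ w : H, Tendsto (fun n => (u n : H)) atTop (𝓝 w) → S.Sob s w := by
    intro s
    induction s with
    | zero => intro _ _ _ _; trivial
    | succ s ih =>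
      intro u hu w hw
      have h2 : ∀ i, ∀ ε > 0, ∃ N, ∀ m ≥ N, ∀ n ≥ N,
          S.nS s (S.X i (u m) - S.X i (u n)) < ε := by
        intro i ε hε
        obtain ⟨N, hN⟩ := hu ε hε
        refine ⟨N, fun m hm n hn => lt_of_le_of_lt ?_ (hN m hm n hn)⟩
        rw [← map_sub]
        exact S.nS_X_le s i _
      have h3 : ∀ i, ∃ v : H, Tendsto (fun n => (S.X i (u n) : H)) atTop (𝓝 v) := by
        intro i
        apply cauchySeq_tendsto_of_complete
        rw [Metric.cauchySeq_iff]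
        intro ε hε
        obtain ⟨N, hN⟩ := h2 i ε hε
        refine ⟨N, fun m hm n hn => ?_⟩
        rw [dist_eq_norm]
        have := S.norm_le_nS s (S.X i (u m) - S.X i (u n))
        rw [Submodule.coe_sub] at this
        exact this.trans_lt (hN m hm n hn)
      choose v hv using h3
      exact ⟨v, ⟨u, hw, hv⟩, fun i => ih (fun n => S.X i (u n)) (h2 i) (v i) (hv i)⟩
  -- the limit
  obtain ⟨w, hw⟩ : ∃ w : H, Tendsto (fun n => (u n : H)) atTop (𝓝 w) := by
    apply cauchySeq_tendsto_of_complete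
    rw [Metric.cauchySeq_iff]
    intro ε hε
    obtain ⟨N, hN⟩ := hu 0 ε hε
    refine ⟨N, fun m hm n hn => ?_⟩
    rw [dist_eq_norm]
    exact hN m hm n hn
  have hwA : w ∈ S.A := hG w fun s => h1 s u (hu s) w hw
  refine ⟨⟨w, hwA⟩, ?_⟩
  -- convergence in all norms
  have h4 : ∀ s, ∀ u : ℕ → S.A, (∀ ε > 0, ∃ N, ∀ m ≥ N, ∀ n ≥ N, S.nS s (u m - u n) < ε) →
      ∀ w : S.A, Tendsto (fun n => (u n : H)) atTop (𝓝 (w : H)) →
      Tendsto (fun n => S.nS s (u n - w)) atTop (𝓝 0) := by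
    intro s
    induction s with
    | zero =>
      intro u _ w hw
      have h5 : Tendsto (fun n => ‖(u n : H) - w‖) atTop (𝓝 ‖(w : H) - w‖) :=
        (hw.sub tendsto_const_nhds).norm
      simpa [nS] using h5
    | succ s ih =>
      intro u hu w hw
      have h2 : ∀ i, ∀ ε > 0, ∃ N, ∀ m ≥ N, ∀ n ≥ N,
          S.nS s (S.X i (u m) - S.X i (u n)) < ε := by
        intro i ε hε
        obtain ⟨N, hN⟩ := hu ε hε
        refine ⟨N, fun m hm n hn => lt_of_le_of_lt ?_ (hN m hm n hn)⟩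
        rw [← map_sub]
        exact S.nS_X_le s i _
      have h6 : ∀ i, Tendsto (fun n => (S.X i (u n) : H)) atTop (𝓝 (S.X i w : H)) := by
        have h3 : ∀ i, ∃ v : H, Tendsto (fun n => (S.X i (u n) : H)) atTop (𝓝 v) := by
          intro i
          apply cauchySeq_tendsto_of_complete
          rw [Metric.cauchySeq_iff]
          intro ε hε
          obtain ⟨N, hN⟩ := h2 i ε hε
          refine ⟨N, fun m hm n hn => ?_⟩
          rw [dist_eq_norm]
          have := S.norm_le_nS s (S.X i (u m) - S.X i (u n))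
          rw [Submodule.coe_sub] at this
          exact this.trans_lt (hN m hm n hn)
        choose v hv using h3
        have h7 : S.IsH1 (w : H) v := ⟨u, hw, hv⟩
        have h8 := h7.unique (isH1_coe w)
        intro i
        have h9 : v i = S.X i w := congrFun h8 i
        rw [← h9]; exact hv i
      have h10 : Tendsto (fun n => S.nS s (u n - w)) atTop (𝓝 0) := by
        refine ih u (fun ε hε => ?_) w hw
        obtain ⟨N, hN⟩ := hu ε hε
        exact ⟨N, fun m hm n hn => lt_of_le_of_lt (S.nS_le_succ s _) (hN m hm n hn)⟩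
      have h11 : ∀ i, Tendsto (fun n => S.nS s (S.X i (u n) - S.X i w)) atTop (𝓝 0) :=
        fun i => ih (fun n => S.X i (u n)) (h2 i) (S.X i w) (h6 i)
      have h12 := h10.add (tendsto_finsetSum Finset.univ fun i _ => h11 i)
      simp only [Finset.sum_const_zero, add_zero] at h12
      refine h12.congr fun n => ?_
      simp only [nS, map_sub]
  intro s
  exact h4 s u (hu s) ⟨w, hwA⟩ hw

/-- **Synthesis.** -/
theorem exists_synth (hG : S.Reg) (hB : Pos B) (hT : B ∈ S.T) {v : ℝ → S.A}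
    (hv : ∀ l, (v l : H) ∈ S.eig hB l)
    (hb : ∀ m : ℕ, ∃ K : ℝ, ∀ F : Finset ℝ, ∑ l ∈ F, (l ^ m) ^ 2 * ‖(v l : H)‖ ^ 2 ≤ K) :
    ∃ u : S.A, (∀ l, S.projA hG hB hT l u = v l) ∧
      ∀ s, ∀ ε > 0, ∃ F₀ : Finset ℝ, ∀ F, F₀ ⊆ F → S.nS s (u - ∑ l ∈ F, v l) < ε := by
  classical
  -- squared norms of finite sums
  have hsq : ∀ (m : ℕ) (F : Finset ℝ), ‖((S.lap hT)^[m] (∑ l ∈ F, v l) : H)‖ ^ 2 =
      ∑ l ∈ F, (l ^ m) ^ 2 * ‖(v l : H)‖ ^ 2 := by
    intro m F
    have h1 : ((S.lap hT)^[m] (∑ l ∈ F, v l) : H) = ∑ l ∈ F, l ^ m • (v l : H) := by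
      rw [S.lap_iter_sum hT, Submodule.coe_sum]
      refine Finset.sum_congr rfl fun l _ => ?_
      have h2 : S.projA hG hB hT l (v l) = v l := Subtype.ext (S.proj_eq_self (hv l))
      have h3 := S.lap_iter_projA hG hB hT m l (v l)
      rw [h2] at h3
      rw [h3, Submodule.coe_smul]
    rw [h1, ← real_inner_self_eq_norm_sq, sum_inner]
    refine Finset.sum_congr rfl fun l hl => ?_
    rw [inner_sum, Finset.sum_eq_single l]
    · rw [real_inner_smul_left, real_inner_smul_right, real_inner_self_eq_norm_sq]; ring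
    · intro l' _ hne
      rw [real_inner_smul_left, real_inner_smul_right, S.inner_eig (Ne.symm hne) (hv l) (hv l')]
      ring
    · intro h; exact absurd hl h
  have hnn : ∀ (m : ℕ) (l : ℝ), 0 ≤ (l ^ m) ^ 2 * ‖(v l : H)‖ ^ 2 := fun m l => by positivity
  -- summability
  have hsum : ∀ m : ℕ, Summable fun l => (l ^ m) ^ 2 * ‖(v l : H)‖ ^ 2 := fun m => by
    obtain ⟨K, hK⟩ := hb m
    exact summable_of_sum_le (hnn m) hK
  -- tails
  have htail : ∀ s, ∀ ε > 0, ∃ F₀ : Finset ℝ, ∀ F : Finset ℝ, Disjoint F F₀ →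
      S.nS s (∑ l ∈ F, v l) < ε := by
    intro s ε hε
    obtain ⟨C, hC, h⟩ := S.nS_le_lap_iter hB hT (S.est hT) s
    have hδ : 0 < (ε / (C + 1)) ^ 2 := by positivity
    obtain ⟨F₀, hF₀⟩ := (summable_iff_vanishing_norm.1 (hsum s)) _ hδ
    refine ⟨F₀, fun F hF => ?_⟩
    have h1 := hF₀ F hF
    rw [Real.norm_eq_abs, abs_of_nonneg (Finset.sum_nonneg fun l _ => hnn s l), ← hsq] at h1
    have h2 : ‖((S.lap hT)^[s] (∑ l ∈ F, v l) : H)‖ < ε / (C + 1) :=
      (pow_lt_pow_iff_left₀ (norm_nonneg _) (by positivity) two_ne_zero).1 h1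
    calc S.nS s (∑ l ∈ F, v l) ≤ S.nS (2 * s) (∑ l ∈ F, v l) := S.nS_mono (by omega) _
      _ ≤ C * ‖((S.lap hT)^[s] (∑ l ∈ F, v l) : H)‖ := h _
      _ ≤ C * (ε / (C + 1)) := mul_le_mul_of_nonneg_left h2.le hC
      _ < ε := by
        rw [mul_div_assoc', div_lt_iff₀ (by positivity)]
        nlinarith
  -- a sequence of finite sets
  have hex : ∀ k : ℕ, ∃ F₀ : Finset ℝ, ∀ s ≤ k, ∀ F : Finset ℝ, Disjoint F F₀ →
      S.nS s (∑ l ∈ F, v l) < 1 / (k + 1 : ℝ) := by
    intro k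
    choose G hG' using fun s : ℕ => htail s (1 / (k + 1 : ℝ)) (by positivity)
    refine ⟨(Finset.range (k + 1)).biUnion G, fun s hs F hF => hG' s F ?_⟩
    exact hF.mono_right (Finset.subset_biUnion_of_mem G (Finset.mem_range.2 (by omega)))
  choose F' hF' using hex
  let F : ℕ → Finset ℝ := fun k => (Finset.range (k + 1)).biUnion F'
  have hFsub : ∀ k, F' k ⊆ F k := fun k =>
    Finset.subset_biUnion_of_mem F' (Finset.mem_range.2 (by omega))
  have hFmono : Monotone F := by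
    intro a b hab
    exact Finset.biUnion_subset_biUnion_of_subset_left _
      (Finset.range_subset_range.2 (by omega))
  -- differences of partial sums over sets containing `F' k`
  have hdiff : ∀ k, ∀ s ≤ k, ∀ F₁ F₂ : Finset ℝ, F' k ⊆ F₁ → F' k ⊆ F₂ →
      S.nS s ((∑ l ∈ F₁, v l) - ∑ l ∈ F₂, v l) < 2 * (1 / (k + 1 : ℝ)) := by
    intro k s hs F₁ F₂ h1 h2
    have e1 : (∑ l ∈ F₁, v l) = ∑ l ∈ F₁ \ F' k, v l + ∑ l ∈ F' k, v l :=
      (Finset.sum_sdiff h1).symm
    have e2 : (∑ l ∈ F₂, v l) = ∑ l ∈ F₂ \ F' k, v l + ∑ l ∈ F' k, v l :=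
      (Finset.sum_sdiff h2).symm
    rw [e1, e2, add_sub_add_right_eq_sub]
    have h3 := hF' k s hs (F₁ \ F' k) Finset.sdiff_disjoint
    have h4 := hF' k s hs (F₂ \ F' k) Finset.sdiff_disjoint
    calc _ ≤ _ := S.nS_sub_le s _ _
      _ < 1 / (k + 1 : ℝ) + 1 / (k + 1 : ℝ) := add_lt_add h3 h4
      _ = _ := by ring
  have hsmall : ∀ ε > 0, ∀ s : ℕ, ∃ k : ℕ, s ≤ k ∧ 2 * (1 / (k + 1 : ℝ)) < ε := by
    intro ε hε s
    obtain ⟨k, hk⟩ := exists_nat_gt (2 / ε)
    refine ⟨max k s, le_max_right _ _, ?_⟩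
    have h1 : (k : ℝ) ≤ ((max k s : ℕ) : ℝ) := Nat.cast_le.2 (le_max_left _ _)
    rw [mul_one_div, div_lt_iff₀ (by positivity)]
    rw [div_lt_iff₀ hε] at hk
    nlinarith
  have hcau : ∀ s, ∀ ε > 0, ∃ N, ∀ m ≥ N, ∀ n ≥ N,
      S.nS s ((∑ l ∈ F m, v l) - ∑ l ∈ F n, v l) < ε := by
    intro s ε hε
    obtain ⟨k, hk1, hk2⟩ := hsmall ε hε s
    refine ⟨k, fun m hm n hn => lt_trans (hdiff k s hk1 (F m) (F n) ?_ ?_) hk2⟩
    · exact (hFsub k).trans (hFmono hm)
    · exact (hFsub k).trans (hFmono hn)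
  obtain ⟨u, hu⟩ := exists_lim hG (u := fun n => ∑ l ∈ F n, v l) hcau
  -- convergence along finite sets
  have hconv : ∀ s, ∀ ε > 0, ∃ F₀ : Finset ℝ, ∀ F, F₀ ⊆ F → S.nS s (u - ∑ l ∈ F, v l) < ε := by
    intro s ε hε
    obtain ⟨k, hk1, hk2⟩ := hsmall (ε / 2) (by positivity) s
    refine ⟨F' k, fun G hGk => ?_⟩
    have h1 : ∀ᶠ n in atTop, S.nS s ((∑ l ∈ F n, v l) - u) < ε / 2 :=
      (tendsto_order.1 (hu s)).2 _ (by positivity)
    obtain ⟨n, hn1, hn2⟩ := (h1.and (eventually_ge_atTop k)).exists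
    have h2 := hdiff k s hk1 (F n) G ((hFsub k).trans (hFmono hn2)) hGk
    have e1 : u - ∑ l ∈ G, v l = ((∑ l ∈ F n, v l) - ∑ l ∈ G, v l) -
        ((∑ l ∈ F n, v l) - u) := by abel
    rw [e1]
    calc _ ≤ _ := S.nS_sub_le s _ _
      _ < ε / 2 + ε / 2 := add_lt_add (h2.trans hk2) hn1
      _ = ε := by ring
  refine ⟨u, fun l => ?_, hconv⟩
  -- the projections
  apply Subtype.ext
  rw [coe_projA, ← sub_eq_zero, ← norm_le_zero_iff]
  refine le_of_forall_pos_le_add fun ε hε => ?_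
  rw [zero_add]
  obtain ⟨F₀, hF₀⟩ := hconv 0 ε hε
  have h1 := hF₀ (insert l F₀) (Finset.subset_insert _ _)
  have h2 : S.proj hB l ((∑ l' ∈ insert l F₀, v l' : S.A) : H) = v l := by
    rw [Submodule.coe_sum, map_sum, Finset.sum_eq_single l]
    · exact S.proj_eq_self (hv l)
    · intro l' _ hne
      exact S.proj_eq_zero fun w hw => S.inner_eig hne (hv l') hw
    · intro h; exact absurd (Finset.mem_insert_self _ _) h
  rw [← h2, ← map_sub, ← Submodule.coe_sub]
  exact (S.norm_proj_le hB l _).trans h1.le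

end HSys

end Vale.Agent.P207.H395
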