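import Vale.Agent.P207.H395.SSp3
import Vale.Agent.P207.H546.TensB
import Vale.Agent.P207.H571.L2Reg
import Vale.Agent.P207.H955.RelSys

/-!
# P207, block TENS: the spectral space of the families of type `ρ`, with `L = -cas`
-/

open Filter Topology MeasureTheory
open scoped InnerProductSpace

noncomputable section

set_option linter.unusedSectionVars false

namespace Vale.Agent.P207.H395

open H442 H442.FrCalc H546

section Fm

variable {n : ℕ} {A : Type*} [CommRing A] [Algebra ℝ A] {κ : Type*} [Fintype κ]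

/-- the space of the families of type `ρ` -/
def Fm (C : FrCalc n A) (ρ : Fin n → Fin n → Matrix κ κ ℝ) : Submodule ℝ (κ → A) where
  carrier := {f | C.IsFam ρ f}
  add_mem' {f g} hf hg a b α := by
    simp only [Pi.add_apply, map_add, hf a b α, hg a b α, smul_add, Finset.sum_add_distrib]
  zero_mem' a b α := by simp
  smul_mem' c f hf a b α := by
    simp only [Pi.smul_apply, Derivation.map_smul, hf a b α, Finset.smul_sum]
    exact Finset.sum_congr rfl fun β _ => smul_comm _ _ _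

theorem mem_Fm {C : FrCalc n A} {ρ : Fin n → Fin n → Matrix κ κ ℝ} {f : κ → A} :
    f ∈ Fm C ρ ↔ C.IsFam ρ f := Iff.rfl

end Fm

variable {n : ℕ} {N : Type} [TopologicalSpace N] [CompactSpace N]
  [MeasurableSpace N] [BorelSpace N] {μ : Measure N} [IsFiniteMeasure μ]
  [T2Space N] [μ.WeaklyRegular] [μ.IsOpenPosMeasure]

/-- the hypotheses of the elliptic theory on families -/
structure TData (S : NSys (Fin n ⊕ (Fin n × Fin n)) N μ) (C : FrCalc n S.A) : Prop where
  cpt : Cpt S C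
  loc : S.Loc
  cl : S.CL

variable {S : NSys (Fin n ⊕ (Fin n × Fin n)) N μ} {C : FrCalc n S.A}
  {κ κ' : Type} [Fintype κ] [Fintype κ'] [DecidableEq κ] [DecidableEq κ']

theorem TData.reg (T : TData S C) : (Qs S κ).Reg :=
  HSys.pi_Reg (H571.reg_of_loc_cl S T.loc T.cl)

theorem TData.rel (T : TData S C) : (Qs S κ).Rel :=
  HSys.pi_Rel (H955.rel_of_loc' S T.loc (H571.toHSys S) fun _ _ _ => rfl)

/-- a constant which makes the zero order term positive -/
def cst (C : FrCalc n S.A) {ρ : Fin n → Fin n → Matrix κ κ ℝ} (hρ : IsRep ρ) : ℝ :=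
  (exists_pos (S := S) (C := C) hρ).choose

theorem pos_cst (C : FrCalc n S.A) {ρ : Fin n → Fin n → Matrix κ κ ℝ} (hρ : IsRep ρ) :
    Pos (Brho C ρ (cst C hρ)) :=
  (exists_pos (S := S) (C := C) hρ).choose_spec.2 _ le_rfl

variable (T : TData S C) {ρ : Fin n → Fin n → Matrix κ κ ℝ} (hρ : IsRep ρ)

/-- the spectral space of all families -/
def tensAll : SSp (κ → S.A) :=
  (((Qs S κ).ssp T.reg T.rel (pos_cst C hρ) (brho_mem (C := C) ρ (cst C hρ))).map (vec S κ).symm).shift
    (-(1 + cst C hρ))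

theorem tensAll_L (f : κ → S.A) : (tensAll T hρ).L f =
    (fun α => lapF C ρ (cst C hρ) f α) + (-(1 + cst C hρ)) • f := by
  rw [tensAll, SSp.shift_L, SSp.map_L, HSys.ssp_L, LinearEquiv.symm_symm, lap_vec T.cpt,
    LinearEquiv.symm_apply_apply]

theorem tensAll_ip (f g : κ → S.A) : (tensAll T hρ).ip f g = ipF f g := by
  rw [tensAll, SSp.shift_ip, SSp.map_ip, HSys.ssp_ip, LinearEquiv.symm_symm, inner_vec]

theorem tensAll_nm (s : ℕ) (f : κ → S.A) : (tensAll T hρ).nm s f =
    (Qs S κ).nS s (vec S κ f) := by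
  rw [tensAll, SSp.shift_nm, SSp.map_nm, HSys.ssp_nm, LinearEquiv.symm_symm]

/-- on families of type `ρ` the operator is `-cas` -/
theorem tensAll_L_fam {f : κ → S.A} (hf : C.IsFam ρ f) :
    (tensAll T hρ).L f = fun α => -C.cas (f α) := by
  rw [tensAll_L]
  funext α
  simp only [Pi.add_apply, Pi.smul_apply]
  rw [lapF_fam _ hf]
  module

/-- the defects of equivariance are natural -/
theorem nt_Wd (a b : Fin n) : SSp.Nt (tensAll T hρ) (tensAll T hρ) (WdL C ρ a b) := by
  refine ⟨⟨fun g => -Wd C ρ a b g, fun f g => ?_⟩, fun f => ?_⟩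
  · rw [tensAll_ip, tensAll_ip]
    exact ipF_Wd T.cpt hρ a b f g
  · rw [tensAll_L, tensAll_L, map_add, map_smul]
    congr 1
    funext α
    exact Wd_lapF hρ _ a b f α

/-- the families of type `ρ` are an invariant subspace -/
theorem nsub_Fm : (tensAll T hρ).Nsub (Fm C ρ) := by
  have h1 : Fm C ρ = ⨅ a, ⨅ b, LinearMap.ker (WdL (S := S) C ρ a b) := by
    ext f
    simp only [Submodule.mem_iInf, LinearMap.mem_ker, WdL_apply]
    exact isFam_iff
  rw [h1]
  exact SSp.Nsub.iInf fun a => SSp.Nsub.iInf fun b => (nt_Wd T hρ a b).ker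

/-- **the spectral space of the families of type `ρ`**, `L = -cas` -/
def tens : SSp (Fm C ρ) := (tensAll T hρ).sub (Fm C ρ) (nsub_Fm T hρ)

theorem tens_ip (f g : Fm C ρ) : (tens T hρ).ip f g = ipF (f : κ → S.A) (g : κ → S.A) :=
  tensAll_ip T hρ f g

theorem tens_L (f : Fm C ρ) (α : κ) : ((tens T hρ).L f : κ → S.A) α = -C.cas ((f : κ → S.A) α) :=
  congrFun (tensAll_L_fam T hρ f.2) α

theorem hN_le_tens_nm (s : ℕ) (f : Fm C ρ) (α : κ) :
    S.hN s ((f : κ → S.A) α) ≤ (tens T hρ).nm s f := by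
  change _ ≤ (tensAll T hρ).nm s f
  rw [tensAll_nm]
  exact hN_le_nS s _ α

theorem tens_nm_le (s : ℕ) (f : Fm C ρ) :
    (tens T hρ).nm s f ≤ ∑ α, S.hN s ((f : κ → S.A) α) := by
  change (tensAll T hρ).nm s f ≤ _
  rw [tensAll_nm]
  exact nS_le_hN s _

theorem sum_hN_le_tens (s : ℕ) (f : Fm C ρ) :
    ∑ α, S.hN s ((f : κ → S.A) α) ≤ Fintype.card κ * (tens T hρ).nm s f := by
  change _ ≤ _ * (tensAll T hρ).nm s f
  rw [tensAll_nm]
  exact sum_hN_le s _

theorem tens_nm_zero (f : Fm C ρ) : (tens T hρ).nm 0 f ^ 2 = ipF (f : κ → S.A) (f : κ → S.A) := by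
  rw [SSp.nm_zero, tens_ip]

/-- the components are eigenfamilies of the Casimir operator -/
theorem cas_tens_P (l : ℝ) (f : Fm C ρ) (α : κ) :
    C.cas (((tens T hρ).P l f : κ → S.A) α) = -l • ((tens T hρ).P l f : κ → S.A) α := by
  have h1 := tens_L T hρ ((tens T hρ).P l f) α
  rw [SSp.L_P] at h1
  rw [neg_smul, ← neg_eq_iff_eq_neg, ← h1]
  rfl

/-- eigenfamilies are equal to their components -/
theorem tens_P_eig {l : ℝ} {f : Fm C ρ}
    (hf : ∀ α, C.cas ((f : κ → S.A) α) = -l • (f : κ → S.A) α) : (tens T hρ).P l f = f := by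
  apply SSp.P_eig
  apply Subtype.ext
  funext α
  rw [tens_L, hf, neg_smul, neg_neg]
  rfl

/-- the resolvent condition in terms of the Casimir operator -/
theorem tens_big {c δ : ℝ} (hδ : 0 < δ)
    (h : ∀ f : κ → S.A, C.IsFam ρ f → δ * ipF f f ≤ ipF (fun α => c • f α - C.cas (f α)) f) :
    (tens T hρ).Big c := by
  refine ⟨δ, hδ, fun f => ?_⟩
  rw [tens_ip, tens_ip]
  refine (h f f.2).trans (le_of_eq ?_)
  congr 1
  funext α
  rw [Submodule.coe_add, Submodule.coe_smul, Pi.add_apply, Pi.smul_apply, tens_L]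
  abel

/-- the resolvent solves `c u - cas u = f` -/
theorem tens_res {c : ℝ} (h : (tens T hρ).Big c) (f : Fm C ρ) (α : κ) :
    c • ((tens T hρ).res c h f : κ → S.A) α - C.cas (((tens T hρ).res c h f : κ → S.A) α) =
      (f : κ → S.A) α := by
  have h1 := (tens T hρ).L_res h f
  have h2 := congrArg (fun x : Fm C ρ => (x : κ → S.A) α) h1
  simp only [Submodule.coe_add, Submodule.coe_smul, Pi.add_apply, Pi.smul_apply, tens_L] at h2
  rw [← h2]
  abel

/-- **natural operators between families**: operators with a formal adjoint (on families)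
which commute with the Casimir operators -/
theorem tens_nt {ρ' : Fin n → Fin n → Matrix κ' κ' ℝ} (hρ' : IsRep ρ')
    (D : Fm C ρ →ₗ[ℝ] Fm C ρ') (D' : Fm C ρ' → Fm C ρ)
    (ha : ∀ (f : Fm C ρ) (g : Fm C ρ'), ipF (D f : κ' → S.A) (g : κ' → S.A) =
      ipF (f : κ → S.A) (D' g : κ → S.A))
    (hc : ∀ f g : Fm C ρ, (∀ α, (g : κ → S.A) α = C.cas ((f : κ → S.A) α)) →
      ∀ α, (D g : κ' → S.A) α = C.cas ((D f : κ' → S.A) α)) :
    SSp.Nt (tens T hρ) (tens T hρ') D := by
  refine ⟨⟨D', fun f g => ?_⟩, fun f => ?_⟩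
  · rw [tens_ip, tens_ip, ha]
  · apply Subtype.ext
    funext α
    rw [tens_L]
    have h1 := hc f (-(tens T hρ).L f) (fun α => by
      rw [Submodule.coe_neg, Pi.neg_apply, tens_L, neg_neg]) α
    have h2 : D (-(tens T hρ).L f) = -D ((tens T hρ).L f) := map_neg D _
    rw [h2, Submodule.coe_neg, Pi.neg_apply] at h1
    rw [← h1, neg_neg]

end Vale.Agent.P207.H395
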