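import Vale.Agent.P207.H395.Tens
import Vale.Agent.P207.H395.Rep
import Vale.Agent.P207.H379.SpG
import Vale.Agent.P207.H734.Gauge

/-!
# P207, block TENS: the spectral spaces of functions, vector fields and tensors of rank two, three
-/

open Filter Topology MeasureTheory

noncomputable section

set_option linter.unusedSectionVars false

namespace Vale.Agent.P207.H395

open H442 H442.FrCalc H546 H379

section Subs

variable {n : ℕ} {A : Type*} [CommRing A] [Algebra ℝ A]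

/-- functions on the base -/
def T0s (C : FrCalc n A) : Submodule ℝ A where
  carrier := {f | C.T0 f}
  add_mem' hf hh := FrCalc.T0.add hf hh
  zero_mem' := fun a b => by simp
  smul_mem' c f hf := FrCalc.T0.smul c hf

theorem mem_T0s {C : FrCalc n A} {f : A} : f ∈ T0s C ↔ C.T0 f := Iff.rfl

/-- tensors of rank three -/
def T3s (C : FrCalc n A) : Submodule ℝ (Fin n → Fin n → Fin n → A) where
  carrier := {f | C.T3 f}
  add_mem' {w u} hw hu := fun a b i j k => by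
    simp only [Pi.add_apply, map_add, hw a b i j k, hu a b i j k, ac_add]
    abel
  zero_mem' := fun a b i j k => by simp [ac]
  smul_mem' c w hw := fun a b i j k => by
    simp only [Pi.smul_apply, Derivation.map_smul, hw a b i j k, ac_smul, smul_add]

theorem mem_T3s {C : FrCalc n A} {f : Fin n → Fin n → Fin n → A} : f ∈ T3s C ↔ C.T3 f := Iff.rfl

/-- families of trivial type are functions on the base -/
def e0 (C : FrCalc n A) : Fm C rho0 ≃ₗ[ℝ] T0s C where
  toFun f := ⟨(f : Unit → A) (), isFam_rho0.1 f.2⟩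
  invFun f := ⟨fun _ => f, isFam_rho0.2 f.2⟩
  map_add' _ _ := rfl
  map_smul' _ _ := rfl
  left_inv _ := rfl
  right_inv _ := rfl

/-- families of vector type are vector fields -/
def e1 (C : FrCalc n A) : Fm C rho1 ≃ₗ[ℝ] T1s C where
  toFun f := ⟨(f : Fin n → A), isFam_rho1.1 f.2⟩
  invFun f := ⟨(f : Fin n → A), isFam_rho1.2 f.2⟩
  map_add' _ _ := rfl
  map_smul' _ _ := rfl
  left_inv _ := rfl
  right_inv _ := rfl

/-- families of type two are tensors of rank two -/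
def e2 (C : FrCalc n A) : Fm C rho2 ≃ₗ[ℝ] T2s C where
  toFun f := ⟨fun i j => (f : Fin n × Fin n → A) (i, j), isFam_rho2.1 f.2⟩
  invFun f := ⟨fun x => (f : Fin n → Fin n → A) x.1 x.2, isFam_rho2.2 f.2⟩
  map_add' _ _ := rfl
  map_smul' _ _ := rfl
  left_inv _ := rfl
  right_inv _ := rfl

/-- families of type three are tensors of rank three -/
def e3 (C : FrCalc n A) : Fm C rho3 ≃ₗ[ℝ] T3s C where
  toFun f := ⟨fun i j k => (f : Fin n × (Fin n × Fin n) → A) (i, (j, k)), isFam_rho3.1 f.2⟩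
  invFun f := ⟨fun x => (f : Fin n → Fin n → Fin n → A) x.1 x.2.1 x.2.2, isFam_rho3.2 f.2⟩
  map_add' _ _ := rfl
  map_smul' _ _ := rfl
  left_inv _ := rfl
  right_inv _ := rfl

end Subs

variable {n : ℕ} {N : Type} [TopologicalSpace N] [CompactSpace N]
  [MeasurableSpace N] [BorelSpace N] {μ : Measure N} [IsFiniteMeasure μ]
  [T2Space N] [μ.WeaklyRegular] [μ.IsOpenPosMeasure]
  {S : NSys (Fin n ⊕ (Fin n × Fin n)) N μ} {C : FrCalc n S.A} (T : TData S C)

/-- the spectral space of functions on the base -/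
def sp0 : SSp (T0s C) := (tens T isRep0).map (e0 C)

/-- the spectral space of vector fields -/
def sp1 : SSp (T1s C) := (tens T isRep1).map (e1 C)

/-- the spectral space of tensors of rank two -/
def sp2 : SSp (T2s C) := (tens T isRep2).map (e2 C)

/-- the spectral space of tensors of rank three -/
def sp3 : SSp (T3s C) := (tens T isRep3).map (e3 C)

theorem sp0_L (f : T0s C) : ((sp0 T).L f : S.A) = -C.cas (f : S.A) :=
  tens_L T isRep0 ((e0 C).symm f) ()

theorem sp1_L (w : T1s C) (i : Fin n) :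
    ((sp1 T).L w : Fin n → S.A) i = -C.cas ((w : Fin n → S.A) i) :=
  tens_L T isRep1 ((e1 C).symm w) i

theorem sp2_L (k : T2s C) (i j : Fin n) :
    ((sp2 T).L k : Fin n → Fin n → S.A) i j = -C.cas ((k : Fin n → Fin n → S.A) i j) :=
  tens_L T isRep2 ((e2 C).symm k) (i, j)

theorem sp3_L (k : T3s C) (i j l : Fin n) : ((sp3 T).L k : Fin n → Fin n → Fin n → S.A) i j l =
    -C.cas ((k : Fin n → Fin n → Fin n → S.A) i j l) :=
  tens_L T isRep3 ((e3 C).symm k) (i, (j, l))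

variable {I : S.A →ₗ[ℝ] ℝ} (hI : ∀ f : S.A, I f = ∫ p, (f : C(N, ℝ)) p ∂μ)

include hI

theorem I_mul (f g : S.A) : I (f * g) = ∫ p, (f : C(N, ℝ)) p * (g : C(N, ℝ)) p ∂μ := hI (f * g)

theorem sp0_ip (f g : T0s C) : (sp0 T).ip f g = I ((f : S.A) * (g : S.A)) := by
  rw [sp0, SSp.map_ip, tens_ip, I_mul hI]
  unfold ipF
  rw [Fintype.sum_unique]
  rfl

theorem sp1_ip (w u : T1s C) : (sp1 T).ip w u =
    ∑ i, I ((w : Fin n → S.A) i * (u : Fin n → S.A) i) := by
  rw [sp1, SSp.map_ip, tens_ip]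
  simp only [I_mul hI]
  rfl

theorem sp2_ip (k h : T2s C) : (sp2 T).ip k h =
    ∑ i, ∑ j, I ((k : Fin n → Fin n → S.A) i j * (h : Fin n → Fin n → S.A) i j) := by
  rw [sp2, SSp.map_ip, tens_ip]
  simp only [I_mul hI]
  unfold ipF
  rw [Fintype.sum_prod_type]
  rfl

theorem sp3_ip (k h : T3s C) : (sp3 T).ip k h =
    ∑ i, ∑ j, ∑ l, I ((k : Fin n → Fin n → Fin n → S.A) i j l *
      (h : Fin n → Fin n → Fin n → S.A) i j l) := by
  rw [sp3, SSp.map_ip, tens_ip]
  simp only [I_mul hI]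
  unfold ipF
  rw [Fintype.sum_prod_type]
  refine Finset.sum_congr rfl fun i _ => ?_
  rw [Fintype.sum_prod_type]
  rfl

/-- the form used by H379 -/
theorem isS1 : IsS1 (sp1 T) I := ⟨sp1_L T, sp1_ip T hI⟩

/-- the form used by H379 -/
theorem isS2 : IsS2 (sp2 T) I := ⟨sp2_L T, sp2_ip T hI⟩

omit hI

/-! ### norms -/

theorem hN_le_sp0 (s : ℕ) (f : T0s C) : S.hN s (f : S.A) ≤ (sp0 T).nm s f :=
  hN_le_tens_nm T isRep0 s ((e0 C).symm f) ()

theorem sp0_nm_le (s : ℕ) (f : T0s C) : (sp0 T).nm s f ≤ S.hN s (f : S.A) := by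
  refine (tens_nm_le T isRep0 s ((e0 C).symm f)).trans (le_of_eq ?_)
  rw [Fintype.sum_unique]
  rfl

theorem hN_le_sp1 (s : ℕ) (w : T1s C) (i : Fin n) :
    S.hN s ((w : Fin n → S.A) i) ≤ (sp1 T).nm s w :=
  hN_le_tens_nm T isRep1 s ((e1 C).symm w) i

theorem sp1_nm_le (s : ℕ) (w : T1s C) :
    (sp1 T).nm s w ≤ ∑ i, S.hN s ((w : Fin n → S.A) i) :=
  tens_nm_le T isRep1 s ((e1 C).symm w)

theorem hN_le_sp2 (s : ℕ) (k : T2s C) (i j : Fin n) :
    S.hN s ((k : Fin n → Fin n → S.A) i j) ≤ (sp2 T).nm s k :=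
  hN_le_tens_nm T isRep2 s ((e2 C).symm k) (i, j)

theorem sp2_nm_le (s : ℕ) (k : T2s C) :
    (sp2 T).nm s k ≤ ∑ i, ∑ j, S.hN s ((k : Fin n → Fin n → S.A) i j) := by
  refine (tens_nm_le T isRep2 s ((e2 C).symm k)).trans (le_of_eq ?_)
  rw [Fintype.sum_prod_type]
  rfl

theorem hN_le_sp3 (s : ℕ) (k : T3s C) (i j l : Fin n) :
    S.hN s ((k : Fin n → Fin n → Fin n → S.A) i j l) ≤ (sp3 T).nm s k :=
  hN_le_tens_nm T isRep3 s ((e3 C).symm k) (i, (j, l))

/-! ### components -/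

theorem cas_sp0_P (l : ℝ) (f : T0s C) :
    C.cas ((sp0 T).P l f : S.A) = -l • ((sp0 T).P l f : S.A) := by
  have h1 := sp0_L T ((sp0 T).P l f)
  rw [SSp.L_P] at h1
  rw [neg_smul, ← neg_eq_iff_eq_neg, ← h1]
  rfl

theorem cas_sp1_P (l : ℝ) (w : T1s C) (i : Fin n) :
    C.cas (((sp1 T).P l w : Fin n → S.A) i) = -l • ((sp1 T).P l w : Fin n → S.A) i := by
  have h1 := sp1_L T ((sp1 T).P l w) i
  rw [SSp.L_P] at h1
  rw [neg_smul, ← neg_eq_iff_eq_neg, ← h1]
  rfl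

theorem cas_sp2_P (l : ℝ) (k : T2s C) (i j : Fin n) :
    C.cas (((sp2 T).P l k : Fin n → Fin n → S.A) i j) =
      -l • ((sp2 T).P l k : Fin n → Fin n → S.A) i j := by
  have h1 := sp2_L T ((sp2 T).P l k) i j
  rw [SSp.L_P] at h1
  rw [neg_smul, ← neg_eq_iff_eq_neg, ← h1]
  rfl

/-! ### inverses of `c - cas` -/

include hI

theorem sp0_big (hp : C.IsInt I) (hpos : H734.IPos I) {c : ℝ} (hc : 0 < c) : (sp0 T).Big c := by
  refine ⟨c, hc, fun f => ?_⟩
  rw [sp0_ip T hI, sp0_ip T hI]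
  have h1 := H734.coer_zero hp hpos f.2 c
  refine h1.trans (le_of_eq ?_)
  congr 2
  rw [Submodule.coe_add, Submodule.coe_smul, sp0_L]
  abel

theorem sp1_big (hp : C.IsInt I) (hpos : H734.IPos I) {c₀ : ℝ} (hE : H734.Ein C c₀) {c : ℝ}
    (hc : c₀ < c) : (sp1 T).Big c := by
  refine ⟨c - c₀, sub_pos.2 hc, fun w => ?_⟩
  rw [sp1_ip T hI, sp1_ip T hI]
  have h1 := H734.coer_one hp hpos hE w.2 c
  refine h1.trans (le_of_eq ?_)
  refine Finset.sum_congr rfl fun i _ => ?_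
  congr 2
  rw [Submodule.coe_add, Submodule.coe_smul, Pi.add_apply, Pi.smul_apply, sp1_L]
  abel

include T

/-- **the inverse of `c - cas` on functions of the base** -/
theorem solv0 (hp : C.IsInt I) (hpos : H734.IPos I) {c : ℝ} (hc : 0 < c) :
    H734.Solv0 C S.hN c := by
  have hb := sp0_big T hI hp hpos hc
  choose K hK0 hK using (sp0 T).exists_nm_res_le hb
  refine ⟨K, fun g hg => ?_⟩
  let u := (sp0 T).res c hb ⟨g, hg⟩
  refine ⟨u, u.2, ?_, fun s => ?_⟩
  · have h1 := congrArg Subtype.val ((sp0 T).L_res hb ⟨g, hg⟩)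
    rw [Submodule.coe_add, Submodule.coe_smul, sp0_L] at h1
    have h2 : -C.cas (u : S.A) + c • (u : S.A) = g := h1
    rw [← h2]
    abel
  · calc S.hN (s + 2) (u : S.A) ≤ (sp0 T).nm (s + 2) u := hN_le_sp0 T _ _
      _ ≤ K s * (sp0 T).nm s ⟨g, hg⟩ := hK s _
      _ ≤ K s * S.hN s g := mul_le_mul_of_nonneg_left (sp0_nm_le T s ⟨g, hg⟩) (hK0 s)

/-- **the inverse of `c - cas` on vector fields** -/
theorem solv1 (hp : C.IsInt I) (hpos : H734.IPos I) {c₀ : ℝ} (hE : H734.Ein C c₀) {c : ℝ}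
    (hc : c₀ < c) : H734.Solv1 C S.hN c := by
  have hb := sp1_big T hI hp hpos hE hc
  choose K hK0 hK using (sp1 T).exists_nm_res_le hb
  refine ⟨K, fun g hg => ?_⟩
  let u := (sp1 T).res c hb ⟨g, hg⟩
  refine ⟨u, u.2, fun j => ?_, fun s j => ?_⟩
  · have h1 := congrArg (fun x : T1s C => (x : Fin n → S.A) j) ((sp1 T).L_res hb ⟨g, hg⟩)
    simp only [Submodule.coe_add, Submodule.coe_smul, Pi.add_apply, Pi.smul_apply, sp1_L] at h1
    have h2 : -C.cas ((u : Fin n → S.A) j) + c • ((u : Fin n → S.A) j) = g j := h1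
    rw [← h2]
    abel
  · calc S.hN (s + 2) ((u : Fin n → S.A) j) ≤ (sp1 T).nm (s + 2) u := hN_le_sp1 T _ _ _
      _ ≤ K s * (sp1 T).nm s ⟨g, hg⟩ := hK s _
      _ ≤ K s * ∑ i, S.hN s (g i) := mul_le_mul_of_nonneg_left (sp1_nm_le T s ⟨g, hg⟩) (hK0 s)

end Vale.Agent.P207.H395
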